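import Vale.Agent.P245.Defs

/-! Elementary facts on the test class, the penalty and the entropy functional. -/

open MeasureTheory Real Set Filter Topology
open scoped ENNReal

namespace Vale.Agent.P245

set_option linter.unusedSectionVars false

variable {ι : Type} [Fintype ι] [DecidableEq ι]

theorem two_le_C2 : 2 ≤ C2 := by
  have : (1 : ℝ) ≤ exp 8 := one_le_exp (by norm_num)
  unfold C2; linarith

theorem pd_cont {f : (ι → ℝ) → ℝ} (hf : ContDiff ℝ 1 f) (i : ι) : Continuous (pd f i) := by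
  unfold pd
  exact (hf.continuous_fderiv (by norm_num)).clm_apply continuous_const

theorem C1c.cont {f : (ι → ℝ) → ℝ} (hf : C1c f) : Continuous f := hf.1.continuous

theorem C1c.pd_cont {f : (ι → ℝ) → ℝ} (hf : C1c f) (i : ι) : Continuous (pd f i) :=
  P245.pd_cont hf.1 i

theorem C1c.pd_supp {f : (ι → ℝ) → ℝ} (hf : C1c f) (i : ι) : HasCompactSupport (pd f i) := by
  unfold pd
  exact hf.2.fderiv_apply ℝ (Pi.single i 1)

theorem C1c.diff {f : (ι → ℝ) → ℝ} (hf : C1c f) : Differentiable ℝ f :=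
  hf.1.differentiable (by norm_num)

theorem bdd_of_supp {u : (ι → ℝ) → ℝ} (hc : Continuous u) (hs : HasCompactSupport u) :
    ∃ C, 0 ≤ C ∧ ∀ x, |u x| ≤ C := by
  obtain ⟨C, hC⟩ := hc.bounded_above_of_compact_support hs
  exact ⟨max C 0, le_max_right _ _, fun x => (hC x).trans (le_max_left _ _)⟩

theorem C1c.bdd {f : (ι → ℝ) → ℝ} (hf : C1c f) : ∃ C, 0 ≤ C ∧ ∀ x, |f x| ≤ C :=
  bdd_of_supp hf.cont hf.2

theorem C1c.pd_bdd {f : (ι → ℝ) → ℝ} (hf : C1c f) (i : ι) : ∃ C, 0 ≤ C ∧ ∀ x, |pd f i x| ≤ C :=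
  bdd_of_supp (hf.pd_cont i) (hf.pd_supp i)

/-- A compactly supported function vanishes, with its derivatives, outside a cube. -/
theorem exists_cube {u : (ι → ℝ) → ℝ} (hs : HasCompactSupport u) :
    ∃ R : ℝ, 0 ≤ R ∧ ∀ x, x ∈ tsupport u → ∀ i, |x i| ≤ R := by
  obtain ⟨R, hR⟩ := hs.isCompact.isBounded.exists_norm_le
  refine ⟨max R 0, le_max_right _ _, fun x hx i => ?_⟩
  exact ((norm_le_pi_norm x i).trans (hR x hx)).trans (le_max_left _ _)

theorem integrable_of_bdd {α : Type} [MeasurableSpace α] {μ : Measure α} [IsFiniteMeasure μ]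
    {u : α → ℝ} (hu : Measurable u) {C : ℝ} (hC : ∀ x, |u x| ≤ C) : Integrable u μ :=
  Integrable.of_bound hu.aestronglyMeasurable C (Eventually.of_forall hC)

theorem integrable_of_supp {μ : Measure (ι → ℝ)} [IsFiniteMeasure μ] {u : (ι → ℝ) → ℝ}
    (hc : Continuous u) (hs : HasCompactSupport u) : Integrable u μ :=
  hc.integrable_of_hasCompactSupport hs

theorem C1c.add {f g : (ι → ℝ) → ℝ} (hf : C1c f) (hg : C1c g) : C1c (fun x => f x + g x) :=
  ⟨hf.1.add hg.1, hf.2.add hg.2⟩

theorem C1c.const_mul {f : (ι → ℝ) → ℝ} (hf : C1c f) (c : ℝ) : C1c (fun x => c * f x) :=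
  ⟨contDiff_const.mul hf.1, hf.2.mul_left⟩

theorem pd_add {f g : (ι → ℝ) → ℝ} (hf : Differentiable ℝ f) (hg : Differentiable ℝ g) (i : ι)
    (x : ι → ℝ) : pd (fun x => f x + g x) i x = pd f i x + pd g i x := by
  unfold pd
  rw [fderiv_fun_add (hf x) (hg x)]; rfl

theorem pd_sub {f g : (ι → ℝ) → ℝ} (hf : Differentiable ℝ f) (hg : Differentiable ℝ g) (i : ι)
    (x : ι → ℝ) : pd (fun x => f x - g x) i x = pd f i x - pd g i x := by
  unfold pd
  rw [fderiv_fun_sub (hf x) (hg x)]; rfl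

theorem pd_const_mul {f : (ι → ℝ) → ℝ} (hf : Differentiable ℝ f) (c : ℝ) (i : ι)
    (x : ι → ℝ) : pd (fun x => c * f x) i x = c * pd f i x := by
  unfold pd
  rw [fderiv_const_mul (hf x)]; rfl

theorem pd_mul {f g : (ι → ℝ) → ℝ} (hf : Differentiable ℝ f) (hg : Differentiable ℝ g) (i : ι)
    (x : ι → ℝ) : pd (fun x => f x * g x) i x = f x * pd g i x + g x * pd f i x := by
  unfold pd
  rw [fderiv_fun_mul (hf x) (hg x)]; rfl

theorem En_nonneg (μ : Measure (ι → ℝ)) (f : (ι → ℝ) → ℝ) : 0 ≤ En μ f :=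
  Finset.sum_nonneg fun _ _ => integral_nonneg fun _ => sq_nonneg _

theorem En_const_mul (μ : Measure (ι → ℝ)) {f : (ι → ℝ) → ℝ} (hf : Differentiable ℝ f) (c : ℝ) :
    En μ (fun x => c * f x) = c ^ 2 * En μ f := by
  unfold En
  rw [Finset.mul_sum]
  refine Finset.sum_congr rfl fun i _ => ?_
  rw [← integral_const_mul]
  refine integral_congr_ae (Eventually.of_forall fun x => ?_)
  simp only [pd_const_mul hf]; ring

theorem U1_nonneg (S t : ℝ) : 0 ≤ U1 S t := by unfold U1; positivity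

theorem U_nonneg (S : ℝ) (x : ι → ℝ) : 0 ≤ U S x := Finset.sum_nonneg fun _ _ => U1_nonneg _ _

theorem U1_cont (S : ℝ) : Continuous (U1 S) := by unfold U1; fun_prop

theorem U_cont (S : ℝ) : Continuous (U S : (ι → ℝ) → ℝ) := by
  unfold U
  exact continuous_finsetSum _ fun i _ => (U1_cont S).comp (continuous_apply i)

theorem U1_le {S : ℝ} (hS : 0 ≤ S) (t : ℝ) : U1 S t ≤ t ^ 2 / 2 := by
  unfold U1
  have h0 : 0 ≤ max (|t| - S) 0 := le_max_right _ _
  have h1 : max (|t| - S) 0 ≤ |t| := max_le (by linarith) (abs_nonneg t)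
  have := pow_le_pow_left₀ h0 h1 2
  rw [sq_abs] at this
  linarith

theorem U1_eq_zero {S t : ℝ} (h : |t| ≤ S) : U1 S t = 0 := by
  unfold U1; rw [max_eq_right (by linarith)]; simp

/-- The penalty turns the truncated square into the full square. -/
theorem sq_sub_U1 {S : ℝ} (hS : 0 ≤ S) (t : ℝ) :
    t ^ 2 / 4 - U1 S t ≤ min (t ^ 2) (S ^ 2) / 2 := by
  unfold U1
  rcases le_total |t| S with h | h
  · rw [max_eq_right (by linarith), min_eq_left (by rw [← sq_abs]; gcongr)]
    nlinarith [sq_nonneg t]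
  · rw [max_eq_left (by linarith), min_eq_right (by rw [← sq_abs t]; gcongr), ← sq_abs t]
    nlinarith [sq_nonneg (|t| - 2 * S)]

theorem sq_le_U1 {S t : ℝ} (hS : 0 ≤ S) (h : 2 * S ≤ |t|) : t ^ 2 ≤ 8 * U1 S t := by
  unfold U1
  rw [max_eq_left (by linarith), ← sq_abs t]
  nlinarith

theorem Base.int_U1 {μ : Measure (ι → ℝ)} {S : ℝ} (hb : Base μ S) (i : ι) :
    Integrable (fun x : ι → ℝ => U1 S (x i)) μ := by
  refine ((hb.sq i).div_const 2).mono' ((U1_cont S).comp (continuous_apply i)).aestronglyMeasurable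
    (Eventually.of_forall fun x => ?_)
  rw [Real.norm_eq_abs, abs_of_nonneg (U1_nonneg _ _)]
  exact U1_le (by linarith [hb.one_le]) _

theorem Base.int_U {μ : Measure (ι → ℝ)} {S : ℝ} (hb : Base μ S) : Integrable (U S) μ := by
  unfold U
  exact integrable_finsetSum _ fun i _ => hb.int_U1 i

/-- Functions of at most quadratic growth are integrable. -/
theorem Base.int_of_quad {μ : Measure (ι → ℝ)} {S : ℝ} (hb : Base μ S) {u : (ι → ℝ) → ℝ}
    (hu : Measurable u) {C : ℝ} (hC : ∀ x, |u x| ≤ C * (1 + ∑ i, x i ^ 2)) : Integrable u μ := by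
  haveI := hb.prob
  have h1 : Integrable (fun x : ι → ℝ => ∑ i, x i ^ 2) μ :=
    integrable_finsetSum _ fun i _ => hb.sq i
  have h2 : Integrable (fun x : ι → ℝ => C * (1 + ∑ i, x i ^ 2)) μ :=
    ((integrable_const (1 : ℝ)).add h1).const_mul C
  exact h2.mono' hu.aestronglyMeasurable (Eventually.of_forall fun x => hC x)

theorem sh_cont (i : ι) (t : ℝ) : Continuous (sh i t : (ι → ℝ) → ι → ℝ) := by
  unfold sh; fun_prop

theorem sh_sh (i : ι) (s t : ℝ) (x : ι → ℝ) : sh i s (sh i t x) = sh i (t + s) x := by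
  unfold sh; rw [add_assoc, ← Pi.single_add]

theorem sh_zero (i : ι) (x : ι → ℝ) : sh i 0 x = x := by unfold sh; simp

theorem flip_cont (ε : ι → Bool) : Continuous (flip ε : (ι → ℝ) → ι → ℝ) := by
  refine continuous_pi fun i => ?_
  unfold flip
  split_ifs <;> fun_prop

theorem abs_flip (ε : ι → Bool) (x : ι → ℝ) (i : ι) : |flip ε x i| = |x i| := by
  unfold flip; split_ifs <;> simp

/-! ### Entropy -/

section entropy

variable {α : Type} [MeasurableSpace α] {μ : Measure α}

/-- Young's inequality for the entropy. -/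
theorem young {a b : ℝ} (ha : 0 ≤ a) (hb : 0 < b) (c : ℝ) :
    a * c ≤ a * log a - a * log b - a + b * exp c := by
  rcases ha.eq_or_lt with rfl | ha
  · simp; positivity
  · have h := Real.add_one_le_exp (c + log b - log a)
    have e : exp (c + log b - log a) = b * exp c / a := by
      rw [exp_sub, exp_add, exp_log hb, exp_log ha]; ring
    rw [e, le_div_iff₀ ha] at h
    nlinarith

/-- Gibbs variational inequality. -/
theorem gibbs {w G : α → ℝ} (h0 : ∀ x, 0 ≤ w x) (hw : Integrable w μ)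
    (hl : Integrable (fun x => w x * log (w x)) μ) (hG : Integrable (fun x => w x * G x) μ)
    (he : Integrable (fun x => exp (G x)) μ) {Z : ℝ} (hZ : 0 < Z)
    (hle : ∫ x, exp (G x) ∂μ ≤ Z) :
    ∫ x, w x * G x ∂μ ≤ Ent μ w + (∫ x, w x ∂μ) * log Z := by
  set M := ∫ x, w x ∂μ with hM
  have hM0 : 0 ≤ M := integral_nonneg h0
  rcases hM0.eq_or_lt with h | h
  · have hz : w =ᵐ[μ] 0 := (integral_eq_zero_iff_of_nonneg h0 hw).1 h.symm
    have h1 : ∫ x, w x * G x ∂μ = 0 := by
      rw [← integral_zero α ℝ (μ := μ)]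
      exact integral_congr_ae (hz.mono fun x hx => by simp [hx])
    have h2 : ∫ x, w x * log (w x) ∂μ = 0 := by
      rw [← integral_zero α ℝ (μ := μ)]
      exact integral_congr_ae (hz.mono fun x hx => by simp [hx])
    unfold Ent
    rw [h1, h2, ← hM, ← h]; simp
  · have hb : 0 < M / Z := div_pos h hZ
    have key : ∫ x, w x * G x ∂μ ≤
        ∫ x, (w x * log (w x) - w x * log (M / Z) - w x + M / Z * exp (G x)) ∂μ :=
      integral_mono hG (((hl.sub (hw.mul_const _)).sub hw).add (he.const_mul _))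
        fun x => young (h0 x) hb (G x)
    have i1 : Integrable (fun x => w x * log (w x) - w x * log (M / Z)) μ :=
      hl.sub (hw.mul_const _)
    have i2 : Integrable (fun x => w x * log (w x) - w x * log (M / Z) - w x) μ := i1.sub hw
    rw [integral_add i2 (he.const_mul _), integral_sub i1 hw, integral_sub hl (hw.mul_const _),
      integral_mul_const, integral_const_mul, ← hM, log_div h.ne' hZ.ne'] at key
    have h3 : M / Z * ∫ x, exp (G x) ∂μ ≤ M := by
      calc M / Z * ∫ x, exp (G x) ∂μ ≤ M / Z * Z := by gcongr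
        _ = M := by field_simp
    unfold Ent
    rw [← hM]
    linarith

theorem Ent_nonneg [IsProbabilityMeasure μ] {w : α → ℝ} (h0 : ∀ x, 0 ≤ w x) (hw : Integrable w μ)
    (hl : Integrable (fun x => w x * log (w x)) μ) : 0 ≤ Ent μ w := by
  have := gibbs (G := fun _ => 0) h0 hw hl (by simp) (by simp) one_pos (by simp)
  simpa using this

theorem abs_mul_log_le {t C : ℝ} (h0 : 0 ≤ t) (hC : t ≤ C) : |t * log t| ≤ C ^ 2 + 1 := by
  rcases h0.eq_or_lt with rfl | h
  · simp; positivity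
  rw [abs_le]
  constructor
  · have := Real.one_sub_inv_le_log_of_pos h
    have h2 : t * (1 - t⁻¹) ≤ t * log t := by gcongr
    have h3 : t * (1 - t⁻¹) = t - 1 := by field_simp
    nlinarith [sq_nonneg C]
  · have := Real.log_le_sub_one_of_pos h
    nlinarith

theorem int_mul_log [IsFiniteMeasure μ] {w : α → ℝ} (hw : Measurable w) (h0 : ∀ x, 0 ≤ w x)
    {C : ℝ} (hC : ∀ x, w x ≤ C) : Integrable (fun x => w x * log (w x)) μ :=
  integrable_of_bdd (hw.mul hw.log) fun x => abs_mul_log_le (h0 x) (hC x)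

theorem int_of_nonneg_le [IsFiniteMeasure μ] {w : α → ℝ} (hw : Measurable w) (h0 : ∀ x, 0 ≤ w x)
    {C : ℝ} (hC : ∀ x, w x ≤ C) : Integrable w μ :=
  integrable_of_bdd hw (C := C) fun x => by rw [abs_of_nonneg (h0 x)]; exact hC x

theorem Ent_const_mul {w : α → ℝ} (hw : Integrable w μ)
    (hl : Integrable (fun x => w x * log (w x)) μ) {c : ℝ} (hc : 0 < c) :
    Ent μ (fun x => c * w x) = c * Ent μ w := by
  unfold Ent
  have h1 : ∀ t : ℝ, c * t * log (c * t) = c * (t * log t) + c * log c * t := by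
    intro t
    rcases eq_or_ne t 0 with rfl | ht
    · simp
    · rw [log_mul hc.ne' ht]; ring
  simp only [h1]
  rw [integral_add (hl.const_mul _) (hw.const_mul _), integral_const_mul, integral_const_mul,
    integral_const_mul, h1]
  ring

/-- Adding a small constant changes the entropy only slightly. -/
theorem Ent_le_add [IsProbabilityMeasure μ] {w : α → ℝ} (hw : Measurable w) (h0 : ∀ x, 0 ≤ w x)
    {C : ℝ} (hC : ∀ x, w x ≤ C) {δ : ℝ} (hδ : 0 < δ) :
    Ent μ w ≤ Ent μ (fun x => w x + δ) - δ * log δ +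
      (((∫ x, w x ∂μ) + δ) * log ((∫ x, w x ∂μ) + δ) - (∫ x, w x ∂μ) * log (∫ x, w x ∂μ)) := by
  have hi := int_of_nonneg_le (μ := μ) hw h0 hC
  have hl := int_mul_log (μ := μ) hw h0 hC
  have hl' := int_mul_log (μ := μ) (w := fun x => w x + δ) (hw.add_const δ)
    (fun x => by linarith [h0 x]) (C := C + δ) (fun x => by linarith [hC x])
  have key : ∫ x, (w x * log (w x) + δ * log δ) ∂μ ≤ ∫ x, (w x + δ) * log (w x + δ) ∂μ := by
    refine integral_mono (hl.add (integrable_const _)) hl' fun x => ?_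
    have h1 : δ * log δ ≤ δ * log (w x + δ) := by gcongr; linarith [h0 x]
    have h2 : w x * log (w x) ≤ w x * log (w x + δ) := by
      rcases (h0 x).eq_or_lt with h | h
      · rw [← h]; simp
      · gcongr; linarith
    show w x * log (w x) + δ * log δ ≤ (w x + δ) * log (w x + δ)
    linarith
  rw [integral_add hl (integrable_const _)] at key
  unfold Ent
  rw [integral_add hi (integrable_const _)]
  simp only [integral_const, probReal_univ, smul_eq_mul, one_mul] at key ⊢
  linarith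

/-- Removing the regularizing constant. -/
theorem Ent_le_of_forall [IsProbabilityMeasure μ] {w : α → ℝ} (hw : Measurable w)
    (h0 : ∀ x, 0 ≤ w x) {C : ℝ} (hC : ∀ x, w x ≤ C) {A B : ℝ}
    (h : ∀ δ : ℝ, 0 < δ → δ ≤ 1 → Ent μ (fun x => w x + δ) ≤ A + B * δ) : Ent μ w ≤ A := by
  set N := ∫ x, w x ∂μ
  have hc : Continuous fun δ : ℝ =>
      A + B * δ - δ * log δ + ((N + δ) * log (N + δ) - N * log N) := by
    have h1 := Real.continuous_mul_log
    have h2 : Continuous fun δ : ℝ => (N + δ) * log (N + δ) :=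
      h1.comp (continuous_const.add continuous_id)
    exact ((continuous_const.add (continuous_const.mul continuous_id)).sub h1).add
      (h2.sub continuous_const)
  have ht := (hc.tendsto 0).mono_left (nhdsWithin_le_nhds (s := Ioi 0))
  simp only [mul_zero, add_zero, log_zero, sub_zero, sub_self] at ht
  refine ge_of_tendsto ht ?_
  filter_upwards [Ioc_mem_nhdsGT (show (0 : ℝ) < 1 by norm_num)] with δ hδ
  have := Ent_le_add (μ := μ) hw h0 hC hδ.1
  linarith [h δ hδ.1 hδ.2]

end entropy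

end Vale.Agent.P245
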