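import Vale.Agent.P245.Master

/-! The near-extremal function contradicts the master inequality when the constant is large. -/

open MeasureTheory Real Set Filter Topology
open scoped ENNReal

namespace Vale.Agent.P245

set_option linter.unusedSectionVars false

variable {ι : Type} [Fintype ι] [DecidableEq ι]

/-- The regular part of the logarithmic derivative. -/
noncomputable def Pr (f d R w : ℝ) : ℝ := if R ≤ 4 * w then 2 * f * d / w else 0

/-- The nonnegative entropy density. -/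
noncomputable def Om (d b : ℝ) : ℝ := d ^ 2 * log (d ^ 2) - d ^ 2 * log b - d ^ 2 + b

theorem Om_nonneg (d : ℝ) {b : ℝ} (hb : 0 < b) : 0 ≤ Om d b := by
  have := young (sq_nonneg d) hb 0
  unfold Om
  simpa using this

theorem Pr_sq {f d R w : ℝ} (hw : 0 < w) (hf : f ^ 2 ≤ w) : Pr f d R w ^ 2 * w ≤ 4 * d ^ 2 := by
  unfold Pr
  split_ifs
  · have : (2 * f * d / w) ^ 2 * w = 4 * d ^ 2 * (f ^ 2 / w) := by field_simp; ring
    rw [this]
    have h1 : f ^ 2 / w ≤ 1 := (div_le_one hw).2 hf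
    nlinarith [sq_nonneg d]
  · simp; positivity

theorem Pr_young {f d R w α c : ℝ} (hw : 0 < w) (hf : f ^ 2 ≤ w) (hR : 0 < R) (hα : 0 < α)
    (hc : 0 ≤ c) : Pr f d R w ^ 2 * w * c ≤ 4 * (Om d (α * R) + 4 * α * w * exp c) := by
  have hb : 0 < α * R := mul_pos hα hR
  have hO := Om_nonneg d hb
  by_cases h : R ≤ 4 * w
  · have h1 := Pr_sq (d := d) (R := R) hw hf
    have h2 := young (sq_nonneg d) hb c
    have h3 : α * R * exp c ≤ 4 * α * w * exp c := by
      have : α * R ≤ 4 * α * w := by nlinarith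
      gcongr
    have h4 : Pr f d R w ^ 2 * w * c ≤ 4 * d ^ 2 * c := by gcongr
    unfold Om
    nlinarith
  · have : Pr f d R w = 0 := by unfold Pr; rw [if_neg h]
    rw [this]
    have : 0 ≤ 4 * α * w * exp c := by positivity
    simp only [ne_eq, OfNat.ofNat_ne_zero, not_false_eq_true, zero_pow, zero_mul]
    linarith

theorem rem_sq {f p d R w : ℝ} (hw : 0 < w) (hf : f ^ 2 ≤ w) :
    (2 * f * p / w - Pr f d R w) ^ 2 * w ≤
      8 * ((p - d) ^ 2 + if 4 * w < R then d ^ 2 else 0) := by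
  have h1 : f ^ 2 / w ≤ 1 := (div_le_one hw).2 hf
  have h0 : 0 ≤ f ^ 2 / w := by positivity
  unfold Pr
  by_cases h : R ≤ 4 * w
  · rw [if_pos h, if_neg (not_lt.2 h)]
    have : (2 * f * p / w - 2 * f * d / w) ^ 2 * w = 4 * (p - d) ^ 2 * (f ^ 2 / w) := by
      field_simp; ring
    rw [this]; nlinarith [sq_nonneg (p - d)]
  · rw [if_neg h, if_pos (not_le.1 h)]
    have : (2 * f * p / w - 0) ^ 2 * w = 4 * p ^ 2 * (f ^ 2 / w) := by field_simp; ring
    rw [this]; nlinarith [sq_nonneg (p - 2 * d), sq_nonneg p]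

/-- The coordinate contribution on the side of the tilted measure. -/
noncomputable def Phi1 (A : Set ℝ) (θ P r O x : ℝ) : ℝ :=
  A.indicator (fun x => 224 * P ^ 2 + x ^ 2 / 224) x + Aᶜ.indicator (fun x => 4 * (P * x) ^ 2) x +
    64 * O + P ^ 2 + r ^ 2 / θ + 2 * θ * x ^ 2

/-- The coordinate contribution on the side of the reference measure. -/
noncomputable def W1 (S θ α T : ℝ) : ℝ :=
  256 * α * exp (min (T ^ 2) (S ^ 2) / 2) + (if S < T then T ^ 2 else 0) + 2 * θ * T ^ 2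

theorem gain_le_Phi1 (A : Set ℝ) {f p d R w α θ S x T : ℝ} (hw : 0 < w) (hf : f ^ 2 ≤ w)
    (hR : 0 < R) (hα : 0 < α) (hθ : 0 < θ) (hx : x ≠ 0) (hT : 0 < T) :
    gain (2 * f * p / w * x) (√(T / |x|)) ≤
      Phi1 A θ (Pr f d R w) (2 * f * p / w - Pr f d R w) (Om d (α * R) / w) x + W1 S θ α T := by
  set P := Pr f d R w with hP
  have h := gain_le_b P (2 * f * p / w - P) x T S θ hx hT hθ
  rw [add_sub_cancel] at h
  have h1 : min (4 * (P * x) ^ 2) (2 * |P * x|) ≤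
      A.indicator (fun x => 224 * P ^ 2 + x ^ 2 / 224) x +
        Aᶜ.indicator (fun x => 4 * (P * x) ^ 2) x := by
    by_cases hA : x ∈ A
    · rw [indicator_of_mem hA, indicator_of_notMem (by simpa using hA), add_zero]
      refine (min_le_right _ _).trans ?_
      rw [abs_mul, ← sq_abs P, ← sq_abs x]
      nlinarith [sq_nonneg (224 * |P| - |x|)]
    · rw [indicator_of_notMem hA, indicator_of_mem (by simpa using hA), zero_add]
      exact min_le_left _ _
  have hm : 0 ≤ min (T ^ 2) (S ^ 2) / 2 := by positivity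
  have h2 := Pr_young (d := d) hw hf hR hα hm
  rw [← hP] at h2
  have h3 : 8 * P ^ 2 * min (T ^ 2) (S ^ 2) ≤
      64 * (Om d (α * R) / w) + 256 * α * exp (min (T ^ 2) (S ^ 2) / 2) := by
    have : 8 * P ^ 2 * min (T ^ 2) (S ^ 2) * w ≤
        (64 * (Om d (α * R) / w) + 256 * α * exp (min (T ^ 2) (S ^ 2) / 2)) * w := by
      have e : (64 * (Om d (α * R) / w) + 256 * α * exp (min (T ^ 2) (S ^ 2) / 2)) * w =
          64 * Om d (α * R) + 256 * α * w * exp (min (T ^ 2) (S ^ 2) / 2) := by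
        field_simp
      rw [e]; linarith
    exact le_of_mul_le_mul_right this hw
  unfold Phi1 W1
  linarith

theorem Phi1_mul_le (A : Set ℝ) {f p d R w α θ x : ℝ} (hw : 0 < w) (hf : f ^ 2 ≤ w)
    (hR : 0 < R) (hα : 0 < α) (hθ : 0 < θ) :
    Phi1 A θ (Pr f d R w) (2 * f * p / w - Pr f d R w) (Om d (α * R) / w) x * w ≤
      2112 * Om d (α * R) + 8192 * α * (Aᶜ.indicator (fun t => exp (t ^ 2 / 128)) x * w) +
        900 * d ^ 2 + 1 / 224 * (A.indicator (fun t => t ^ 2) x * w) +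
        8 / θ * ((p - d) ^ 2 + if 4 * w < R then d ^ 2 else 0) + 2 * θ * (x ^ 2 * w) := by
  have h1 := Pr_sq (d := d) (R := R) hw hf
  have h2 := rem_sq (p := p) (d := d) (R := R) hw hf
  have h3 := Pr_young (d := d) hw hf hR hα (show 0 ≤ x ^ 2 / 128 by positivity)
  have hO := Om_nonneg d (mul_pos hα hR)
  set P := Pr f d R w
  set r := 2 * f * p / w - P
  have h4 : r ^ 2 / θ * w ≤ 8 / θ * ((p - d) ^ 2 + if 4 * w < R then d ^ 2 else 0) := by
    have : r ^ 2 / θ * w = (r ^ 2 * w) / θ := by ring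
    rw [this, div_mul_eq_mul_div]
    exact div_le_div_of_nonneg_right h2 hθ.le
  have h5 : 64 * (Om d (α * R) / w) * w = 64 * Om d (α * R) := by field_simp
  unfold Phi1
  by_cases hA : x ∈ A
  · have hA' : x ∉ Aᶜ := by simpa using hA
    simp only [indicator_of_mem hA, indicator_of_notMem hA']
    nlinarith
  · have hA' : x ∈ Aᶜ := by simpa using hA
    simp only [indicator_of_notMem hA, indicator_of_mem hA']
    nlinarith [sq_nonneg d]

theorem Phi1_nonneg (A : Set ℝ) {θ P r O x : ℝ} (hθ : 0 < θ) (hO : 0 ≤ O) :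
    0 ≤ Phi1 A θ P r O x := by
  have h1 : 0 ≤ A.indicator (fun x => 224 * P ^ 2 + x ^ 2 / 224) x :=
    indicator_nonneg (fun _ _ => by positivity) _
  have h2 : 0 ≤ Aᶜ.indicator (fun x => 4 * (P * x) ^ 2) x :=
    indicator_nonneg (fun _ _ => by positivity) _
  unfold Phi1
  positivity

theorem Phi1_le (A : Set ℝ) {θ P r O x B : ℝ} (hθ : 0 < θ) (hP : P ^ 2 ≤ B) (hr : r ^ 2 ≤ B)
    (hO : O ≤ B) : Phi1 A θ P r O x ≤ (300 * B + B / θ + 1 + 2 * θ) * (1 + x ^ 2) := by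
  have hB : 0 ≤ B := (sq_nonneg _).trans hP
  have h1 : A.indicator (fun x => 224 * P ^ 2 + x ^ 2 / 224) x ≤ 224 * B + x ^ 2 := by
    refine indicator_apply_le' (fun _ => ?_) (fun _ => by positivity)
    nlinarith [sq_nonneg x]
  have h2 : Aᶜ.indicator (fun x => 4 * (P * x) ^ 2) x ≤ 4 * B * x ^ 2 := by
    refine indicator_apply_le' (fun _ => ?_) (fun _ => by positivity)
    rw [mul_pow]; nlinarith [sq_nonneg x]
  have h3 : r ^ 2 / θ ≤ B / θ := div_le_div_of_nonneg_right hr hθ.le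
  have h4 : 0 ≤ B / θ := by positivity
  unfold Phi1
  nlinarith [sq_nonneg x, mul_nonneg hB (sq_nonneg x), mul_nonneg h4 (sq_nonneg x)]

theorem W1_nonneg {S θ α : ℝ} (hθ : 0 < θ) (hα : 0 < α) (T : ℝ) : 0 ≤ W1 S θ α T := by
  unfold W1
  split_ifs <;> positivity

theorem W1_meas (S θ α : ℝ) : Measurable (W1 S θ α) := by
  unfold W1
  refine (Measurable.add (by fun_prop) ?_).add (by fun_prop)
  exact Measurable.ite measurableSet_Ioi (by fun_prop) (by fun_prop)

theorem W1_int {μ : Measure (ι → ℝ)} {S θ α : ℝ} (hb : Base μ S) (hα : 0 < α) (i : ι) :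
    Integrable (fun x : ι → ℝ => W1 S θ α |x i|) μ ∧
      ∫ x, W1 S θ α |x i| ∂μ ≤ 1024 * α + ∫ x, (if S < |x i| then x i ^ 2 else 0) ∂μ +
        2 * θ * ∫ x, x i ^ 2 ∂μ := by
  have := hb.prob
  have i1 : Integrable (fun x : ι → ℝ => exp (min (x i ^ 2) (S ^ 2) / 2)) μ := by
    refine integrable_of_bdd (by fun_prop) (C := exp (S ^ 2 / 2)) fun x => ?_
    rw [abs_of_pos (exp_pos _)]
    gcongr
    exact min_le_right _ _
  have i2 : Integrable (fun x : ι → ℝ => if S < |x i| then x i ^ 2 else 0) μ := by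
    refine (hb.sq i).mono' (Measurable.aestronglyMeasurable ?_) (Eventually.of_forall fun x => ?_)
    · exact Measurable.ite (measurableSet_lt measurable_const (by fun_prop)) (by fun_prop)
        (by fun_prop)
    · split_ifs
      · simp
      · simp [sq_nonneg]
  have i3 := (hb.sq i).const_mul (2 * θ)
  have e : (fun x : ι → ℝ => W1 S θ α |x i|) = fun x : ι → ℝ =>
      256 * α * exp (min (x i ^ 2) (S ^ 2) / 2) + (if S < |x i| then x i ^ 2 else 0) +
        2 * θ * x i ^ 2 := by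
    funext x; unfold W1; simp only [sq_abs]
  rw [e]
  have i12 : Integrable (fun x : ι → ℝ => 256 * α * exp (min (x i ^ 2) (S ^ 2) / 2) +
      (if S < |x i| then x i ^ 2 else 0)) μ := (i1.const_mul _).add i2
  refine ⟨i12.add i3, ?_⟩
  rw [integral_add i12 i3, integral_add (i1.const_mul _) i2, integral_const_mul,
    integral_const_mul]
  have h := hb.subG {i}
  simp only [Finset.sum_singleton, Finset.card_singleton, pow_one] at h
  nlinarith

section main

variable {μ : Measure (ι → ℝ)} {S K η δ : ℝ} {f : (ι → ℝ) → ℝ} {d R : ι → (ι → ℝ) → ℝ}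

theorem Reg.R_pos (h : Reg μ S K η f δ d R) (i : ι) (x : ι → ℝ) : 0 < R i x :=
  h.δ_pos.trans_le (h.R_ge i x)

theorem Reg.logR_cont (h : Reg μ S K η f δ d R) (i : ι) : Continuous fun x => log (R i x) :=
  (h.R_cont i).log fun x => (h.R_pos i x).ne'

theorem Reg.dsq_supp (h : Reg μ S K η f δ d R) (i : ι) :
    HasCompactSupport fun x => d i x ^ 2 := by
  have : (fun x => d i x ^ 2) = fun x => d i x * d i x := by funext x; ring
  rw [this]; exact (h.d_supp i).mul_right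

theorem Reg.Om_eq (h : Reg μ S K η f δ d R) (i : ι) {α : ℝ} (hα : 0 < α) :
    (fun x => Om (d i x) (α * R i x)) = fun x =>
      d i x ^ 2 * log (d i x ^ 2) - d i x ^ 2 * log (R i x) - (log α + 1) * d i x ^ 2 +
        α * R i x := by
  funext x
  unfold Om
  rw [log_mul hα.ne' (h.R_pos i x).ne']; ring

theorem Reg.Om_cont (h : Reg μ S K η f δ d R) (i : ι) {α : ℝ} (hα : 0 < α) :
    Continuous fun x => Om (d i x) (α * R i x) := by
  rw [h.Om_eq i hα]
  have h1 := h.d_cont i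
  have h2 := h.logR_cont i
  have h3 := h.R_cont i
  have h4 : Continuous fun x => d i x ^ 2 * log (d i x ^ 2) :=
    Real.continuous_mul_log.comp (h1.pow 2)
  fun_prop

theorem Reg.Om_bdd (h : Reg μ S K η f δ d R) (i : ι) {α : ℝ} (hα : 0 < α) :
    ∃ C, ∀ x, Om (d i x) (α * R i x) ≤ C := by
  have h1 := h.d_cont i
  have h4 : Continuous fun x => d i x ^ 2 * log (d i x ^ 2) :=
    Real.continuous_mul_log.comp (h1.pow 2)
  have h5 : Continuous fun x => d i x ^ 2 * log (R i x) := (h1.pow 2).mul (h.logR_cont i)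
  have h6 : Continuous fun x => (log α + 1) * d i x ^ 2 := continuous_const.mul (h1.pow 2)
  obtain ⟨C1, -, hC1⟩ := bdd_of_supp h4 (h.dsq_supp i).mul_right
  obtain ⟨C2, -, hC2⟩ := bdd_of_supp h5 (h.dsq_supp i).mul_right
  obtain ⟨C3, -, hC3⟩ := bdd_of_supp h6 (h.dsq_supp i).mul_left
  obtain ⟨C4, hC4⟩ := h.R_bdd i
  refine ⟨C1 + C2 + C3 + α * C4, fun x => ?_⟩
  have e : Om (d i x) (α * R i x) = d i x ^ 2 * log (d i x ^ 2) - d i x ^ 2 * log (R i x) -
      (log α + 1) * d i x ^ 2 + α * R i x := congrFun (h.Om_eq i hα) x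
  have a1 := (abs_le.1 (hC1 x)).2
  have a2 := (abs_le.1 (hC2 x)).1
  have a3 := (abs_le.1 (hC3 x)).1
  have a4 : α * R i x ≤ α * C4 := mul_le_mul_of_nonneg_left (hC4 x) hα.le
  linarith

theorem Reg.Om_int [IsProbabilityMeasure μ] (h : Reg μ S K η f δ d R) (i : ι) {α : ℝ}
    (hα : 0 < α) (hN : ∫ x, d i x ^ 2 ∂μ ≤ α) :
    Integrable (fun x => Om (d i x) (α * R i x)) μ ∧
      ∫ x, Om (d i x) (α * R i x) ∂μ ≤
        (Ent μ (fun x => d i x ^ 2) - ∫ x, d i x ^ 2 * log (R i x) ∂μ) + 4 * α := by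
  have h1 := h.d_cont i
  have i1 : Integrable (fun x => d i x ^ 2 * log (d i x ^ 2)) μ :=
    integrable_of_supp (Real.continuous_mul_log.comp (h1.pow 2)) (h.dsq_supp i).mul_right
  have i2 : Integrable (fun x => d i x ^ 2 * log (R i x)) μ :=
    integrable_of_supp ((h1.pow 2).mul (h.logR_cont i)) (h.dsq_supp i).mul_right
  have i3 : Integrable (fun x => d i x ^ 2) μ := integrable_of_supp (h1.pow 2) (h.dsq_supp i)
  obtain ⟨C4, hC4⟩ := h.R_bdd i
  have i4 : Integrable (R i) μ :=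
    int_of_nonneg_le (h.R_cont i).measurable (fun x => (h.R_pos i x).le) hC4
  rw [h.Om_eq i hα]
  have i12 : Integrable (fun x => d i x ^ 2 * log (d i x ^ 2) - d i x ^ 2 * log (R i x)) μ :=
    i1.sub i2
  have i123 : Integrable (fun x => d i x ^ 2 * log (d i x ^ 2) - d i x ^ 2 * log (R i x) -
      (log α + 1) * d i x ^ 2) μ := i12.sub (i3.const_mul _)
  refine ⟨i123.add (i4.const_mul _), ?_⟩
  rw [integral_add i123 (i4.const_mul _), integral_sub i12 (i3.const_mul _), integral_sub i1 i2,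
    integral_const_mul, integral_const_mul]
  unfold Ent
  set N := ∫ x, d i x ^ 2 ∂μ
  have hN0 : 0 ≤ N := integral_nonneg fun x => sq_nonneg _
  have h5 : N * log N ≤ N * log α := by
    rcases hN0.eq_or_lt with h0 | h0
    · rw [← h0]; simp
    · gcongr
  have h6 : α * ∫ x, R i x ∂μ ≤ α * 4 := by gcongr; exact h.R_int i
  nlinarith

/-- The contribution of one coordinate. -/
noncomputable def PhiC (f : (ι → ℝ) → ℝ) (δ θ : ℝ) (d R : ι → (ι → ℝ) → ℝ) (A : ι → Set ℝ)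
    (α : ι → ℝ) (i : ι) (x : ι → ℝ) : ℝ :=
  Phi1 (A i) θ (Pr (f x) (d i x) (R i x) (f x ^ 2 + δ))
    (2 * f x * pd f i x / (f x ^ 2 + δ) - Pr (f x) (d i x) (R i x) (f x ^ 2 + δ))
    (Om (d i x) (α i * R i x) / (f x ^ 2 + δ)) (x i)

theorem Reg.PhiC_meas (h : Reg μ S K η f δ d R) (θ : ℝ) {A : ι → Set ℝ}
    (hA : ∀ i, MeasurableSet (A i)) {α : ι → ℝ} (hα : ∀ i, 0 < α i) (i : ι) :
    Measurable (PhiC f δ θ d R A α i) := by
  have hf := h.c1c.cont.measurable
  have hp := (h.c1c.pd_cont i).measurable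
  have hd := (h.d_cont i).measurable
  have hR := (h.R_cont i).measurable
  have hO := (h.Om_cont i (hα i)).measurable
  have hP : Measurable fun x => Pr (f x) (d i x) (R i x) (f x ^ 2 + δ) := by
    unfold Pr
    exact Measurable.ite (measurableSet_le hR (by fun_prop)) (by fun_prop) (by fun_prop)
  have hx : Measurable fun x : ι → ℝ => x i := measurable_pi_apply i
  unfold PhiC Phi1
  simp only [indicator]
  refine ((((Measurable.add ?_ ?_).add (by fun_prop)).add (by fun_prop)).add (by fun_prop)).add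
    (by fun_prop)
  · exact Measurable.ite (hx (hA i)) (by fun_prop) (by fun_prop)
  · exact Measurable.ite (hx (hA i).compl) (by fun_prop) (by fun_prop)

theorem Reg.PhiC_nonneg (h : Reg μ S K η f δ d R) {θ : ℝ} (hθ : 0 < θ) (A : ι → Set ℝ)
    {α : ι → ℝ} (hα : ∀ i, 0 < α i) (i : ι) (x : ι → ℝ) : 0 ≤ PhiC f δ θ d R A α i x := by
  have := h.δ_pos
  exact Phi1_nonneg _ hθ (div_nonneg (Om_nonneg _ (mul_pos (hα i) (h.R_pos i x))) (by positivity))

theorem Reg.PhiC_bdd (h : Reg μ S K η f δ d R) {θ : ℝ} (hθ : 0 < θ) (A : ι → Set ℝ)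
    {α : ι → ℝ} (hα : ∀ i, 0 < α i) (i : ι) :
    ∃ C, 0 ≤ C ∧ ∀ x, PhiC f δ θ d R A α i x ≤ C * (1 + x i ^ 2) := by
  have hδ := h.δ_pos
  obtain ⟨D, hD0, hD⟩ := bdd_of_supp (h.d_cont i) (h.d_supp i)
  obtain ⟨p, hp0, hp⟩ := h.c1c.pd_bdd i
  obtain ⟨O, hO⟩ := h.Om_bdd i (hα i)
  have hO0 : 0 ≤ O := (Om_nonneg _ (mul_pos (hα i) (h.R_pos i 0))).trans (hO 0)
  set B := (24 * D ^ 2 + 16 * p ^ 2 + O) / δ with hB
  have hB0 : 0 ≤ B := by positivity
  refine ⟨300 * B + B / θ + 1 + 2 * θ, by positivity, fun x => ?_⟩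
  have hw : 0 < f x ^ 2 + δ := by positivity
  have hf : f x ^ 2 ≤ f x ^ 2 + δ := by linarith
  have hd2 : d i x ^ 2 ≤ D ^ 2 := by rw [← sq_abs]; gcongr; exact hD x
  have hp2 : pd f i x ^ 2 ≤ p ^ 2 := by rw [← sq_abs]; gcongr; exact hp x
  have key : ∀ t : ℝ, 0 ≤ t → t * (f x ^ 2 + δ) ≤ 24 * D ^ 2 + 16 * p ^ 2 + O → t ≤ B := by
    intro t ht h1
    rw [hB, le_div_iff₀ hδ]
    nlinarith [mul_nonneg ht (sq_nonneg (f x))]
  refine Phi1_le _ hθ (key _ (sq_nonneg _) ?_) (key _ (sq_nonneg _) ?_) (key _ ?_ ?_)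
  · have := Pr_sq (d := d i x) (R := R i x) hw hf
    nlinarith [sq_nonneg D, sq_nonneg p]
  · have := rem_sq (p := pd f i x) (d := d i x) (R := R i x) hw hf
    have h2 : (if 4 * (f x ^ 2 + δ) < R i x then d i x ^ 2 else 0) ≤ D ^ 2 := by
      split_ifs
      · exact hd2
      · positivity
    nlinarith [sq_nonneg (pd f i x + d i x)]
  · exact div_nonneg (Om_nonneg _ (mul_pos (hα i) (h.R_pos i x))) hw.le
  · rw [div_mul_cancel₀ _ hw.ne']
    nlinarith [sq_nonneg D, sq_nonneg p, hO x]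

theorem Reg.w_bdd (h : Reg μ S K η f δ d R) : ∃ C, ∀ x, f x ^ 2 + δ ≤ C := by
  obtain ⟨C, hC0, hC⟩ := h.c1c.bdd
  refine ⟨C ^ 2 + δ, fun x => ?_⟩
  have : f x ^ 2 ≤ C ^ 2 := by rw [← sq_abs]; gcongr; exact hC x
  linarith

theorem Reg.coord (hb : Base μ S) (h : Reg μ S K η f δ d R) {θ : ℝ} (hθ : 0 < θ)
    {A : ι → Set ℝ} (hA : ∀ i, MeasurableSet (A i)) {R0 : ℝ} (hR0 : ∀ i t, t ∉ A i → |t| ≤ R0)
    {α : ι → ℝ} (hα : ∀ i, 0 < α i) (i : ι) (hN : ∫ x, d i x ^ 2 ∂μ ≤ α i) :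
    Integrable (fun x => PhiC f δ θ d R A α i x * (f x ^ 2 + δ)) μ ∧
    ∫ x, PhiC f δ θ d R A α i x * (f x ^ 2 + δ) ∂μ ≤
      2112 * ((Ent μ (fun x => d i x ^ 2) - ∫ x, d i x ^ 2 * log (R i x) ∂μ) + 4 * α i) +
        8192 * α i *
          ∫ x, (A i)ᶜ.indicator (fun t => exp (t ^ 2 / 128)) (x i) * (f x ^ 2 + δ) ∂μ +
        900 * ∫ x, d i x ^ 2 ∂μ +
        1 / 224 * ∫ x, (A i).indicator (fun t => t ^ 2) (x i) * (f x ^ 2 + δ) ∂μ +
        8 / θ * (∫ x, (pd f i x - d i x) ^ 2 ∂μ +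
          ∫ x, (if 4 * (f x ^ 2 + δ) < R i x then d i x ^ 2 else 0) ∂μ) +
        2 * θ * ∫ x, x i ^ 2 * (f x ^ 2 + δ) ∂μ := by
  have := hb.prob
  have hδ := h.δ_pos
  obtain ⟨Cw, hCw⟩ := h.w_bdd
  have hwm : Measurable fun x => f x ^ 2 + δ := (h.c1c.cont.measurable.pow_const 2).add_const δ
  have hx : Measurable fun x : ι → ℝ => x i := measurable_pi_apply i
  have hwb : ∀ x, ‖f x ^ 2 + δ‖ ≤ Cw := fun x => by
    rw [Real.norm_eq_abs, abs_of_pos (by positivity)]; exact hCw x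
  have mulw : ∀ {u : (ι → ℝ) → ℝ}, Integrable u μ →
      Integrable (fun x => u x * (f x ^ 2 + δ)) μ := fun hu =>
    hu.mul_bdd hwm.aestronglyMeasurable (Eventually.of_forall hwb)
  obtain ⟨i1, b1⟩ := h.Om_int i (hα i) hN
  have i2 : Integrable (fun x : ι → ℝ =>
      (A i)ᶜ.indicator (fun t => exp (t ^ 2 / 128)) (x i) * (f x ^ 2 + δ)) μ := by
    refine mulw (integrable_of_bdd (C := exp (R0 ^ 2 / 128))
      ((Measurable.indicator (by fun_prop) (hA i).compl).comp hx) fun x => ?_)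
    rw [abs_of_nonneg (indicator_nonneg (fun _ _ => (exp_pos _).le) _)]
    refine indicator_apply_le' (fun hx => ?_) (fun _ => (exp_pos _).le)
    have := hR0 i _ hx
    have h2 : x i ^ 2 ≤ R0 ^ 2 := by rw [← sq_abs]; gcongr
    gcongr
  have i3 : Integrable (fun x => d i x ^ 2) μ :=
    integrable_of_supp ((h.d_cont i).pow 2) (h.dsq_supp i)
  have i4 : Integrable (fun x : ι → ℝ =>
      (A i).indicator (fun t => t ^ 2) (x i) * (f x ^ 2 + δ)) μ := by
    refine mulw ((hb.sq i).mono'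
      ((Measurable.indicator (by fun_prop) (hA i)).comp hx).aestronglyMeasurable
      (Eventually.of_forall fun x => ?_))
    rw [Real.norm_eq_abs, abs_of_nonneg (indicator_nonneg (fun _ _ => sq_nonneg _) _)]
    exact indicator_apply_le' (fun _ => le_rfl) (fun _ => sq_nonneg _)
  have i5 : Integrable (fun x => (pd f i x - d i x) ^ 2) μ := by
    refine integrable_of_supp (((h.c1c.pd_cont i).sub (h.d_cont i)).pow 2) ?_
    have hs : HasCompactSupport fun x => pd f i x - d i x := (h.c1c.pd_supp i).sub (h.d_supp i)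
    have : (fun x => (pd f i x - d i x) ^ 2) =
        fun x => (pd f i x - d i x) * (pd f i x - d i x) := by funext x; ring
    rw [this]; exact hs.mul_right
  have i6 : Integrable (fun x => if 4 * (f x ^ 2 + δ) < R i x then d i x ^ 2 else 0) μ := by
    refine i3.mono' (Measurable.aestronglyMeasurable ?_) (Eventually.of_forall fun x => ?_)
    · exact Measurable.ite (measurableSet_lt (hwm.const_mul 4) (h.R_cont i).measurable)
        ((h.d_cont i).measurable.pow_const 2) measurable_const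
    · split_ifs
      · simp
      · simp [sq_nonneg]
  have i7 : Integrable (fun x : ι → ℝ => x i ^ 2 * (f x ^ 2 + δ)) μ := mulw (hb.sq i)
  obtain ⟨C, hC0, hC⟩ := h.PhiC_bdd hθ A hα i
  have i0 : Integrable (fun x => PhiC f δ θ d R A α i x * (f x ^ 2 + δ)) μ := by
    refine mulw (hb.int_of_quad (h.PhiC_meas θ hA hα i) (C := C) fun x => ?_)
    rw [abs_of_nonneg (h.PhiC_nonneg hθ A hα i x)]
    refine (hC x).trans ?_
    gcongr
    exact Finset.single_le_sum (f := fun j => x j ^ 2) (fun j _ => sq_nonneg _) (Finset.mem_univ i)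
  refine ⟨i0, ?_⟩
  have j1 := (i1.const_mul 2112).add (i2.const_mul (8192 * α i))
  have j2 := j1.add (i3.const_mul 900)
  have j3 := j2.add (i4.const_mul (1 / 224))
  have j4 := j3.add ((i5.add i6).const_mul (8 / θ))
  have j5 := j4.add (i7.const_mul (2 * θ))
  have hle := integral_mono i0 j5 fun x =>
    Phi1_mul_le (A i) (p := pd f i x) (d := d i x) (x := x i) (by positivity)
      (by linarith) (h.R_pos i x) (hα i) hθ
  rw [integral_add' j4 (i7.const_mul _), integral_add' j3 ((i5.add i6).const_mul _),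
    integral_add' j2 (i4.const_mul _), integral_add' j1 (i3.const_mul _),
    integral_add' (i1.const_mul _) (i2.const_mul _)] at hle
  simp only [integral_const_mul] at hle
  rw [integral_add' i5 i6] at hle
  linarith

theorem step5_master {V : (ι → ℝ) → ℝ} {L : ℝ} (hV : Nice V S L)
    (h : Reg (dens V) S K η f δ d R) {θ : ℝ} (hθ : 0 < θ) {A : ι → Set ℝ}
    (hA : ∀ i, MeasurableSet (A i)) {R0 : ℝ} (hR0 : ∀ i t, t ∉ A i → |t| ≤ R0)
    {α : ι → ℝ} (hα : ∀ i, 0 < α i) (hN : ∀ i, ∫ x, d i x ^ 2 ∂(dens V) ≤ α i) :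
    Ent (dens V) (fun x => f x ^ 2 + δ) ≤
      ∑ i, ∫ x, PhiC f δ θ d R A α i x * (f x ^ 2 + δ) ∂(dens V) +
        (∫ x, (f x ^ 2 + δ) ∂(dens V)) * ∑ i, ∫ x, W1 S θ (α i) |x i| ∂(dens V) +
        Cs * En (dens V) f +
        1 / 8 * (Ent (dens V) (fun x => f x ^ 2 + δ) +
          ∫ x, U S x * (f x ^ 2 + δ) ∂(dens V)) := by
  have hδ := h.δ_pos
  choose C hC0 hC using h.PhiC_bdd hθ A hα
  have hm := master hV h.c1c hδ (Φ := fun x => ∑ i, PhiC f δ θ d R A α i x)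
    (W := fun i => W1 S θ (α i)) (C := ∑ i, C i)
    (Finset.measurable_sum _ fun i _ => h.PhiC_meas θ hA hα i)
    (fun x => Finset.sum_nonneg fun i _ => h.PhiC_nonneg hθ A hα i x)
    (fun x => by
      rw [Finset.sum_mul]
      refine Finset.sum_le_sum fun i _ => (hC i x).trans ?_
      have : x i ^ 2 ≤ ∑ j, x j ^ 2 :=
        Finset.single_le_sum (f := fun j => x j ^ 2) (fun j _ => sq_nonneg _) (Finset.mem_univ i)
      have := hC0 i
      gcongr)
    (fun i => W1_meas _ _ _) (fun i t => W1_nonneg hθ (hα i) t)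
    (fun i => (W1_int hV.base (hα i) i).1)
    (fun x hx T hT => by
      rw [← Finset.sum_add_distrib]
      refine Finset.sum_le_sum fun i _ => ?_
      exact gain_le_Phi1 (A i) (by positivity) (by linarith) (h.R_pos i x) (hα i) hθ (hx i) (hT i))
  have e : ∫ x, (∑ i, PhiC f δ θ d R A α i x) * (f x ^ 2 + δ) ∂(dens V) =
      ∑ i, ∫ x, PhiC f δ θ d R A α i x * (f x ^ 2 + δ) ∂(dens V) := by
    simp only [Finset.sum_mul]
    exact integral_finsetSum _ fun i _ => (h.coord hV.base hθ hA hR0 hα i (hN i)).1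
  rw [e] at hm
  exact hm

theorem step5_num {H E P Pw M n η θ Q c X1 X2 X3 X4 X5 X6 X7 a : ℝ} (hE : 0 ≤ E) (hP : 0 ≤ P)
    (hc : 2 ≤ c) (hn : 0 ≤ n) (hη : 0 < η) (hθ : 0 < θ) (hθ1 : θ ≤ 1 / 128) (hQ : 0 ≤ Q)
    (hM0 : 0 ≤ M) (hM : M ≤ 2) (hH : 0 ≤ H) (hPw0 : 0 ≤ Pw) (hPw : Pw ≤ P + η * Q)
    (ha : a ≤ 2 * E + n * η) (ha0 : 0 ≤ a)
    (h1 : X1 ≤ 4 * E + 2 * √(2 * E * P) + η) (h2 : X2 ≤ c * M * a) (h3 : X3 ≤ 2 * E)
    (h4 : X4 ≤ 14 * (H + Pw)) (h5 : X5 ≤ 2 * η) (h6 : X6 ≤ 4 * (H + Pw + M * (n * log 4)))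
    (h7 : X7 ≤ 1024 * a + 1 / 100 + 2 * θ * Q)
    (h : H ≤ (2112 * (X1 + 4 * a) + 8192 * X2 + 900 * X3 + 1 / 224 * X4 + 8 / θ * X5 + 2 * θ * X6) +
      M * X7 + 1024 * c * E + 1 / 8 * (H + Pw)) :
    3 / 4 * H ≤ 100000000 * c * E + 3 / 8 * P +
      (η * (Q + 2112 + 20000 * c * n + 20000 * n + 16 / θ) + θ * (32 * n + 4 * Q) + 2 / 100) := by
  have s1 : 2112 * (2 * √(2 * E * P)) ≤ 16 * 2112 ^ 2 * E + P / 8 := by
    have h0 : 0 ≤ 16 * 2112 ^ 2 * E + P / 8 := by positivity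
    have : √(2 * E * P) ≤ (16 * 2112 ^ 2 * E + P / 8) / (2 * 2112) := by
      rw [Real.sqrt_le_left (by positivity)]
      nlinarith [sq_nonneg (16 * 2112 ^ 2 * E - P / 8)]
    linarith
  have l4 : log 4 ≤ 2 := by
    have : log 4 = 2 * log 2 := by
      rw [show (4 : ℝ) = 2 ^ 2 by norm_num, log_pow]; norm_num
    have := Real.log_two_lt_d9
    linarith
  have l40 : 0 ≤ log 4 := log_nonneg (by norm_num)
  have s2 : X2 ≤ 2 * c * (2 * E + n * η) := by
    calc X2 ≤ c * M * a := h2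
      _ ≤ c * 2 * (2 * E + n * η) := by gcongr
      _ = _ := by ring
  have s5 : 8 / θ * X5 ≤ η * (16 / θ) := by
    calc 8 / θ * X5 ≤ 8 / θ * (2 * η) := by gcongr
      _ = _ := by ring
  have s6 : 2 * θ * X6 ≤ 1 / 16 * (H + Pw) + θ * (32 * n) := by
    have t1 : M * (n * log 4) ≤ 2 * (n * 2) := by gcongr
    have t2 : 2 * θ * X6 ≤ 2 * θ * (4 * (H + Pw + 2 * (n * 2))) := by
      gcongr; linarith
    have t3 : θ * (H + Pw) ≤ 1 / 128 * (H + Pw) := by gcongr
    nlinarith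
  have s7 : M * X7 ≤ 2 * (1024 * (2 * E + n * η) + 1 / 100 + 2 * θ * Q) := by
    calc M * X7 ≤ M * (1024 * a + 1 / 100 + 2 * θ * Q) := by gcongr
      _ ≤ 2 * (1024 * (2 * E + n * η) + 1 / 100 + 2 * θ * Q) := by gcongr
  have cE : 2 * E ≤ c * E := by gcongr
  have e1 : 0 ≤ n * η := by positivity
  have e2 : 0 ≤ c * (n * η) := by positivity
  have e3 : 0 ≤ η * Q := by positivity
  nlinarith

theorem step5_ineq {V : (ι → ℝ) → ℝ} {L : ℝ} (hV : Nice V S L)
    (h : Reg (dens V) S K η f δ d R) (hη1 : η ≤ 1) {θ : ℝ} (hθ : 0 < θ) (hθ1 : θ ≤ 1 / 128) :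
    3 / 4 * Ent (dens V) (fun x => f x ^ 2 + δ) ≤
      100000000 * C2 * En (dens V) f + 3 / 8 * ∫ x, U S x * f x ^ 2 ∂(dens V) +
      (η * ((∑ i, ∫ x, x i ^ 2 ∂(dens V)) + 2112 + 20000 * C2 * Fintype.card ι +
          20000 * Fintype.card ι + 16 / θ) +
        θ * (32 * Fintype.card ι + 4 * ∑ i, ∫ x, x i ^ 2 ∂(dens V)) + 2 / 100) := by
  have hb := hV.base
  have := hb.prob
  have hδ := h.δ_pos
  have hη : 0 < η := hδ.trans_le h.δ_le
  obtain ⟨Cw, hCw⟩ := h.w_bdd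
  have hwm : Measurable fun x => f x ^ 2 + δ := (h.c1c.cont.measurable.pow_const 2).add_const δ
  have hw0 : ∀ x, 0 ≤ f x ^ 2 + δ := fun x => by positivity
  have if2 : Integrable (fun x => f x ^ 2) (dens V) :=
    int_of_nonneg_le (h.c1c.cont.measurable.pow_const 2) (fun x => sq_nonneg _) (C := Cw)
      fun x => by linarith [hCw x]
  have hM : ∫ x, (f x ^ 2 + δ) ∂(dens V) = 1 + δ := by
    rw [integral_add if2 (integrable_const _), h.norm]; simp
  obtain ⟨A, hA, -, ⟨R0, hR0⟩, hA1, hA2⟩ := splitting hb hwm hw0 hCw (by rw [hM]; linarith)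
  set α : ι → ℝ := fun i => ∫ x, d i x ^ 2 ∂(dens V) + η with hαdef
  have hN0 : ∀ i, 0 ≤ ∫ x, d i x ^ 2 ∂(dens V) := fun i => integral_nonneg fun x => sq_nonneg _
  have hα : ∀ i, 0 < α i := fun i => by have := hN0 i; simp only [hαdef]; linarith
  have hN : ∀ i, ∫ x, d i x ^ 2 ∂(dens V) ≤ α i := fun i => by simp only [hαdef]; linarith
  have hm := step5_master hV h hθ hA hR0 hα hN
  have hsum := Finset.sum_le_sum (s := Finset.univ)
    fun i _ => (h.coord hb hθ hA hR0 hα i (hN i)).2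
  simp only [Finset.sum_add_distrib, mul_add, mul_assoc, ← Finset.mul_sum] at hsum
  have hwb : ∀ x, ‖f x ^ 2 + δ‖ ≤ Cw := fun x => by
    rw [Real.norm_eq_abs, abs_of_nonneg (hw0 x)]; exact hCw x
  have hPw : ∫ x, U S x * (f x ^ 2 + δ) ∂(dens V) ≤
      ∫ x, U S x * f x ^ 2 ∂(dens V) + η * ∑ i, ∫ x, x i ^ 2 ∂(dens V) := by
    have i1 : Integrable (fun x => U S x * f x ^ 2) (dens V) :=
      hb.int_U.mul_bdd (h.c1c.cont.pow 2).aestronglyMeasurable (c := Cw)
        (Eventually.of_forall fun x => by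
          rw [Real.norm_eq_abs, abs_of_nonneg (sq_nonneg _)]; linarith [hCw x])
    simp only [mul_add]
    rw [integral_add i1 (hb.int_U.mul_const _), integral_mul_const]
    have h1 : ∫ x, U S x ∂(dens V) ≤ ∑ i, ∫ x, x i ^ 2 ∂(dens V) := by
      unfold U
      rw [integral_finsetSum _ fun i _ => hb.int_U1 i]
      refine Finset.sum_le_sum fun i _ => integral_mono (hb.int_U1 i) (hb.sq i) fun x => ?_
      have := U1_le (S := S) (by linarith [hb.one_le]) (x i)
      show U1 S (x i) ≤ x i ^ 2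
      nlinarith [sq_nonneg (x i)]
    have h2 : 0 ≤ ∫ x, U S x ∂(dens V) := integral_nonneg fun x => U_nonneg _ _
    have h3 := h.δ_le
    nlinarith
  have h6 := second_moment hb hwm hw0 hCw
  have e6 : ∫ x, (∑ i, x i ^ 2) * (f x ^ 2 + δ) ∂(dens V) =
      ∑ i, ∫ x, x i ^ 2 * (f x ^ 2 + δ) ∂(dens V) := by
    simp only [Finset.sum_mul]
    exact integral_finsetSum _ fun i _ =>
      (hb.sq i).mul_bdd hwm.aestronglyMeasurable (Eventually.of_forall hwb)
  rw [e6] at h6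
  refine step5_num (M := ∫ x, (f x ^ 2 + δ) ∂(dens V)) (a := ∑ i, α i)
    (Pw := ∫ x, U S x * (f x ^ 2 + δ) ∂(dens V))
    (X2 := ∑ i, α i *
      ∫ x, (A i)ᶜ.indicator (fun t => exp (t ^ 2 / 128)) (x i) * (f x ^ 2 + δ) ∂(dens V))
    (X5 := ∑ i, ∫ x, (pd f i x - d i x) ^ 2 ∂(dens V) +
      ∑ i, ∫ x, (if 4 * (f x ^ 2 + δ) < R i x then d i x ^ 2 else 0) ∂(dens V))
    (X7 := ∑ i, ∫ x, W1 S θ (α i) |x i| ∂(dens V))
    (En_nonneg _ _) (integral_nonneg fun x => mul_nonneg (U_nonneg _ _) (sq_nonneg _))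
    two_le_C2 (Nat.cast_nonneg _) hη hθ hθ1
    (Finset.sum_nonneg fun i _ => integral_nonneg fun x => sq_nonneg _)
    (by rw [hM]; linarith) (by rw [hM]; linarith [h.δ_le])
    (Ent_nonneg hw0 (int_of_nonneg_le hwm hw0 hCw) (int_mul_log hwm hw0 hCw))
    (integral_nonneg fun x => mul_nonneg (U_nonneg _ _) (hw0 x)) hPw ?_
    (Finset.sum_nonneg fun i _ => (hα i).le) h.ent ?_ h.d_sq hA1
    (by linarith [h.close, h.bad]) h6 ?_ ?_
  · simp only [hαdef, Finset.sum_add_distrib, Finset.sum_const, Finset.card_univ, nsmul_eq_mul]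
    linarith [h.d_sq]
  · rw [Finset.mul_sum]
    refine Finset.sum_le_sum fun i _ => ?_
    rw [mul_comm _ (α i)]
    exact mul_le_mul_of_nonneg_left (hA2 i) (hα i).le
  · have := Finset.sum_le_sum (s := Finset.univ) fun i _ => (W1_int (θ := θ) hb (hα i) i).2
    simp only [Finset.sum_add_distrib, ← Finset.mul_sum] at this
    linarith [hV.tail]
  · unfold Cs at hm
    simp only [mul_add, mul_assoc] at hm ⊢
    linarith

end main

theorem err_small {δ : ℝ} (h0 : 0 < δ) (h1 : δ ≤ 1 / 10000) :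
    -(δ * log δ) + (1 + δ) * log (1 + δ) ≤ 1 / 10 := by
  have hs : 0 < √δ := Real.sqrt_pos.2 h0
  have hs1 : √δ ≤ 1 / 100 := by
    rw [Real.sqrt_le_left (by norm_num)]; linarith
  have e : δ = √δ * √δ := (Real.mul_self_sqrt h0.le).symm
  have h2 : log δ = 2 * log (√δ) := by
    conv_lhs => rw [e]
    rw [log_mul hs.ne' hs.ne']; ring
  have h3 := Real.one_sub_inv_le_log_of_pos hs
  have h4 : δ * (√δ)⁻¹ = √δ := by
    rw [← div_eq_mul_inv, div_eq_iff hs.ne']; exact e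
  have h5 : δ * (1 - (√δ)⁻¹) ≤ δ * log (√δ) := by gcongr
  have h6 := Real.log_le_sub_one_of_pos (show 0 < 1 + δ by linarith)
  have h7 : (1 + δ) * log (1 + δ) ≤ (1 + δ) * δ := by gcongr; linarith
  rw [h2]
  nlinarith

theorem step5 {V : (ι → ℝ) → ℝ} {S L K : ℝ} (hV : Nice V S L) (hK : K0 ≤ K)
    (h : ∀ η : ℝ, 0 < η → ∃ f δ d R, Reg (dens V) S K η f δ d R) : False := by
  have := hV.base.prob
  set Q := ∑ i, ∫ x, x i ^ 2 ∂(dens V) with hQ
  have hQ0 : 0 ≤ Q := Finset.sum_nonneg fun i _ => integral_nonneg fun x => sq_nonneg _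
  set n : ℝ := (Fintype.card ι : ℝ) with hn
  have hn0 : 0 ≤ n := Nat.cast_nonneg _
  have hc := two_le_C2
  set θ := 1 / (128 + 10 * (32 * n + 4 * Q)) with hθdef
  have hθ : 0 < θ := by positivity
  have hθ1 : θ ≤ 1 / 128 := by
    rw [hθdef]; apply one_div_le_one_div_of_le (by norm_num); nlinarith
  have hθ2 : θ * (32 * n + 4 * Q) ≤ 1 / 10 := by
    rw [hθdef, div_mul_eq_mul_div, div_le_div_iff₀ (by positivity) (by norm_num)]; nlinarith
  set B := Q + 2112 + 20000 * C2 * n + 20000 * n + 16 / θ with hB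
  have hB0 : 0 ≤ B := by positivity
  set η := 1 / (10000 + 10 * B) with hηdef
  have hη : 0 < η := by positivity
  have hη1 : η ≤ 1 / 10000 := by
    rw [hηdef]; apply one_div_le_one_div_of_le (by norm_num); nlinarith
  have hη2 : η * B ≤ 1 / 10 := by
    rw [hηdef, div_mul_eq_mul_div, div_le_div_iff₀ (by positivity) (by norm_num)]; nlinarith
  obtain ⟨f, δ, d, R, hR⟩ := h η hη
  have h1 := step5_ineq hV hR (by linarith) hθ hθ1
  obtain ⟨Cf, hCf0, hCf⟩ := hR.c1c.bdd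
  have h2 := Ent_le_add (μ := dens V) (w := fun x => f x ^ 2)
    (hR.c1c.cont.measurable.pow_const 2) (fun x => sq_nonneg _) (C := Cf ^ 2)
    (fun x => by rw [← sq_abs]; gcongr; exact hCf x) hR.δ_pos
  rw [hR.norm] at h2
  have h3 := err_small hR.δ_pos (hR.δ_le.trans hη1)
  have h4 := hR.big
  have hE := En_nonneg (dens V) f
  have hP : 0 ≤ ∫ x, U S x * f x ^ 2 ∂(dens V) :=
    integral_nonneg fun x => mul_nonneg (U_nonneg _ _) (sq_nonneg _)
  have h5 : 150000000 * C2 * En (dens V) f ≤ (K - 1) * En (dens V) f := by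
    unfold K0 at hK
    gcongr; linarith
  have h6 : 0 ≤ C2 * En (dens V) f := by positivity
  simp only [log_one, mul_zero, sub_zero] at h2
  rw [← hQ, ← hn, ← hB] at h1
  nlinarith

end Vale.Agent.P245
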