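import Vale.Agent.P245.Regular
import Vale.Agent.P245.Step5

open MeasureTheory Real Set Filter Topology
open scoped ENNReal

namespace Vale.Agent.P245

set_option linter.unusedSectionVars false

variable {ι : Type} [Fintype ι] [DecidableEq ι]

theorem KI.mono {μ : Measure (ι → ℝ)} {S K K' : ℝ} (h : KI μ S K) (hK : K ≤ K') : KI μ S K' := by
  intro φ hφ
  have := h φ hφ
  have h2 := mul_le_mul_of_nonneg_right hK (En_nonneg μ φ)
  linarith

theorem core {V : (ι → ℝ) → ℝ} {S L : ℝ} (hV : Nice V S L) : KI (dens V) S K0 := by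
  by_contra hcon
  obtain ⟨K', hK'⟩ := exists_KI hV
  set T : Set ℝ := {K | K0 ≤ K ∧ KI (dens V) S K} with hT
  have hne : T.Nonempty := ⟨max K' K0, le_max_right _ _, hK'.mono (le_max_left _ _)⟩
  have hbd : BddBelow T := ⟨K0, fun K hK => hK.1⟩
  set K := sInf T with hK
  have hK0 : K0 ≤ K := le_csInf hne fun K hK => hK.1
  have hKI : KI (dens V) S K := by
    intro φ hφ
    refine le_of_forall_pos_le_add fun e he => ?_
    have hE := En_nonneg (dens V) φ
    obtain ⟨K₁, hK₁, hlt⟩ := exists_lt_of_csInf_lt hne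
      (show sInf T < K + e / (En (dens V) φ + 1) by
        rw [← hK]; linarith [div_pos he (show 0 < En (dens V) φ + 1 by linarith)])
    have h1 := hK₁.2 φ hφ
    have h2 : K₁ * En (dens V) φ ≤ (K + e / (En (dens V) φ + 1)) * En (dens V) φ :=
      mul_le_mul_of_nonneg_right hlt.le hE
    have h3 : e / (En (dens V) φ + 1) * En (dens V) φ ≤ e := by
      rw [div_mul_eq_mul_div, div_le_iff₀ (by linarith)]; nlinarith
    nlinarith
  have hopt : ∀ ε : ℝ, 0 < ε → ¬ KI (dens V) S (K - ε) := by
    intro ε hε h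
    rcases le_total (K - ε) K0 with h1 | h1
    · exact hcon (h.mono h1)
    · have : K ≤ K - ε := csInf_le hbd ⟨h1, h⟩
      linarith
  have h2 : 2 * K1 + 2 ≤ K := by
    have := two_le_C2
    unfold K0 at hK0; unfold K1; linarith
  exact step5 hV hK0 fun η hη => regular hV h2 hKI hopt hη

end Vale.Agent.P245
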