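import Vale.Agent.P245.ShiftAux

open MeasureTheory Real Set Filter Topology
open scoped ENNReal

namespace Vale.Agent.P245

set_option linter.unusedSectionVars false

variable {ι : Type} [Fintype ι] [DecidableEq ι]

/-- Weights that change by a bounded factor under short shifts. -/
structure Wt (w : (ι → ℝ) → ℝ) : Prop where
  cont : Continuous w
  nonneg : ∀ x, 0 ≤ w x
  shift : ∀ x i t, |t| ≤ 1 → w x ≤ 2 * w (sh i t x)

/-- Weighted square norm. -/
noncomputable def Qw (V w u : (ι → ℝ) → ℝ) : ℝ := ∫ x, w x * u x ^ 2 ∂(dens V)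

theorem Wt_one : Wt (fun _ : ι → ℝ => (1 : ℝ)) :=
  ⟨continuous_const, fun _ => zero_le_one, fun _ _ _ _ => by norm_num⟩

theorem U1_le_shift (S y t : ℝ) : U1 S y ≤ 2 * U1 S (y + t) + t ^ 2 := by
  unfold U1
  set p := max (|y| - S) 0
  set q := max (|y + t| - S) 0
  have hp : 0 ≤ p := le_max_right _ _
  have hpq : |p - q| ≤ |t| := by
    refine (abs_max_sub_max_le_abs _ _ _).trans ?_
    have h := abs_abs_sub_abs_le_abs_sub y (y + t)
    rw [sub_add_cancel_left, abs_neg] at h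
    rwa [sub_sub_sub_cancel_right]
  have h2 := (abs_le.1 hpq).2
  have h3 : p ^ 2 ≤ (q + |t|) ^ 2 := pow_le_pow_left₀ hp (by linarith) 2
  rw [← sq_abs t]
  nlinarith [sq_nonneg (q - |t|)]

theorem Wt_U (S : ℝ) : Wt (fun x : ι → ℝ => U S x + 1) := by
  refine ⟨(U_cont S).add continuous_const, fun x => by linarith [U_nonneg S x],
    fun x i t ht => ?_⟩
  have h1 := U_sh_sub S i t x
  have h2 := U1_le_shift S (x i) t
  have h3 : U1 S (sh i t x i) ≤ U S (sh i t x) :=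
    Finset.single_le_sum (f := fun j => U1 S (sh i t x j)) (fun j _ => U1_nonneg _ _)
      (Finset.mem_univ i)
  rw [sh_apply_self] at h3
  have h4 : t ^ 2 ≤ 1 := by rw [← sq_abs]; nlinarith [abs_nonneg t]
  linarith

theorem Qw_nonneg (V : (ι → ℝ) → ℝ) {w : (ι → ℝ) → ℝ} (hw : Wt w) (u : (ι → ℝ) → ℝ) :
    0 ≤ Qw V w u := integral_nonneg fun x => mul_nonneg (hw.nonneg x) (sq_nonneg _)

theorem exp_le_exp_L {V : (ι → ℝ) → ℝ} {L : ℝ} (hV : Smooth V L) {t : ℝ} (ht : |t| ≤ 1) :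
    exp (L * |t|) ≤ exp L :=
  exp_le_exp.2 (mul_le_of_le_one_right hV.nonneg ht)

theorem Qw_sh {V : (ι → ℝ) → ℝ} {S L : ℝ} (hV : Nice V S L) {w u : (ι → ℝ) → ℝ} (hw : Wt w)
    (hu : CC u) (i : ι) {t : ℝ} (ht : |t| ≤ 1) :
    Qw V w (fun x => u (sh i t x)) ≤ 2 * exp L * Qw V w u := by
  have := hV.base.prob
  have hc := hu.sq.mul_left hw.cont
  have h1 := (shift_le hV.smooth (u := fun x => w x * u x ^ 2) hc.1.measurable
    (fun x => mul_nonneg (hw.nonneg x) (sq_nonneg _)) hc.int i t).2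
  have h2 : Qw V w (fun x => u (sh i t x)) ≤
      ∫ x, 2 * (w (sh i t x) * u (sh i t x) ^ 2) ∂(dens V) := by
    refine integral_mono ((hu.sh i t).sq.mul_left hw.cont).int ((hc.sh i t).int.const_mul 2)
      fun x => ?_
    have := mul_le_mul_of_nonneg_right (hw.shift x i t ht) (sq_nonneg (u (sh i t x)))
    simp only
    linarith
  rw [integral_const_mul] at h2
  have h3 := mul_le_mul_of_nonneg_right (exp_le_exp_L hV.smooth ht) (Qw_nonneg V hw u)
  unfold Qw at h2 h3 ⊢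
  linarith

theorem Qw_sub {V : (ι → ℝ) → ℝ} {S L : ℝ} (hV : Nice V S L) {w u v : (ι → ℝ) → ℝ} (hw : Wt w)
    (hu : CC u) (hv : CC v) : Qw V w (fun x => u x - v x) ≤ 2 * Qw V w u + 2 * Qw V w v := by
  have := hV.base.prob
  have i1 : Integrable (fun x => 2 * (w x * u x ^ 2)) (dens V) :=
    (hu.sq.mul_left hw.cont).int.const_mul 2
  have i2 : Integrable (fun x => 2 * (w x * v x ^ 2)) (dens V) :=
    (hv.sq.mul_left hw.cont).int.const_mul 2
  unfold Qw
  rw [← integral_const_mul, ← integral_const_mul, ← integral_add i1 i2]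
  refine integral_mono ((hu.sub hv).sq.mul_left hw.cont).int (i1.add i2) fun x => ?_
  have := mul_nonneg (hw.nonneg x) (sq_nonneg (u x + v x))
  simp only
  nlinarith

theorem Qw_mul {V : (ι → ℝ) → ℝ} {S L : ℝ} (hV : Nice V S L) {w u g : (ι → ℝ) → ℝ} (hw : Wt w)
    (hu : CC u) (hg : Continuous g) {C : ℝ} (hC : ∀ x, |g x| ≤ C) :
    Qw V w (fun x => u x * g x) ≤ C ^ 2 * Qw V w u := by
  have := hV.base.prob
  unfold Qw
  rw [← integral_const_mul]
  refine integral_mono ((hu.mul_right hg).sq.mul_left hw.cont).int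
    ((hu.sq.mul_left hw.cont).int.const_mul _) fun x => ?_
  have h1 : g x ^ 2 ≤ C ^ 2 := by
    rw [← sq_abs]; exact pow_le_pow_left₀ (abs_nonneg _) (hC x) 2
  have h2 := mul_le_mul_of_nonneg_left h1 (mul_nonneg (hw.nonneg x) (sq_nonneg (u x)))
  simp only
  nlinarith

theorem expV_le {V : (ι → ℝ) → ℝ} {L : ℝ} (hV : Smooth V L) (i : ι) {s : ℝ} (hs : |s| ≤ 1)
    (x : ι → ℝ) : |exp (V x - V (sh i (-s) x))| ≤ exp L := by
  rw [abs_of_pos (exp_pos _)]
  exact (hV.exp_le x i s).trans (exp_le_exp_L hV hs)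

theorem Qw_dif {V : (ι → ℝ) → ℝ} {S L : ℝ} (hV : Nice V S L) {w u : (ι → ℝ) → ℝ} (hw : Wt w)
    (hu : CC u) (i : ι) {s : ℝ} (hs : |s| ≤ 1) :
    Qw V w (dif u i s) ≤ (4 * exp L + 2) * Qw V w u := by
  have h1 := Qw_sub hV hw (hu.sh i s) hu
  have h2 := Qw_sh hV hw hu i hs
  have e : dif u i s = fun x => u (sh i s x) - u x := rfl
  rw [e]
  linarith

theorem Qw_back {V : (ι → ℝ) → ℝ} {S L : ℝ} (hV : Nice V S L) {w u : (ι → ℝ) → ℝ} (hw : Wt w)
    (hu : CC u) (i : ι) {s : ℝ} (hs : |s| ≤ 1) :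
    Qw V w (fun x => u (sh i (-s) x) * exp (V x - V (sh i (-s) x))) ≤
      2 * exp L ^ 3 * Qw V w u := by
  have h1 := Qw_mul hV hw (hu.sh i (-s)) (expV_cont hV.smooth.c1.continuous i (-s))
    (expV_le hV.smooth i hs)
  have h2 := Qw_sh hV hw hu i (t := -s) (by rwa [abs_neg])
  have h3 := mul_le_mul_of_nonneg_left h2 (sq_nonneg (exp L))
  linarith

theorem CC.adj' {V u : (ι → ℝ) → ℝ} (hV : Continuous V) (hu : CC u) (i : ι) (s : ℝ) :
    CC (adj V u i s) :=
  hu.sub ((hu.sh i (-s)).mul_right (expV_cont hV i (-s)))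

theorem Qw_adj {V : (ι → ℝ) → ℝ} {S L : ℝ} (hV : Nice V S L) {w u : (ι → ℝ) → ℝ} (hw : Wt w)
    (hu : CC u) (i : ι) {s : ℝ} (hs : |s| ≤ 1) :
    Qw V w (adj V u i s) ≤ (2 + 4 * exp L ^ 3) * Qw V w u := by
  have h1 := Qw_sub hV hw hu ((hu.sh i (-s)).mul_right (expV_cont hV.smooth.c1.continuous i (-s)))
  have h2 := Qw_back hV hw hu i hs
  have e : adj V u i s = fun x => u x - u (sh i (-s) x) * exp (V x - V (sh i (-s) x)) := rfl
  rw [e]
  linarith

theorem Qw_one (V u : (ι → ℝ) → ℝ) : Qw V (fun _ => 1) u = ∫ x, u x ^ 2 ∂(dens V) := by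
  unfold Qw; simp only [one_mul]

theorem Qw_U {V : (ι → ℝ) → ℝ} {S L : ℝ} (hV : Nice V S L) {u : (ι → ℝ) → ℝ} (hu : CC u) :
    Qw V (fun x => U S x + 1) u = ∫ x, U S x * u x ^ 2 ∂(dens V) + ∫ x, u x ^ 2 ∂(dens V) := by
  have := hV.base.prob
  unfold Qw
  simp only [add_mul, one_mul]
  exact integral_add (hu.sq.mul_left (U_cont S)).int hu.sq.int

theorem pd_sq_le_En (μ : Measure (ι → ℝ)) (f : (ι → ℝ) → ℝ) (j : ι) :
    ∫ x, pd f j x ^ 2 ∂μ ≤ En μ f :=
  Finset.single_le_sum (f := fun j => ∫ x, pd f j x ^ 2 ∂μ)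
    (fun _ _ => integral_nonneg fun _ => sq_nonneg _) (Finset.mem_univ j)

theorem pd_adj_crude {V : (ι → ℝ) → ℝ} {S L : ℝ} (hV : Nice V S L) {f : (ι → ℝ) → ℝ}
    (hf : C1c f) (i j : ι) {s : ℝ} (hs : |s| ≤ 1) :
    ∫ x, pd (adj V (dif f i s) i s) j x ^ 2 ∂(dens V) ≤
      2 * ((2 + 4 * exp L ^ 3) * ((4 * exp L + 2) * En (dens V) f)) +
        2 * (L ^ 2 * (2 * exp L ^ 3 * ((4 * exp L + 2) * ∫ x, f x ^ 2 ∂(dens V)))) := by
  have hc : Continuous V := hV.smooth.c1.continuous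
  have hφ := hf.dif i s
  have hp := pd_cont hV.smooth.c1 j
  have e1 : pd (dif f i s) j = dif (pd f j) i s := funext fun x => pd_dif hf i j s x
  have e2 : pd (adj V (dif f i s) i s) j = fun x => adj V (pd (dif f i s) j) i s x -
      dif f i s (sh i (-s) x) * exp (V x - V (sh i (-s) x)) *
        (pd V j x - pd V j (sh i (-s) x)) := funext fun x => pd_adj hV.smooth.c1 hφ i j s x
  have c1 := (hφ.cc.sh i (-s)).mul_right (expV_cont hc i (-s))
  have c2 : Continuous fun x => pd V j x - pd V j (sh i (-s) x) :=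
    hp.sub (hp.comp (sh_cont i (-s)))
  have h1 := Qw_sub hV Wt_one (CC.adj' hc (hφ.pd_cc j) i s) (c1.mul_right c2)
  have h2 := Qw_adj hV Wt_one (hφ.pd_cc j) i hs
  have h3 := Qw_dif hV Wt_one (hf.pd_cc j) i hs
  have h4 := Qw_mul hV Wt_one c1 c2 (C := L) fun x => by
    have h := hV.smooth.lip' x i j (-s)
    rw [abs_neg, abs_sub_comm] at h
    exact h.trans (mul_le_of_le_one_right hV.smooth.nonneg hs)
  have h5 := Qw_back hV Wt_one hφ.cc i hs
  have h6 := Qw_dif hV Wt_one hf.cc i hs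
  rw [← e1, Qw_one V (pd f j)] at h3
  rw [Qw_one V f] at h6
  rw [← e2, Qw_one] at h1
  have h7 := pd_sq_le_En (dens V) f j
  have k1 : (4 * exp L + 2) * ∫ x, pd f j x ^ 2 ∂(dens V) ≤ (4 * exp L + 2) * En (dens V) f :=
    mul_le_mul_of_nonneg_left h7 (by positivity)
  have k2 := mul_le_mul_of_nonneg_left (h3.trans k1) (by positivity : 0 ≤ 2 + 4 * exp L ^ 3)
  have k3 := mul_le_mul_of_nonneg_left h6 (by positivity : 0 ≤ 2 * exp L ^ 3)
  have k4 := mul_le_mul_of_nonneg_left (h5.trans k3) (sq_nonneg L)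
  linarith

/-- Crude bounds for the test function, uniform in `f`. Use `pd_adj`, `pd_dif`, the bounds
exp(V x - V(sh i (-s) x)) ≤ exp L, |pd V j x - pd V j (sh ..)| ≤ L, `shift_le`, and
U S x ≤ 2 U S (sh i t x) + t². -/
theorem adj_crude {V : (ι → ℝ) → ℝ} {S L : ℝ} (hV : Nice V S L) (Γ : ℝ) :
    ∃ C : ℝ, 0 ≤ C ∧ ∀ f : (ι → ℝ) → ℝ, C1c f → ∫ x, f x ^ 2 ∂(dens V) = 1 →
      En (dens V) f ≤ Γ → ∫ x, U S x * f x ^ 2 ∂(dens V) ≤ Γ → ∀ (i : ι) (s : ℝ), 0 < s → s ≤ 1 →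
        En (dens V) (adj V (dif f i s) i s) ≤ C ∧
        ∫ x, U S x * adj V (dif f i s) i s x ^ 2 ∂(dens V) ≤ C ∧
        ∫ x, adj V (dif f i s) i s x ^ 2 ∂(dens V) ≤ C := by
  set A := Fintype.card ι * (2 * ((2 + 4 * exp L ^ 3) * ((4 * exp L + 2) * Γ)) +
        2 * (L ^ 2 * (2 * exp L ^ 3 * ((4 * exp L + 2) * 1)))) with hA
  set B := (2 + 4 * exp L ^ 3) * ((4 * exp L + 2) * (Γ + 1)) with hB
  refine ⟨max (max A B) 0, le_max_right _ _, fun f hf hn hE hU i s hs0 hs1 => ?_⟩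
  have hs : |s| ≤ 1 := by rwa [abs_of_pos hs0]
  have hc : Continuous V := hV.smooth.c1.continuous
  have hφ := hf.dif i s
  have h1 : En (dens V) (adj V (dif f i s) i s) ≤ A := by
    rw [hA, ← nsmul_eq_mul, ← Finset.card_univ]
    refine Finset.sum_le_card_nsmul _ _ _ fun j _ => (pd_adj_crude hV hf i j hs).trans ?_
    rw [hn]
    gcongr
  have h2 := Qw_adj hV (Wt_U S) hφ.cc i hs
  have h3 := Qw_dif hV (Wt_U S) hf.cc i hs
  rw [Qw_U hV hf.cc, hn] at h3
  rw [Qw_U hV (CC.adj' hc hφ.cc i s)] at h2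
  have h4 : ∫ x, U S x * adj V (dif f i s) i s x ^ 2 ∂(dens V) +
      ∫ x, adj V (dif f i s) i s x ^ 2 ∂(dens V) ≤ B := by
    refine h2.trans (mul_le_mul_of_nonneg_left (h3.trans ?_) (by positivity))
    gcongr
  have h5 : 0 ≤ ∫ x, U S x * adj V (dif f i s) i s x ^ 2 ∂(dens V) :=
    integral_nonneg fun x => mul_nonneg (U_nonneg S x) (sq_nonneg _)
  have h6 : 0 ≤ ∫ x, adj V (dif f i s) i s x ^ 2 ∂(dens V) :=
    integral_nonneg fun x => sq_nonneg _
  have hA' : A ≤ max (max A B) 0 := (le_max_left _ _).trans (le_max_left _ _)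
  have hB' : B ≤ max (max A B) 0 := (le_max_right _ _).trans (le_max_left _ _)
  exact ⟨h1.trans hA', by linarith, by linarith⟩

theorem sqrt_sh_le {V : (ι → ℝ) → ℝ} {S L : ℝ} (hV : Nice V S L) {f : (ι → ℝ) → ℝ} (hf : C1c f)
    (i j : ι) {s : ℝ} (hs : 0 ≤ s) :
    √(∫ x, pd f j (sh i s x) ^ 2 ∂(dens V)) ≤ √(exp (L * s) * En (dens V) f) := by
  have h := shift_sq hV (hf.pd_cc j) i s
  rw [abs_of_nonneg hs] at h
  exact sqrt_le_sqrt (h.trans (mul_le_mul_of_nonneg_left (pd_sq_le_En _ f j) (exp_pos _).le))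

theorem lip_le {V : (ι → ℝ) → ℝ} {L : ℝ} (hV : Smooth V L) (i j : ι) {s : ℝ} (hs : 0 ≤ s)
    (x : ι → ℝ) : |pd V j (sh i s x) - pd V j x| ≤ L * s := by
  have h := hV.lip' x i j s
  rwa [abs_of_nonneg hs] at h

/-- Crude bound for the curvature term (`lip'`, Cauchy-Schwarz, `dif_sq_le`, `shift_le`). -/
theorem Curv_crude {V : (ι → ℝ) → ℝ} {S L : ℝ} (hV : Nice V S L) {f : (ι → ℝ) → ℝ} (hf : C1c f)
    (i : ι) {s : ℝ} (hs : 0 ≤ s) :
    |Curv V f i s| ≤ L * s ^ 2 * exp (L * s) * (Fintype.card ι * En (dens V) f) := by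
  have := hV.base.prob
  have hφ := (hf.dif i s).cc
  have hLs : 0 ≤ L * s := mul_nonneg hV.smooth.nonneg hs
  have hE : 0 ≤ exp (L * s) * En (dens V) f := mul_nonneg (exp_pos _).le (En_nonneg _ _)
  have r1 : √(∫ x, dif f i s x ^ 2 ∂(dens V)) ≤ s * √(exp (L * s) * En (dens V) f) := by
    rw [← sqrt_sq hs, ← sqrt_mul (sq_nonneg s), sqrt_sq hs]
    refine sqrt_le_sqrt ((dif_sq_le hV hf i hs).trans ?_)
    rw [mul_assoc]
    exact mul_le_mul_of_nonneg_left
      (mul_le_mul_of_nonneg_left (pd_sq_le_En _ f i) (exp_pos _).le) (sq_nonneg s)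
  have h : ∀ j, |∫ x, dif f i s x * pd f j (sh i s x) * (pd V j (sh i s x) - pd V j x)
      ∂(dens V)| ≤ L * s ^ 2 * (exp (L * s) * En (dens V) f) := by
    intro j
    have h1 := hφ.cs_le (μ := dens V) ((hf.pd_cc j).sh i s) hLs
      (w := fun x => dif f i s x * pd f j (sh i s x) * (pd V j (sh i s x) - pd V j x)) fun x => by
        rw [abs_mul, abs_mul, mul_comm]
        exact mul_le_mul_of_nonneg_right (lip_le hV.smooth i j hs x) (by positivity)
    have h2 := mul_le_mul r1 (sqrt_sh_le hV hf i j hs) (sqrt_nonneg _) (by positivity)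
    rw [mul_assoc, mul_self_sqrt hE] at h2
    refine h1.trans ((mul_le_mul_of_nonneg_left h2 hLs).trans (le_of_eq ?_))
    ring
  unfold Curv
  refine (Finset.abs_sum_le_sum_abs _ _).trans
    ((Finset.sum_le_card_nsmul _ _ _ fun j _ => h j).trans (le_of_eq ?_))
  rw [nsmul_eq_mul, Finset.card_univ]
  ring

theorem Curv_term {V : (ι → ℝ) → ℝ} {S L : ℝ} (hV : Nice V S L) {f : (ι → ℝ) → ℝ} (hf : C1c f)
    {s c : ℝ} (hs : 0 < s) (hc : 0 ≤ c) (i j : ι)
    (h1 : ∫ x, (pd f j (sh i s x) - pd f j x) ^ 2 ∂(dens V) ≤ c ^ 2)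
    (h2 : ∫ x, (pd f i x - dif f i s x / s) ^ 2 ∂(dens V) ≤ c ^ 2) :
    s * ∫ x, pd f i x * pd f j x * (pd V j (sh i s x) - pd V j x) ∂(dens V) -
        2 * L * s ^ 2 * c * √(exp (L * s) * En (dens V) f) ≤
      ∫ x, dif f i s x * pd f j (sh i s x) * (pd V j (sh i s x) - pd V j x) ∂(dens V) := by
  have := hV.base.prob
  have hφ := (hf.dif i s).cc
  have hL := hV.smooth.nonneg
  have hLs : 0 ≤ L * s := mul_nonneg hL hs.le
  have hp := pd_cont hV.smooth.c1 j
  have cΔ : Continuous fun x => pd V j (sh i s x) - pd V j x := (hp.comp (sh_cont i s)).sub hp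
  have cu : CC fun x => pd f i x - dif f i s x / s := by
    simp only [div_eq_mul_inv]
    exact (hf.pd_cc i).sub (hφ.mul_right continuous_const)
  have cτ := (hf.pd_cc j).sh i s
  have cv := cτ.sub (hf.pd_cc j)
  have r1 := (sqrt_le_sqrt h1).trans (le_of_eq (sqrt_sq hc))
  have r2 := (sqrt_le_sqrt h2).trans (le_of_eq (sqrt_sq hc))
  have r3 := sqrt_sh_le hV hf i j hs.le
  have r4 : √(∫ x, pd f i x ^ 2 ∂(dens V)) ≤ √(exp (L * s) * En (dens V) f) :=
    sqrt_le_sqrt ((pd_sq_le_En _ f i).trans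
      (le_mul_of_one_le_left (En_nonneg _ _) (one_le_exp hLs)))
  have b1 := cu.cs_le (μ := dens V) cτ hLs (w := fun x => (pd f i x - dif f i s x / s) *
    pd f j (sh i s x) * (pd V j (sh i s x) - pd V j x)) fun x => by
      rw [abs_mul, abs_mul, mul_comm]
      exact mul_le_mul_of_nonneg_right (lip_le hV.smooth i j hs.le x) (by positivity)
  have b2 := (hf.pd_cc i).cs_le (μ := dens V) cv hLs (w := fun x => pd f i x *
    (pd f j (sh i s x) - pd f j x) * (pd V j (sh i s x) - pd V j x)) fun x => by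
      rw [abs_mul, abs_mul, mul_comm]
      exact mul_le_mul_of_nonneg_right (lip_le hV.smooth i j hs.le x) (by positivity)
  have d1 := ((le_abs_self _).trans b1).trans
    (mul_le_mul_of_nonneg_left (mul_le_mul r2 r3 (sqrt_nonneg _) hc) hLs)
  have d2 := ((neg_le_abs _).trans b2).trans
    (mul_le_mul_of_nonneg_left (mul_le_mul r4 r1 (sqrt_nonneg _) (sqrt_nonneg _)) hLs)
  have i1 := ((cu.mul_right cτ.1).mul_right cΔ).int (μ := dens V)
  have i2 := (((hf.pd_cc i).mul_right cv.1).mul_right cΔ).int (μ := dens V)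
  have i3 := (((hf.pd_cc i).mul_right (hf.pd_cont j)).mul_right cΔ).int (μ := dens V)
  have i4 : Integrable (fun x => pd f i x * (pd f j (sh i s x) - pd f j x) *
      (pd V j (sh i s x) - pd V j x) + pd f i x * pd f j x * (pd V j (sh i s x) - pd V j x))
      (dens V) := i2.add i3
  have e : ∫ x, dif f i s x * pd f j (sh i s x) * (pd V j (sh i s x) - pd V j x) ∂(dens V) =
      s * (∫ x, pd f i x * (pd f j (sh i s x) - pd f j x) * (pd V j (sh i s x) - pd V j x)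
        ∂(dens V) + ∫ x, pd f i x * pd f j x * (pd V j (sh i s x) - pd V j x) ∂(dens V) -
        ∫ x, (pd f i x - dif f i s x / s) * pd f j (sh i s x) * (pd V j (sh i s x) - pd V j x)
          ∂(dens V)) := by
    rw [← integral_add i2 i3, ← integral_sub i4 i1, ← integral_const_mul]
    refine integral_congr_ae (Eventually.of_forall fun x => ?_)
    simp only
    field_simp
    ring
  rw [e]
  have k1 := mul_le_mul_of_nonneg_left d1 hs.le
  have k2 := mul_le_mul_of_nonneg_left d2 hs.le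
  linarith

/-- The curvature terms have a nearly nonnegative sum. Write
φ_i τ_j - s a_i a_j = (φ_i - s a_i) τ_j + s a_i (τ_j - a_j) with a = pd f, τ_j = pd f j ∘ sh i s,
use |Δ pd V j| ≤ L s, Cauchy-Schwarz, and `curv` pointwise with v = a for the main term. -/
theorem Curv_sum {V : (ι → ℝ) → ℝ} {S L : ℝ} (hV : Nice V S L) {f : (ι → ℝ) → ℝ} (hf : C1c f)
    {s c : ℝ} (hs : 0 < s) (hc : 0 ≤ c)
    (h1 : ∀ i j, ∫ x, (pd f j (sh i s x) - pd f j x) ^ 2 ∂(dens V) ≤ c ^ 2)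
    (h2 : ∀ i, ∫ x, (pd f i x - dif f i s x / s) ^ 2 ∂(dens V) ≤ c ^ 2) :
    -(L * s ^ 3 * En (dens V) f +
        2 * L * s ^ 2 * (Fintype.card ι) ^ 2 * c * √(exp (L * s) * En (dens V) f)) ≤
      ∑ i, Curv V f i s := by
  have := hV.base.prob
  have hint : ∀ i j, Integrable
      (fun x => pd f i x * pd f j x * (pd V j (sh i s x) - pd V j x)) (dens V) := by
    intro i j
    have hp := pd_cont hV.smooth.c1 j
    exact (((hf.pd_cc i).mul_right (hf.pd_cont j)).mul_right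
      ((hp.comp (sh_cont i s)).sub hp)).int
  have hmain : -(L * s ^ 2 * En (dens V) f) ≤
      ∑ i, ∑ j, ∫ x, pd f i x * pd f j x * (pd V j (sh i s x) - pd V j x) ∂(dens V) := by
    have e1 : ∀ i, ∑ j, ∫ x, pd f i x * pd f j x * (pd V j (sh i s x) - pd V j x) ∂(dens V) =
        ∫ x, ∑ j, pd f i x * pd f j x * (pd V j (sh i s x) - pd V j x) ∂(dens V) :=
      fun i => (integral_finsetSum _ fun j _ => hint i j).symm
    have i2 : ∀ i, Integrable
        (fun x => ∑ j, pd f i x * pd f j x * (pd V j (sh i s x) - pd V j x)) (dens V) :=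
      fun i => integrable_finsetSum _ fun j _ => hint i j
    have i3 : Integrable (fun x => ∑ i, pd f i x ^ 2) (dens V) :=
      integrable_finsetSum _ fun i _ => hf.int_pd_sq i
    simp only [e1]
    unfold En
    rw [← integral_finsetSum _ fun i _ => i2 i, ← integral_finsetSum _ fun i _ => hf.int_pd_sq i,
      ← integral_const_mul, ← integral_neg]
    exact integral_mono (i3.const_mul _).neg (integrable_finsetSum _ fun i _ => i2 i)
      fun x => hV.smooth.curv x (fun i => pd f i x) s hs.le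
  have hsum : ∑ i, ∑ j, (s * ∫ x, pd f i x * pd f j x * (pd V j (sh i s x) - pd V j x) ∂(dens V) -
        2 * L * s ^ 2 * c * √(exp (L * s) * En (dens V) f)) ≤ ∑ i, Curv V f i s :=
    Finset.sum_le_sum fun i _ => Finset.sum_le_sum fun j _ =>
      Curv_term hV hf hs hc i j (h1 i j) (h2 i)
  simp only [Finset.sum_sub_distrib, ← Finset.mul_sum, Finset.sum_const, Finset.card_univ,
    nsmul_eq_mul] at hsum
  have k := mul_le_mul_of_nonneg_left hmain hs.le
  linarith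

end Vale.Agent.P245
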