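import Vale.Agent.P245.Basic

open MeasureTheory Real Set Filter Topology
open scoped ENNReal

namespace Vale.Agent.P245

set_option linter.unusedSectionVars false

variable {ι : Type} [Fintype ι] [DecidableEq ι]

theorem tog_tog (i : ι) (ε : ι → Bool) : tog i (tog i ε) = ε := by
  funext j
  unfold tog
  by_cases h : j = i
  · subst h; simp
  · simp [Function.update_of_ne h]

theorem tog_comm (i j : ι) (ε : ι → Bool) : tog i (tog j ε) = tog j (tog i ε) := by
  by_cases hij : i = j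
  · subst hij; rfl
  funext k
  unfold tog
  by_cases h : k = i
  · subst h; simp [Function.update_of_ne hij]
  · by_cases h' : k = j
    · subst h'; simp [Function.update_of_ne h]
    · simp [Function.update_of_ne h, Function.update_of_ne h']

theorem sum_tog (i : ι) (g : (ι → Bool) → ℝ) : ∑ ε, g (tog i ε) = ∑ ε, g ε :=
  Equiv.sum_comp (Function.Involutive.toPerm (tog i) (tog_tog i)) g

theorem const_of_tog {F : (ι → Bool) → ℝ} (h : ∀ i ε, F (tog i ε) = F ε) (ε ε' : ι → Bool) :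
    F ε = F ε' := by
  have key : ∀ s : Finset ι, ∀ ε : ι → Bool, (∀ i, i ∉ s → ε i = ε' i) → F ε = F ε' := by
    intro s
    induction s using Finset.induction_on with
    | empty =>
      intro ε hε
      rw [show ε = ε' from funext fun i => hε i (Finset.notMem_empty i)]
    | insert i t hi ih =>
      intro ε hε
      by_cases hc : ε i = ε' i
      · refine ih ε fun j hj => ?_
        by_cases hji : j = i
        · rw [hji]; exact hc
        · exact hε j (by simp [hji, hj])
      · rw [← h i ε]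
        refine ih _ fun j hj => ?_
        by_cases hji : j = i
        · rw [hji]
          unfold tog
          rw [Function.update_self]
          revert hc
          cases ε i <;> cases ε' i <;> simp
        · unfold tog
          rw [Function.update_of_ne hji]
          exact hε j (by simp [hji, hj])
  exact key Finset.univ ε fun i hi => absurd (Finset.mem_univ i) hi

theorem card_cube : (Fintype.card (ι → Bool) : ℝ) = 2 ^ Fintype.card ι := by
  simp

theorem cube_chain (m : (ι → Bool) → ℝ) (hm : ∀ ε, 0 < m ε) (s : Finset ι) :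
    ∃ F : (ι → Bool) → ℝ, (∀ ε, 0 < F ε) ∧ ∑ ε, F ε = ∑ ε, m ε ∧
      (∀ i ∈ s, ∀ ε, F (tog i ε) = F ε) ∧
      ∑ ε, m ε * log (m ε) - ∑ ε, m ε * log (F ε) ≤
        ∑ i ∈ s, (∑ ε, m ε * log (m ε) - ∑ ε, m ε * log ((m ε + m (tog i ε)) / 2)) := by
  induction s using Finset.induction_on with
  | empty => exact ⟨m, hm, rfl, by simp, by simp⟩
  | insert i t hi ih =>
    obtain ⟨F, hF, hsum, hinv, hle⟩ := ih
    refine ⟨fun ε => (F ε + F (tog i ε)) / 2, fun ε => by have := hF ε; have := hF (tog i ε); positivity,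
      ?_, ?_, ?_⟩
    · rw [← Finset.sum_div, Finset.sum_add_distrib, sum_tog i F, hsum]; ring
    · intro j hj ε
      rcases Finset.mem_insert.1 hj with rfl | hj
      · simp only [tog_tog]; ring
      · simp only [tog_comm i j, hinv j hj]
    · rw [Finset.sum_insert hi]
      have h1 : ∀ ε, m ε * log (F ε) - m ε * log ((F ε + F (tog i ε)) / 2) ≤
          m ε * log (m ε) - m ε * log ((m ε + m (tog i ε)) / 2) - m ε +
            (m ε + m (tog i ε)) / 2 * (F ε / ((F ε + F (tog i ε)) / 2)) := by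
        intro ε
        have a1 := hF ε
        have a2 := hF (tog i ε)
        have a3 := hm ε
        have a4 := hm (tog i ε)
        have := young a3.le (show 0 < (m ε + m (tog i ε)) / 2 by positivity)
          (log (F ε / ((F ε + F (tog i ε)) / 2)))
        rw [exp_log (by positivity), log_div a1.ne' (by positivity)] at this
        linarith
      have h2 : ∑ ε, (m ε + m (tog i ε)) / 2 * (F ε / ((F ε + F (tog i ε)) / 2)) = ∑ ε, m ε := by
        have e1 := sum_tog i
          (fun ε => (m ε + m (tog i ε)) / 2 * (F ε / ((F ε + F (tog i ε)) / 2)))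
        simp only [tog_tog] at e1
        have e2 : ∑ ε, (m ε + m (tog i ε)) / 2 * (F ε / ((F ε + F (tog i ε)) / 2)) +
            ∑ ε, (m (tog i ε) + m ε) / 2 * (F (tog i ε) / ((F (tog i ε) + F ε) / 2)) =
            ∑ ε, (m ε + m (tog i ε)) := by
          rw [← Finset.sum_add_distrib]
          refine Finset.sum_congr rfl fun ε _ => ?_
          have a1 := hF ε
          have a2 := hF (tog i ε)
          field_simp
          ring
        rw [Finset.sum_add_distrib, sum_tog i m, e1] at e2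
        linarith
      have h3 := Finset.sum_le_sum fun ε (_ : ε ∈ Finset.univ) => h1 ε
      simp only [Finset.sum_sub_distrib, Finset.sum_add_distrib, h2] at h3
      linarith

theorem cube_two (m : (ι → Bool) → ℝ) (hm : ∀ ε, 0 < m ε) (i : ι) :
    ∑ ε, m ε * log (m ε) - ∑ ε, m ε * log ((m ε + m (tog i ε)) / 2) ≤
      ∑ ε, (m ε - m (tog i ε)) ^ 2 / (2 * (m ε + m (tog i ε))) := by
  have h1 : ∀ ε, m ε * log (m ε) - m ε * log ((m ε + m (tog i ε)) / 2) ≤
      m ε * (m ε / ((m ε + m (tog i ε)) / 2) - 1) := by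
    intro ε
    have a3 := hm ε
    have a4 := hm (tog i ε)
    have := Real.log_le_sub_one_of_pos (show 0 < m ε / ((m ε + m (tog i ε)) / 2) by positivity)
    rw [log_div a3.ne' (by positivity)] at this
    nlinarith
  have h3 := Finset.sum_le_sum fun ε (_ : ε ∈ Finset.univ) => h1 ε
  rw [Finset.sum_sub_distrib] at h3
  refine h3.trans (le_of_eq ?_)
  have e1 := sum_tog i (fun ε => m ε * (m ε / ((m ε + m (tog i ε)) / 2) - 1))
  simp only [tog_tog] at e1
  have e2 : ∑ ε, m ε * (m ε / ((m ε + m (tog i ε)) / 2) - 1) +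
      ∑ ε, m (tog i ε) * (m (tog i ε) / ((m (tog i ε) + m ε) / 2) - 1) =
      2 * ∑ ε, (m ε - m (tog i ε)) ^ 2 / (2 * (m ε + m (tog i ε))) := by
    rw [← Finset.sum_add_distrib, Finset.mul_sum]
    refine Finset.sum_congr rfl fun ε _ => ?_
    have a3 := hm ε
    have a4 := hm (tog i ε)
    field_simp
    ring
  rw [e1] at e2
  linarith

/-- Entropy on the discrete cube is nonnegative (Jensen). -/
theorem cube_ent_nonneg (m : (ι → Bool) → ℝ) (hm : ∀ ε, 0 < m ε) :
    0 ≤ ((2 : ℝ) ^ Fintype.card ι)⁻¹ * ∑ ε, m ε * log (m ε) -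
      (((2 : ℝ) ^ Fintype.card ι)⁻¹ * ∑ ε, m ε) *
        log (((2 : ℝ) ^ Fintype.card ι)⁻¹ * ∑ ε, m ε) := by
  set N : ℝ := (2 : ℝ) ^ Fintype.card ι with hN
  have hN0 : 0 < N := by positivity
  have hs : 0 < ∑ ε, m ε := Finset.sum_pos (fun ε _ => hm ε) Finset.univ_nonempty
  set M := N⁻¹ * ∑ ε, m ε with hM
  have hM0 : 0 < M := by positivity
  have h1 : ∀ ε, 0 ≤ m ε * log (m ε) - m ε * log M - m ε + M := by
    intro ε
    have := young (hm ε).le hM0 0
    simpa using this
  have h2 := Finset.sum_nonneg fun ε (_ : ε ∈ Finset.univ) => h1 ε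
  simp only [Finset.sum_add_distrib, Finset.sum_sub_distrib, ← Finset.sum_mul, Finset.sum_const,
    Finset.card_univ, nsmul_eq_mul, card_cube] at h2
  have h3 : N * M = ∑ ε, m ε := by rw [hM]; field_simp
  rw [← hN, h3] at h2
  have h4 : N⁻¹ * ∑ ε, m ε * log (m ε) - M * log M =
      N⁻¹ * (∑ ε, m ε * log (m ε) - (∑ ε, m ε) * log M) := by
    rw [mul_sub, ← mul_assoc, ← hM]
  rw [h4]
  have : 0 ≤ N⁻¹ := by positivity
  exact mul_nonneg this (by linarith)

/-- Subadditivity of entropy on the discrete cube with the two-point bound.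
Let E i m ε = (m ε + m (tog i ε))/2 and E s for a finset s the average over the coordinates in s.
Induct on s: Σ m log m - Σ m log (E s m) ≤ Σ_{i ∈ s} (Σ m log m - Σ m log (E i m)), using for
`insert i t` the chain rule and the Gibbs inequality `young` (convexity of the entropy).
Two points a = c(1+x), b = c(1-x): (a log(a/c) + b log(b/c))/2 ≤ c x² = (a-b)²/(2(a+b))
by log(1+x) ≤ x and log(1-x) ≤ -x. -/
theorem cube_ent_le (m : (ι → Bool) → ℝ) (hm : ∀ ε, 0 < m ε) :
    ((2 : ℝ) ^ Fintype.card ι)⁻¹ * ∑ ε, m ε * log (m ε) -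
      (((2 : ℝ) ^ Fintype.card ι)⁻¹ * ∑ ε, m ε) *
        log (((2 : ℝ) ^ Fintype.card ι)⁻¹ * ∑ ε, m ε) ≤
      ∑ i, ((2 : ℝ) ^ Fintype.card ι)⁻¹ *
        ∑ ε, (m ε - m (tog i ε)) ^ 2 / (2 * (m ε + m (tog i ε))) := by
  obtain ⟨F, hF, hsum, hinv, hle⟩ := cube_chain m hm Finset.univ
  set N : ℝ := (2 : ℝ) ^ Fintype.card ι with hN
  have hN0 : 0 < N := by positivity
  set M := N⁻¹ * ∑ ε, m ε with hM
  have hc : ∀ ε, F ε = M := by
    intro ε
    have h1 : ∑ ε', F ε' = N * F ε := by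
      rw [Finset.sum_congr rfl fun ε' _ =>
        const_of_tog (fun i ε => hinv i (Finset.mem_univ i) ε) ε' ε]
      simp only [Finset.sum_const, Finset.card_univ, nsmul_eq_mul, card_cube, hN]
    rw [hM, ← hsum, h1]; field_simp
  simp only [hc, ← Finset.sum_mul] at hle
  have h4 : N⁻¹ * ∑ ε, m ε * log (m ε) - M * log M =
      N⁻¹ * (∑ ε, m ε * log (m ε) - (∑ ε, m ε) * log M) := by
    rw [mul_sub, ← mul_assoc, ← hM]
  rw [h4, ← Finset.mul_sum]
  have : 0 ≤ N⁻¹ := by positivity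
  exact mul_le_mul_of_nonneg_left (hle.trans (Finset.sum_le_sum fun i _ => cube_two m hm i)) this

/-- Crude bound for the transport gain. -/
theorem gain_le_a (p x T : ℝ) (hx : x ≠ 0) (hT : 0 < T) :
    gain (p * x) (√(T / |x|)) ≤ 2 * |p * x| + 2 * |p| * T := by
  have hx' : 0 < |x| := abs_pos.2 hx
  set u := √(T / |x|) with hu
  have hu0 : 0 < u := Real.sqrt_pos.2 (div_pos hT hx')
  have hu2 : u ^ 2 = T / |x| := Real.sq_sqrt (div_pos hT hx').le
  have hl := Real.log_le_sub_one_of_pos hu0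
  have h1 : |1 - u| ≤ 1 + u ^ 2 := by
    rw [abs_le]; constructor <;> nlinarith [sq_nonneg (u - 1), sq_nonneg u]
  have h2 : p * x * (1 - u) ≤ |p * x| * (1 + u ^ 2) :=
    (le_abs_self _).trans (by rw [abs_mul]; gcongr)
  have h3 : |p * x| * u ^ 2 = |p| * T := by rw [hu2, abs_mul]; field_simp
  unfold gain
  nlinarith

theorem zlog_le {q : ℝ} (h : -(1 / 4) ≤ q) :
    2 * q - log (1 + 2 * q) ≤ min (4 * q ^ 2) (2 * |q|) := by
  have hz : 0 < 1 + 2 * q := by linarith
  rcases le_total 0 q with h0 | h0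
  · have h4 := Real.one_sub_inv_le_log_of_pos hz
    have h5 : 0 ≤ log (1 + 2 * q) := log_nonneg (by linarith)
    refine le_min ?_ (by rw [abs_of_nonneg h0]; linarith)
    have h6 : (1 + 2 * q)⁻¹ ≤ 1 - 2 * q + 4 * q ^ 2 := by
      rw [inv_le_iff_one_le_mul₀ hz]
      nlinarith [mul_nonneg h0 (sq_nonneg q)]
    linarith
  · have hy : 0 ≤ -2 * q + 4 * q ^ 2 := by nlinarith
    have h4 := Real.quadratic_le_exp_of_nonneg hy
    have h5 : 1 ≤ (1 + 2 * q) * exp (-2 * q + 4 * q ^ 2) := by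
      refine le_trans ?_ (mul_le_mul_of_nonneg_left h4 hz.le)
      have h6 : 0 ≤ q ^ 2 * (1 + 2 * q - 4 * q ^ 2 + 8 * q ^ 3) := by
        refine mul_nonneg (sq_nonneg q) ?_
        nlinarith [mul_nonneg (neg_nonneg.2 h0) (sq_nonneg q), sq_nonneg q]
      nlinarith
    have h7 := Real.log_le_log one_pos h5
    rw [log_one, log_mul hz.ne' (exp_pos _).ne', log_exp] at h7
    refine le_min (by linarith) ?_
    rw [abs_of_nonpos h0]
    nlinarith

theorem gain_cross {r x T θ u : ℝ} (hθ : 0 < θ) (hu0 : 0 < u) (h2 : x ^ 2 * u ^ 2 = |x| * T) :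
    2 * r * (x * (1 - u)) ≤ r ^ 2 / θ + 2 * θ * x ^ 2 + 2 * θ * T ^ 2 := by
  have h1 : 2 * r * (x * (1 - u)) ≤ r ^ 2 / θ + θ * (x * (1 - u)) ^ 2 := by
    have h0 : 0 ≤ (r - θ * (x * (1 - u))) ^ 2 / θ := by positivity
    have e : (r - θ * (x * (1 - u))) ^ 2 / θ =
        r ^ 2 / θ + θ * (x * (1 - u)) ^ 2 - 2 * r * (x * (1 - u)) := by
      field_simp; ring
    linarith
  have h3 : (x * (1 - u)) ^ 2 ≤ 2 * x ^ 2 + 2 * T ^ 2 := by
    have h4 : (x * (1 - u)) ^ 2 ≤ x ^ 2 + x ^ 2 * u ^ 2 := by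
      nlinarith [mul_nonneg (sq_nonneg x) hu0.le]
    nlinarith [sq_nonneg (|x| - T), sq_abs x, sq_nonneg x, sq_nonneg T]
  nlinarith

theorem gain_neg {q P T S u : ℝ} (h : q < -(1 / 4)) (hT : 0 < T) (h1 : 1 < u)
    (h3 : |q| * u ^ 2 = |P| * T) :
    2 * q * (1 - u) ≤ 8 * P ^ 2 * min (T ^ 2) (S ^ 2) + P ^ 2 + (if S < T then T ^ 2 else 0) := by
  have hmin1 : 0 ≤ 8 * P ^ 2 * min (T ^ 2) (S ^ 2) :=
    mul_nonneg (by positivity) (le_min (by positivity) (by positivity))
  have hP2 := sq_nonneg P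
  have hq' : |q| = -q := abs_of_neg (by linarith)
  have h4 : 2 * q * (1 - u) ≤ 2 * (|P| * T) := by
    rw [← h3, hq']; nlinarith [sq_nonneg (u - 1)]
  have h5 : 1 / 4 ≤ |P| * T := by rw [← h3, hq']; nlinarith
  by_cases hST : S < T
  · rw [if_pos hST]
    nlinarith [sq_nonneg (|P| - T), sq_abs P]
  · have hm : min (T ^ 2) (S ^ 2) = T ^ 2 :=
      min_eq_left (pow_le_pow_left₀ hT.le (not_lt.1 hST) 2)
    rw [hm, if_neg hST]
    have h6 : 8 * P ^ 2 * T ^ 2 = 8 * (|P| * T) ^ 2 := by rw [mul_pow, sq_abs]; ring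
    rw [h6]
    nlinarith

/-- Fine bound for the transport gain. With q = P x, u = √(T/|x|): if q ≥ -1/4 the supremum over
u > 0 of `gain q u` is z - log(1+z) with z = 2q, at most min (z², |z|); if q < -1/4 and T ≤ |x| the
gain is ≤ 0; if q < -1/4 and T > |x| it is ≤ 2|P|T, which is ≤ 8P²T² (as 4|P|T > 1) and
≤ P² + T². The r part is ≤ 2|r|(|x|+T). -/
theorem gain_le_b (P r x T S θ : ℝ) (hx : x ≠ 0) (hT : 0 < T) (hθ : 0 < θ) :
    gain ((P + r) * x) (√(T / |x|)) ≤
      min (4 * (P * x) ^ 2) (2 * |P * x|) + 8 * P ^ 2 * min (T ^ 2) (S ^ 2) + P ^ 2 +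
        (if S < T then T ^ 2 else 0) + r ^ 2 / θ + 2 * θ * x ^ 2 + 2 * θ * T ^ 2 := by
  have hx' : 0 < |x| := abs_pos.2 hx
  set u := √(T / |x|) with hu
  have hu0 : 0 < u := Real.sqrt_pos.2 (div_pos hT hx')
  have hu2 : u ^ 2 = T / |x| := Real.sq_sqrt (div_pos hT hx').le
  have hl := Real.log_le_sub_one_of_pos hu0
  have hsplit : gain ((P + r) * x) u = gain (P * x) u + 2 * r * (x * (1 - u)) := by
    unfold gain; ring
  have hr : 2 * r * (x * (1 - u)) ≤ r ^ 2 / θ + 2 * θ * x ^ 2 + 2 * θ * T ^ 2 :=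
    gain_cross hθ hu0 (by rw [hu2, ← sq_abs x]; field_simp)
  have hmin0 : 0 ≤ min (4 * (P * x) ^ 2) (2 * |P * x|) := le_min (by positivity) (by positivity)
  have hmin1 : 0 ≤ 8 * P ^ 2 * min (T ^ 2) (S ^ 2) :=
    mul_nonneg (by positivity) (le_min (by positivity) (by positivity))
  have hite : 0 ≤ (if S < T then T ^ 2 else 0) := by split_ifs <;> positivity
  have hP2 := sq_nonneg P
  have h3 : |P * x| * u ^ 2 = |P| * T := by rw [hu2, abs_mul]; field_simp
  have main : gain (P * x) u ≤ min (4 * (P * x) ^ 2) (2 * |P * x|) +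
      8 * P ^ 2 * min (T ^ 2) (S ^ 2) + P ^ 2 + (if S < T then T ^ 2 else 0) := by
    rcases le_or_gt (-(1 / 4)) (P * x) with h | h
    · have hz : 0 < 1 + 2 * (P * x) := by linarith
      have h1 := Real.log_le_sub_one_of_pos (mul_pos hz hu0)
      rw [log_mul hz.ne' hu0.ne'] at h1
      have h2 : gain (P * x) u ≤ 2 * (P * x) - log (1 + 2 * (P * x)) := by
        unfold gain; linarith
      linarith [zlog_le h]
    · have hg : gain (P * x) u ≤ 2 * (P * x) * (1 - u) := by unfold gain; linarith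
      rcases le_or_gt u 1 with h1 | h1
      · have : 2 * (P * x) * (1 - u) ≤ 0 :=
          mul_nonpos_of_nonpos_of_nonneg (by linarith) (by linarith)
        linarith
      · linarith [gain_neg (S := S) h hT h1 h3]
  linarith

end Vale.Agent.P245
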