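import Vale.Agent.P245.Limit

open MeasureTheory Real Set Filter Topology
open scoped ENNReal

namespace Vale.Agent.P245

set_option linter.unusedSectionVars false

variable {ι : Type} [Fintype ι] [DecidableEq ι]

/-- Left half of the coordinates. -/
noncomputable def dbL (ι : Type) [Fintype ι] : (ι ⊕ ι → ℝ) →L[ℝ] (ι → ℝ) :=
  ContinuousLinearMap.pi fun i => ContinuousLinearMap.proj (Sum.inl i)

/-- Right half of the coordinates. -/
noncomputable def dbR (ι : Type) [Fintype ι] : (ι ⊕ ι → ℝ) →L[ℝ] (ι → ℝ) :=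
  ContinuousLinearMap.pi fun i => ContinuousLinearMap.proj (Sum.inr i)

theorem dbL_apply (x : ι ⊕ ι → ℝ) (i : ι) : dbL ι x i = x (Sum.inl i) := rfl

theorem dbR_apply (x : ι ⊕ ι → ℝ) (i : ι) : dbR ι x i = x (Sum.inr i) := rfl

/-- The tensor product of two functions. -/
noncomputable def dbT (g h : (ι → ℝ) → ℝ) (x : ι ⊕ ι → ℝ) : ℝ := g (dbL ι x) * h (dbR ι x)

theorem db_mp : MeasurePreserving (MeasurableEquiv.sumPiEquivProdPi fun _ : ι ⊕ ι => ℝ)
    volume ((volume : Measure (ι → ℝ)).prod volume) :=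
  volume_measurePreserving_sumPiEquivProdPi fun _ : ι ⊕ ι => ℝ

theorem db_integral (g h : (ι → ℝ) → ℝ) : ∫ x, dbT g h x = (∫ x, g x) * ∫ x, h x := by
  rw [← integral_prod_mul, ← db_mp.integral_comp']
  rfl

theorem db_integrable {g h : (ι → ℝ) → ℝ} (hg : Integrable g) (hh : Integrable h) :
    Integrable (dbT g h) :=
  (db_mp.integrable_comp_emb (MeasurableEquiv.measurableEmbedding _)).2 (hg.mul_prod hh)

theorem db_lintegral {g h : (ι → ℝ) → ℝ≥0∞} (hg : Measurable g) (hh : Measurable h) :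
    ∫⁻ x : ι ⊕ ι → ℝ, g (dbL ι x) * h (dbR ι x) = (∫⁻ x, g x) * ∫⁻ x, h x := by
  rw [← lintegral_prod_mul hg.aemeasurable hh.aemeasurable,
    ← db_mp.lintegral_comp_emb (MeasurableEquiv.measurableEmbedding _)]
  rfl

theorem db_LC {ρ : (ι → ℝ) → ℝ} (hρ : LC ρ) : LC (dbT ρ ρ) := by
  have hpos : ∀ x, 0 < dbT ρ ρ x ↔ 0 < ρ (dbL ι x) ∧ 0 < ρ (dbR ι x) := by
    intro x
    unfold dbT
    constructor
    · intro h
      obtain ⟨h1, h2⟩ := mul_ne_zero_iff.1 h.ne'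
      exact ⟨(hρ.nonneg _).lt_of_ne' h1, (hρ.nonneg _).lt_of_ne' h2⟩
    · exact fun h => mul_pos h.1 h.2
  have hconv : Convex ℝ {x | 0 < dbT ρ ρ x} := by
    intro x hx y hy a b ha hb hab
    rw [mem_ofPred_eq, hpos] at hx hy ⊢
    rw [map_add, map_add, map_smul, map_smul, map_smul, map_smul]
    exact ⟨hρ.convex hx.1 hy.1 ha hb hab, hρ.convex hx.2 hy.2 ha hb hab⟩
  refine ⟨?_, fun x => mul_nonneg (hρ.nonneg _) (hρ.nonneg _), db_integrable hρ.int hρ.int, ?_,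
    hconv, ⟨hconv, fun x hx y hy a b ha hb hab => ?_⟩, fun x y hxy => ?_, fun B => ?_⟩
  · exact (hρ.meas.comp (dbL ι).continuous.measurable).mul
      (hρ.meas.comp (dbR ι).continuous.measurable)
  · rw [db_integral, hρ.one, mul_one]
  · have hz := hconv hx hy ha hb hab
    rw [mem_ofPred_eq, hpos] at hx hy hz
    have h1 := hρ.concave.2 hx.1 hy.1 ha hb hab
    have h2 := hρ.concave.2 hx.2 hy.2 ha hb hab
    unfold dbT
    simp only [map_add, map_smul, smul_eq_mul] at h1 h2 hz ⊢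
    rw [log_mul hx.1.ne' hx.2.ne', log_mul hy.1.ne' hy.2.ne', log_mul hz.1.ne' hz.2.ne']
    linarith
  · unfold dbT
    rw [hρ.unc (dbL ι x) (dbL ι y) fun i => hxy _, hρ.unc (dbR ι x) (dbR ι y) fun i => hxy _]
  · have hm : ∀ A : Finset ι,
        Measurable fun x : ι → ℝ => ENNReal.ofReal (exp (∑ i ∈ A, x i ^ 2 / 2) * ρ x) :=
      fun A => (Measurable.mul (by fun_prop) hρ.meas).ennreal_ofReal
    have h1 : ∀ x : ι ⊕ ι → ℝ, ENNReal.ofReal (exp (∑ i ∈ B, x i ^ 2 / 2) * dbT ρ ρ x) =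
        ENNReal.ofReal (exp (∑ i ∈ B.toLeft, dbL ι x i ^ 2 / 2) * ρ (dbL ι x)) *
          ENNReal.ofReal (exp (∑ i ∈ B.toRight, dbR ι x i ^ 2 / 2) * ρ (dbR ι x)) := by
      intro x
      rw [← ENNReal.ofReal_mul (mul_nonneg (exp_pos _).le (hρ.nonneg _)),
        Finset.sum_sum_eq_sum_toLeft_add_sum_toRight, exp_add]
      unfold dbT
      simp only [dbL_apply, dbR_apply]
      congr 1
      ring
    simp only [h1]
    rw [db_lintegral (hm B.toLeft) (hm B.toRight), ← Finset.card_toLeft_add_card_toRight, pow_add]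
    exact mul_le_mul' (hρ.subG _) (hρ.subG _)

theorem db_C1c {f : (ι → ℝ) → ℝ} (hf : C1c f) : C1c (dbT f f) := by
  refine ⟨(hf.1.comp (dbL ι).contDiff).mul (hf.1.comp (dbR ι).contDiff), ?_⟩
  obtain ⟨R, hR0, hR⟩ := exists_cube hf.2
  refine HasCompactSupport.intro (isCompact_closedBall (0 : ι ⊕ ι → ℝ) R) fun x hx => ?_
  by_contra hne
  apply hx
  rw [mem_closedBall_zero_iff, pi_norm_le_iff_of_nonneg hR0]
  obtain ⟨h1, h2⟩ := mul_ne_zero_iff.1 hne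
  rintro (i | i)
  · exact hR _ (subset_tsupport _ h1) i
  · exact hR _ (subset_tsupport _ h2) i

theorem db_pd_comp {f : (ι → ℝ) → ℝ} (hf : Differentiable ℝ f)
    (T : (ι ⊕ ι → ℝ) →L[ℝ] (ι → ℝ)) (j : ι ⊕ ι) (x : ι ⊕ ι → ℝ) :
    pd (fun x => f (T x)) j x = fderiv ℝ f (T x) (T (Pi.single j 1)) := by
  unfold pd
  rw [show (fun x => f (T x)) = f ∘ T from rfl, fderiv_comp x (hf _) T.differentiableAt,
    T.fderiv]
  rfl

theorem db_pd_inl {f : (ι → ℝ) → ℝ} (hf : Differentiable ℝ f) (i : ι) (x : ι ⊕ ι → ℝ) :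
    pd (dbT f f) (Sum.inl i) x = dbT (pd f i) f x := by
  have h1 : dbL ι (Pi.single (Sum.inl i) 1) = Pi.single i 1 := by
    ext j; simp [dbL_apply, Pi.single_apply]
  have h2 : dbR ι (Pi.single (Sum.inl i) 1) = 0 := by
    ext j; simp [dbR_apply]
  unfold dbT
  rw [pd_mul (f := fun x => f (dbL ι x)) (g := fun x => f (dbR ι x))
    (hf.comp (dbL ι).differentiable) (hf.comp (dbR ι).differentiable), db_pd_comp hf,
    db_pd_comp hf, h1, h2, map_zero]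
  unfold pd
  ring

theorem db_pd_inr {f : (ι → ℝ) → ℝ} (hf : Differentiable ℝ f) (i : ι) (x : ι ⊕ ι → ℝ) :
    pd (dbT f f) (Sum.inr i) x = dbT f (pd f i) x := by
  have h1 : dbR ι (Pi.single (Sum.inr i) 1) = Pi.single i 1 := by
    ext j; simp [dbR_apply, Pi.single_apply]
  have h2 : dbL ι (Pi.single (Sum.inr i) 1) = 0 := by
    ext j; simp [dbL_apply]
  unfold dbT
  rw [pd_mul (f := fun x => f (dbL ι x)) (g := fun x => f (dbR ι x))
    (hf.comp (dbL ι).differentiable) (hf.comp (dbR ι).differentiable), db_pd_comp hf,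
    db_pd_comp hf, h1, h2, map_zero]
  unfold pd
  ring

theorem db_mu {ρ : (ι → ℝ) → ℝ} (hρ : LC ρ) (g h : (ι → ℝ) → ℝ) :
    ∫ x, dbT g h x ∂(mu (dbT ρ ρ)) = (∫ x, g x ∂(mu ρ)) * ∫ x, h x ∂(mu ρ) := by
  rw [lm_integral_mu (db_LC hρ).meas (db_LC hρ).nonneg, lm_integral_mu hρ.meas hρ.nonneg,
    lm_integral_mu hρ.meas hρ.nonneg, ← db_integral]
  refine integral_congr_ae (ae_of_all _ fun x => ?_)
  unfold dbT
  ring

theorem db_mu_int {ρ : (ι → ℝ) → ℝ} (hρ : LC ρ) {g h : (ι → ℝ) → ℝ} (hg : Integrable g (mu ρ))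
    (hh : Integrable h (mu ρ)) : Integrable (dbT g h) (mu (dbT ρ ρ)) := by
  rw [lm_integrable_mu (db_LC hρ).meas (db_LC hρ).nonneg]
  rw [lm_integrable_mu hρ.meas hρ.nonneg] at hg hh
  refine (db_integrable hg hh).congr (ae_of_all _ fun x => ?_)
  unfold dbT
  ring

theorem db_mul_log (a b : ℝ) : a * b * log (a * b) = a * log a * b + a * (b * log b) := by
  rcases eq_or_ne a 0 with rfl | ha
  · simp
  rcases eq_or_ne b 0 with rfl | hb
  · simp
  rw [log_mul ha hb]; ring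

theorem db_sq (g h : (ι → ℝ) → ℝ) (x : ι ⊕ ι → ℝ) :
    dbT g h x ^ 2 = dbT (fun x => g x ^ 2) (fun x => h x ^ 2) x := by
  unfold dbT; ring

theorem db_En {ρ : (ι → ℝ) → ℝ} (hρ : LC ρ) {f : (ι → ℝ) → ℝ} (hf : C1c f) :
    En (mu (dbT ρ ρ)) (dbT f f) = 2 * (∫ x, f x ^ 2 ∂(mu ρ)) * En (mu ρ) f := by
  unfold En
  rw [Fintype.sum_sum_type]
  simp only [db_pd_inl hf.diff, db_pd_inr hf.diff, db_sq, db_mu hρ]
  rw [← Finset.sum_mul, ← Finset.mul_sum]
  ring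

theorem db_Ent {ρ : (ι → ℝ) → ℝ} (hρ : LC ρ) {f : (ι → ℝ) → ℝ} (hf : C1c f) :
    Ent (mu (dbT ρ ρ)) (fun x => dbT f f x ^ 2) =
      2 * (∫ x, f x ^ 2 ∂(mu ρ)) * Ent (mu ρ) (fun x => f x ^ 2) := by
  have := lm_prob_mu hρ.nonneg hρ.int hρ.one
  obtain ⟨c, hc0, hc⟩ := hf.bdd
  have hc2 : ∀ x, f x ^ 2 ≤ c ^ 2 := fun x => by
    rw [← sq_abs]; gcongr; exact hc x
  have hfm : Measurable (fun x => f x ^ 2) := hf.cont.measurable.pow_const 2
  have i1 : Integrable (fun x => f x ^ 2) (mu ρ) :=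
    int_of_nonneg_le hfm (fun _ => sq_nonneg _) hc2
  have i2 : Integrable (fun x => f x ^ 2 * log (f x ^ 2)) (mu ρ) :=
    int_mul_log hfm (fun _ => sq_nonneg _) hc2
  have h1 : ∀ x, dbT f f x ^ 2 * log (dbT f f x ^ 2) =
      dbT (fun x => f x ^ 2 * log (f x ^ 2)) (fun x => f x ^ 2) x +
        dbT (fun x => f x ^ 2) (fun x => f x ^ 2 * log (f x ^ 2)) x := by
    intro x
    rw [db_sq]
    exact db_mul_log _ _
  unfold Ent
  simp only [h1]
  rw [integral_add (db_mu_int hρ i2 i1) (db_mu_int hρ i1 i2)]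
  simp only [db_sq, db_mu hρ]
  rw [db_mul_log]
  ring

theorem db_ind (k : ℕ) : ∀ (ι : Type) [Fintype ι] [DecidableEq ι] (ρ : (ι → ℝ) → ℝ), LC ρ →
    ∀ f : (ι → ℝ) → ℝ, C1c f →
      Ent (mu ρ) (fun x => f x ^ 2) ≤ K0 * En (mu ρ) f + (1 / 2) ^ k * ∫ x, f x ^ 2 ∂(mu ρ) := by
  induction k with
  | zero =>
    intro ι _ _ ρ hρ f hf
    simpa using defective hρ hf
  | succ k ih =>
    intro ι _ _ ρ hρ f hf
    have h0 : 0 ≤ ∫ x, f x ^ 2 ∂(mu ρ) := integral_nonneg fun _ => sq_nonneg _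
    rcases h0.eq_or_lt with h | h
    · have h1 := ih ι ρ hρ f hf
      rw [← h, mul_zero] at h1 ⊢
      exact h1
    · have h1 := ih (ι ⊕ ι) _ (db_LC hρ) _ (db_C1c hf)
      rw [db_Ent hρ hf, db_En hρ hf] at h1
      simp only [db_sq, db_mu hρ] at h1
      refine le_of_mul_le_mul_left ?_ (mul_pos two_pos h)
      rw [pow_succ]
      linarith

/-- Removing the defect by doubling. Prove by induction on k, for all index types, the inequality
with defect 2^(-k): on ι ⊕ ι use ρ₂ x = ρ (x ∘ inl) ρ (x ∘ inr), f₂ x = f (x ∘ inl) f (x ∘ inr);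
`LC ρ₂` (for `subG` split B into its two halves), and with N = ∫ f²: Ent f₂² = 2 N Ent f²,
En f₂ = 2 N En f, ∫ f₂² = N² (`volume_measurePreserving_sumPiEquivProdPi`, Fubini). -/
theorem tight {ρ : (ι → ℝ) → ℝ} (hρ : LC ρ) {f : (ι → ℝ) → ℝ} (hf : C1c f) :
    Ent (mu ρ) (fun x => f x ^ 2) ≤ K0 * En (mu ρ) f := by
  have h1 : Tendsto (fun k : ℕ => K0 * En (mu ρ) f + (1 / 2 : ℝ) ^ k * ∫ x, f x ^ 2 ∂(mu ρ))
      atTop (𝓝 (K0 * En (mu ρ) f + 0 * ∫ x, f x ^ 2 ∂(mu ρ))) :=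
    tendsto_const_nhds.add
      ((tendsto_pow_atTop_nhds_zero_of_lt_one (by norm_num) (by norm_num)).mul_const _)
  rw [zero_mul, add_zero] at h1
  exact ge_of_tendsto' h1 fun k => db_ind k ι ρ hρ f hf

end Vale.Agent.P245
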