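import Vale.Agent.P245.Basic

open MeasureTheory Real Set Filter Topology
open scoped ENNReal

namespace Vale.Agent.P245

set_option linter.unusedSectionVars false

variable {ι : Type} [Fintype ι] [DecidableEq ι]

/-- Infimal convolution with a multiple of the sum norm. -/
noncomputable def envW (D : Set (ι → ℝ)) (V : (ι → ℝ) → ℝ) (L : ℝ) (x : ι → ℝ) : ℝ :=
  ⨅ y : D, (V y + L * ∑ i, |x i - y.1 i|)

section env

variable {D : Set (ι → ℝ)} {V : (ι → ℝ) → ℝ} {m L : ℝ}

theorem envW_le (hm : ∀ y ∈ D, m ≤ V y) (hL : 0 ≤ L) (x : ι → ℝ) {y : ι → ℝ} (hy : y ∈ D) :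
    envW D V L x ≤ V y + L * ∑ i, |x i - y i| := by
  refine ciInf_le (f := fun y : D => V y + L * ∑ i, |x i - y.1 i|) ⟨m, ?_⟩ ⟨y, hy⟩
  rintro _ ⟨z, rfl⟩
  have h1 := hm z z.2
  have h2 : 0 ≤ L * ∑ i, |x i - z.1 i| := by positivity
  simp only
  linarith

theorem le_envW (hD : D.Nonempty) {x : ι → ℝ} {c : ℝ}
    (h : ∀ y ∈ D, c ≤ V y + L * ∑ i, |x i - y i|) : c ≤ envW D V L x := by
  have := hD.to_subtype
  exact le_ciInf fun y => h y y.2

theorem envW_lip (hD : D.Nonempty) (hm : ∀ y ∈ D, m ≤ V y) (hL : 0 ≤ L) (x x' : ι → ℝ) :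
    envW D V L x - envW D V L x' ≤ L * ∑ i, |x i - x' i| := by
  rw [sub_le_comm]
  refine le_envW hD fun y hy => ?_
  have h1 := envW_le hm hL x hy
  have h2 : ∑ i, |x i - y i| ≤ ∑ i, |x i - x' i| + ∑ i, |x' i - y i| := by
    rw [← Finset.sum_add_distrib]
    exact Finset.sum_le_sum fun i _ => abs_sub_le _ _ _
  nlinarith [mul_le_mul_of_nonneg_left h2 hL]

theorem envW_convex (hD : D.Nonempty) (hc : ConvexOn ℝ D V) (hm : ∀ y ∈ D, m ≤ V y)
    (hL : 0 ≤ L) : ConvexOn ℝ univ (envW D V L) := by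
  refine ⟨convex_univ, fun x _ x' _ a b ha hb hab => ?_⟩
  have := hD.to_subtype
  simp only [smul_eq_mul]
  conv_rhs => unfold envW
  rw [Real.mul_iInf_of_nonneg ha, Real.mul_iInf_of_nonneg hb]
  refine le_ciInf_add_ciInf fun y y' => ?_
  refine (envW_le hm hL _ (hc.1 y.2 y'.2 ha hb hab)).trans ?_
  have h1 := hc.2 y.2 y'.2 ha hb hab
  have h2 : ∑ i, |(a • x + b • x') i - (a • y.1 + b • y'.1) i| ≤
      a * ∑ i, |x i - y.1 i| + b * ∑ i, |x' i - y'.1 i| := by
    rw [Finset.mul_sum, Finset.mul_sum, ← Finset.sum_add_distrib]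
    refine Finset.sum_le_sum fun i _ => ?_
    have e : (a • x + b • x') i - (a • y.1 + b • y'.1) i =
        a * (x i - y.1 i) + b * (x' i - y'.1 i) := by
      simp only [Pi.add_apply, Pi.smul_apply, smul_eq_mul]
      ring
    rw [e]
    refine (abs_add_le _ _).trans (le_of_eq ?_)
    rw [abs_mul, abs_mul, abs_of_nonneg ha, abs_of_nonneg hb]
  simp only [smul_eq_mul] at h1
  nlinarith [mul_le_mul_of_nonneg_left h2 hL]

theorem envW_unc (hD : D.Nonempty) (hm : ∀ y ∈ D, m ≤ V y) (hL : 0 ≤ L) (hu : Unc V)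
    (hDu : ∀ y ∈ D, ∀ y' : ι → ℝ, (∀ i, |y i| = |y' i|) → y' ∈ D) : Unc (envW D V L) := by
  have key : ∀ x x' : ι → ℝ, (∀ i, |x i| = |x' i|) → envW D V L x ≤ envW D V L x' := by
    intro x x' h
    refine le_envW hD fun y hy => ?_
    have h1 : ∀ i, |y i| = |flip (fun i => decide (x i = x' i)) y i| := fun i =>
      (abs_flip _ y i).symm
    refine (envW_le hm hL x (hDu y hy _ h1)).trans (le_of_eq ?_)
    rw [← hu _ _ h1]
    congr 2
    refine Finset.sum_congr rfl fun i _ => ?_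
    unfold flip
    by_cases e : x i = x' i
    · simp [e]
    · have e' : x i = -x' i := (abs_eq_abs.1 (h i)).resolve_left e
      simp only [e, decide_false, Bool.false_eq_true, if_false]
      rw [e', ← abs_neg]
      congr 1
      ring
  exact fun x x' h => le_antisymm (key x x' h) (key x' x fun i => (h i).symm)

theorem norm_le_sum_abs (x y : ι → ℝ) : ‖x - y‖ ≤ ∑ i, |x i - y i| :=
  (pi_norm_le_iff_of_nonneg (by positivity)).2 fun i =>
    Finset.single_le_sum (f := fun i => |x i - y i|) (fun _ _ => abs_nonneg _) (Finset.mem_univ i)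

theorem envW_tendsto_in (hc : ConvexOn ℝ D V) (hm : ∀ y ∈ D, m ≤ V y) {x : ι → ℝ}
    (hx : x ∈ interior D) :
    Tendsto (fun k : ℕ => envW D V ((k : ℝ) + 1) x) atTop (𝓝 (V x)) := by
  have hxD := interior_subset hx
  have hca : ContinuousAt V x :=
    hc.continuousOn_interior.continuousAt (isOpen_interior.mem_nhds hx)
  refine tendsto_order.2 ⟨fun a ha => ?_, fun a ha => Eventually.of_forall fun k => ?_⟩
  · obtain ⟨a', h1, h2⟩ := exists_between ha
    obtain ⟨δ, hδ, hb⟩ := Metric.eventually_nhds_iff.1 (hca.eventually (lt_mem_nhds h2))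
    obtain ⟨N, hN⟩ := exists_nat_ge ((a' - m) / δ)
    rw [div_le_iff₀ hδ] at hN
    filter_upwards [eventually_ge_atTop N] with k hk
    refine h1.trans_le (le_envW ⟨x, hxD⟩ fun y hy => ?_)
    have h3 : 0 ≤ ∑ i, |x i - y i| := by positivity
    have hk' : (N : ℝ) ≤ k := by exact_mod_cast hk
    rcases lt_or_ge (dist y x) δ with h | h
    · have h4 := hb h
      have h5 : 0 ≤ ((k : ℝ) + 1) * ∑ i, |x i - y i| := by positivity
      linarith
    · rw [dist_comm, dist_eq_norm] at h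
      have h4 := h.trans (norm_le_sum_abs x y)
      have h5 := hm y hy
      have h6 : (N : ℝ) * δ ≤ ((k : ℝ) + 1) * ∑ i, |x i - y i| := by gcongr; linarith
      linarith
  · have h1 := envW_le hm (L := (k : ℝ) + 1) (by positivity) x hxD
    simp only [sub_self, abs_zero, Finset.sum_const_zero, mul_zero, add_zero] at h1
    exact h1.trans_lt ha

theorem envW_tendsto_out (hD : D.Nonempty) (hm : ∀ y ∈ D, m ≤ V y) {x : ι → ℝ}
    (hx : x ∉ closure D) : Tendsto (fun k : ℕ => envW D V ((k : ℝ) + 1) x) atTop atTop := by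
  rw [Metric.mem_closure_iff] at hx
  push Not at hx
  obtain ⟨δ, hδ, h⟩ := hx
  have ht : Tendsto (fun k : ℕ => m + ((k : ℝ) + 1) * δ) atTop atTop :=
    tendsto_atTop_add_const_left _ _
      ((tendsto_atTop_add_const_right _ _ tendsto_natCast_atTop_atTop).atTop_mul_const hδ)
  refine tendsto_atTop_mono (fun k => le_envW hD fun y hy => ?_) ht
  have h1 := h y hy
  rw [dist_eq_norm] at h1
  have h2 := h1.trans (norm_le_sum_abs x y)
  exact add_le_add (hm y hy) (by gcongr)

end env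

/-- Lipschitz envelopes. D = {ρ > 0} ∩ cube S is convex and contains 0 (ρ 0 = max ρ > 0 by
unconditionality and log-concavity); V0 = -log ρ on D;
W k x = ⨅ y ∈ D, V0 y + (k+1) Σ |x i - y i|. Convergence holds at interior points of D
(a convex function is continuous, even locally Lipschitz, in the interior) and off the closure of
D (positive distance); the frontier of a convex set is null (`Convex.addHaar_frontier`). -/
theorem envelope {ρ : (ι → ℝ) → ℝ} (hρ : LC ρ) {S : ℝ} (hS : 0 < S) :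
    ∃ (W : ℕ → (ι → ℝ) → ℝ) (C : ℝ),
      (∀ k, ConvexOn ℝ univ (W k) ∧ Unc (W k) ∧
        ∃ L, 0 ≤ L ∧ ∀ x y, |W k x - W k y| ≤ L * ∑ i, |x i - y i|) ∧
      (∀ k x, exp (-W k x) ≤ C * ∏ i, exp (-max (|x i| - S) 0)) ∧
      ∀ᵐ x : ι → ℝ, Tendsto (fun k => exp (-W k x)) atTop (𝓝 ((cube ι S).indicator ρ x)) := by
  have hneg : ∀ x : ι → ℝ, ρ (-x) = ρ x := fun x => hρ.unc _ _ fun i => by simp
  have hmid : ∀ x : ι → ℝ, (1 / 2 : ℝ) • x + (1 / 2 : ℝ) • (-x) = 0 := fun x => by module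
  have h0 : 0 < ρ 0 := by
    have h1 : ∃ x, 0 < ρ x := by
      by_contra h
      push Not at h
      have h2 : ρ = fun _ => 0 := funext fun x => le_antisymm (h x) (hρ.nonneg x)
      have h3 := hρ.one
      rw [h2] at h3
      simp at h3
    obtain ⟨x, hx⟩ := h1
    have h4 := hρ.convex (x := x) hx (y := -x) (by simpa [hneg] using hx) (a := 1 / 2) (b := 1 / 2)
      (by norm_num) (by norm_num) (by norm_num)
    rwa [hmid] at h4
  set D : Set (ι → ℝ) := {x | 0 < ρ x} ∩ cube ι S with hDd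
  have hD0 : (0 : ι → ℝ) ∈ D := ⟨h0, fun i => by simpa using hS.le⟩
  have hcube : Convex ℝ (cube ι S) := by
    intro x hx y hy a b ha hb hab i
    simp only [Pi.add_apply, Pi.smul_apply, smul_eq_mul]
    refine (abs_add_le _ _).trans ?_
    rw [abs_mul, abs_mul, abs_of_nonneg ha, abs_of_nonneg hb]
    nlinarith [mul_le_mul_of_nonneg_left (hx i) ha, mul_le_mul_of_nonneg_left (hy i) hb]
  have hDc : Convex ℝ D := hρ.convex.inter hcube
  have hc : ConvexOn ℝ D (fun x => -log (ρ x)) := hρ.concave.neg.subset inter_subset_left hDc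
  have hm : ∀ y ∈ D, -log (ρ 0) ≤ -log (ρ y) := by
    intro y hy
    have h2 : -y ∈ {x | 0 < ρ x} := by simpa [hneg] using hy.1
    have h1 := hρ.concave.2 hy.1 h2 (show (0 : ℝ) ≤ 1 / 2 by norm_num)
      (show (0 : ℝ) ≤ 1 / 2 by norm_num) (by norm_num)
    simp only [hmid, hneg, smul_eq_mul] at h1
    linarith
  have hu : Unc (fun x => -log (ρ x)) := fun x y h => by simp only [hρ.unc x y h]
  have hDu : ∀ y ∈ D, ∀ y' : ι → ℝ, (∀ i, |y i| = |y' i|) → y' ∈ D := fun y hy y' h =>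
    ⟨by simpa [← hρ.unc y y' h] using hy.1, fun i => (h i) ▸ hy.2 i⟩
  refine ⟨fun k => envW D (fun x => -log (ρ x)) ((k : ℝ) + 1), ρ 0, fun k => ⟨?_, ?_, ?_⟩,
    fun k x => ?_, ?_⟩
  · exact envW_convex ⟨0, hD0⟩ hc hm (by positivity)
  · exact envW_unc ⟨0, hD0⟩ hm (by positivity) hu hDu
  · refine ⟨(k : ℝ) + 1, by positivity, fun x y => abs_sub_le_iff.2 ⟨?_, ?_⟩⟩
    · exact envW_lip ⟨0, hD0⟩ hm (by positivity) x y
    · simpa only [abs_sub_comm] using envW_lip ⟨0, hD0⟩ hm (L := (k : ℝ) + 1) (by positivity) y x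
  · rw [← exp_sum, ← exp_log h0, ← exp_add, exp_le_exp, neg_le]
    refine le_envW ⟨0, hD0⟩ fun y hy => ?_
    have h1 := hm y hy
    have h2 : ∑ i, max (|x i| - S) 0 ≤ ∑ i, |x i - y i| := Finset.sum_le_sum fun i _ =>
      max_le (by linarith [hy.2 i, abs_sub_abs_le_abs_sub (x i) (y i)]) (abs_nonneg _)
    have h3 : 0 ≤ (k : ℝ) * ∑ i, |x i - y i| := by positivity
    rw [Finset.sum_neg_distrib]
    linarith
  · filter_upwards [compl_mem_ae_iff.2 (hDc.addHaar_frontier volume)] with x hx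
    by_cases h1 : x ∈ closure D
    · have h2 : x ∈ interior D := by
        by_contra h
        exact hx ⟨h1, h⟩
      have h3 := interior_subset h2
      have h4 := (envW_tendsto_in hc hm h2).neg.rexp
      rwa [neg_neg, exp_log h3.1, ← indicator_of_mem h3.2 ρ] at h4
    · have h2 : (cube ι S).indicator ρ x = 0 := by
        by_cases h : x ∈ cube ι S
        · rw [indicator_of_mem h]
          exact le_antisymm (not_lt.1 fun h' => h1 (subset_closure ⟨h', h⟩)) (hρ.nonneg x)
        · exact indicator_of_notMem h _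
      rw [h2]
      exact tendsto_exp_neg_atTop_nhds_zero.comp (envW_tendsto_out ⟨0, hD0⟩ hm h1)

end Vale.Agent.P245
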