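import Vale.Agent.P245.Double

open MeasureTheory Real Set Filter Topology
open scoped ENNReal

namespace Vale.Agent.P245

set_option linter.unusedSectionVars false

variable {ι : Type} [Fintype ι] [DecidableEq ι]

/-- The Laplace transform bound. -/
theorem fn_laplace {ρ : (ι → ℝ) → ℝ} (h0 : ∀ x, 0 ≤ ρ x)
    (hi : Integrable ρ) (h1 : ∫ x, ρ x = 1)
    (h : ∀ θ : ι → ℝ, ∑ i, θ i ^ 2 = 1 →
      ∫⁻ x, ENNReal.ofReal (exp ((∑ i, x i * θ i) ^ 2) * ρ x) ≤ 2) (θ : ι → ℝ) :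
    ∫⁻ x, ENNReal.ofReal (exp (∑ i, x i * θ i) * ρ x) ≤
      2 * ENNReal.ofReal (exp (∑ i, θ i ^ 2 / 4)) := by
  have hs : 0 ≤ ∑ i, θ i ^ 2 := Finset.sum_nonneg fun _ _ => sq_nonneg _
  rcases hs.eq_or_lt with hz | hp
  · have hθ : ∀ i, θ i = 0 := fun i =>
      pow_eq_zero_iff (two_ne_zero) |>.1
        ((Finset.sum_eq_zero_iff_of_nonneg fun _ _ => sq_nonneg _).1 hz.symm i (Finset.mem_univ i))
    simp only [hθ, mul_zero, Finset.sum_const_zero, exp_zero, one_mul]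
    rw [← ofReal_integral_eq_lintegral_ofReal hi (ae_of_all _ h0), h1]
    simp
  · set r := √(∑ i, θ i ^ 2) with hr
    have hr0 : 0 < r := sqrt_pos.2 hp
    have hr2 : r ^ 2 = ∑ i, θ i ^ 2 := sq_sqrt hs
    have hn : ∑ i, (θ i / r) ^ 2 = 1 := by
      simp only [div_pow]
      rw [← Finset.sum_div, hr2, div_self hp.ne']
    have key : ∀ x : ι → ℝ, ENNReal.ofReal (exp (∑ i, x i * θ i) * ρ x) ≤
        ENNReal.ofReal (exp (∑ i, θ i ^ 2 / 4)) *
          ENNReal.ofReal (exp ((∑ i, x i * (θ i / r)) ^ 2) * ρ x) := by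
      intro x
      rw [← ENNReal.ofReal_mul (exp_pos _).le, ← mul_assoc, ← exp_add]
      refine ENNReal.ofReal_le_ofReal (mul_le_mul_of_nonneg_right (exp_le_exp.2 ?_) (h0 x))
      have e1 : ∑ i, x i * θ i = r * ∑ i, x i * (θ i / r) := by
        rw [Finset.mul_sum]
        exact Finset.sum_congr rfl fun i _ => by field_simp
      rw [e1, ← Finset.sum_div, ← hr2]
      nlinarith [sq_nonneg (r / 2 - ∑ i, x i * (θ i / r))]
    refine (lintegral_mono key).trans ?_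
    rw [lintegral_const_mul' _ _ ENNReal.ofReal_ne_top, mul_comm]
    exact mul_le_mul' (h _ hn) le_rfl

theorem fn_pdf (t : ℝ) : ProbabilityTheory.gaussianPDFReal 0 1 t * exp (t ^ 2 / 4) =
    (√(2 * π))⁻¹ * exp (-(1 / 4) * t ^ 2) := by
  unfold ProbabilityTheory.gaussianPDFReal
  rw [mul_assoc, ← exp_add]
  simp only [NNReal.coe_one, mul_one, sub_zero]
  congr 2
  ring

theorem fn_gauss_int :
    Integrable (fun t : ℝ => exp (t ^ 2 / 4)) (ProbabilityTheory.gaussianReal 0 1) := by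
  rw [ProbabilityTheory.gaussianReal_of_var_ne_zero _ one_ne_zero,
    integrable_withDensity_iff_integrable_smul' (ProbabilityTheory.measurable_gaussianPDF _ _)
      (ae_of_all _ fun _ => ProbabilityTheory.gaussianPDF_lt_top)]
  simp only [ProbabilityTheory.toReal_gaussianPDF, smul_eq_mul, fn_pdf]
  exact (integrable_exp_neg_mul_sq (by norm_num)).const_mul _

theorem fn_gauss_le : ∫ t, exp (t ^ 2 / 4) ∂(ProbabilityTheory.gaussianReal 0 1) ≤ 3 / 2 := by
  rw [ProbabilityTheory.integral_gaussianReal_eq_integral_smul one_ne_zero]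
  simp only [smul_eq_mul, fn_pdf]
  rw [integral_const_mul, integral_gaussian, inv_mul_le_iff₀ (sqrt_pos.2 (by positivity)),
    sqrt_le_iff]
  refine ⟨by positivity, ?_⟩
  rw [mul_pow, sq_sqrt (by positivity)]
  have := pi_pos
  linarith

theorem fn_gauss_exp (c : ℝ) :
    ∫ t, exp (c * t) ∂(ProbabilityTheory.gaussianReal 0 1) = exp (c ^ 2 / 2) := by
  have := congrFun (ProbabilityTheory.mgf_id_gaussianReal (μ := 0) (v := 1)) c
  simpa [ProbabilityTheory.mgf] using this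

/-- The standard Gaussian measure on coordinate space. -/
noncomputable def fnG (ι : Type) [Fintype ι] : Measure (ι → ℝ) :=
  Measure.pi fun _ => ProbabilityTheory.gaussianReal 0 1

theorem fnG_prob : IsProbabilityMeasure (fnG ι) := by
  unfold fnG; infer_instance

theorem fnG_int {g : ι → ℝ → ℝ} (hg : ∀ i, Integrable (g i) (ProbabilityTheory.gaussianReal 0 1)) :
    Integrable (fun G : ι → ℝ => ∏ i, g i (G i)) (fnG ι) :=
  Integrable.fintype_prod hg

theorem fnG_prod (g : ι → ℝ → ℝ) :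
    ∫ G, ∏ i, g i (G i) ∂(fnG ι) = ∏ i, ∫ t, g i t ∂(ProbabilityTheory.gaussianReal 0 1) :=
  integral_fintype_prod_eq_prod g

theorem fn_step2 (B : Finset ι) (x : ι → ℝ) {c : ℝ} (hc : 0 ≤ c) :
    ENNReal.ofReal (exp (∑ i ∈ B, x i ^ 2 / 2) * c) =
      ∫⁻ G : ι → ℝ, ENNReal.ofReal (exp (∑ i, x i * (if i ∈ B then G i else 0)) * c) ∂(fnG ι) := by
  have e1 : ∀ G : ι → ℝ, exp (∑ i, x i * (if i ∈ B then G i else 0)) =
      ∏ i, exp ((if i ∈ B then x i else 0) * G i) := by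
    intro G
    rw [exp_sum]
    refine Finset.prod_congr rfl fun i _ => ?_
    split_ifs <;> simp
  have i1 := fnG_int (g := fun i (t : ℝ) => exp ((if i ∈ B then x i else 0) * t))
    fun i => ProbabilityTheory.integrable_exp_mul_gaussianReal _
  have i2 := fnG_prod (fun i (t : ℝ) => exp ((if i ∈ B then x i else 0) * t))
  have e2 : ∑ i, (if i ∈ B then x i else 0) ^ 2 / 2 = ∑ i ∈ B, x i ^ 2 / 2 := by
    rw [← Finset.sum_ite_mem_eq B]
    refine Finset.sum_congr rfl fun i _ => ?_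
    split_ifs <;> simp
  simp only [fn_gauss_exp] at i2
  rw [← exp_sum, e2] at i2
  simp only [e1]
  rw [← ofReal_integral_eq_lintegral_ofReal (i1.mul_const c) (ae_of_all _ fun G =>
    mul_nonneg (Finset.prod_nonneg fun _ _ => (exp_pos _).le) hc), integral_mul_const, i2]

theorem fn_step4 {B : Finset ι} (hB : B.Nonempty) :
    ∫⁻ G : ι → ℝ, 2 * ENNReal.ofReal (exp (∑ i, (if i ∈ B then G i else 0) ^ 2 / 4)) ∂(fnG ι) ≤
      3 ^ B.card := by
  rw [lintegral_const_mul' _ _ (by simp)]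
  have e3 : ∀ G : ι → ℝ, exp (∑ i, (if i ∈ B then G i else 0) ^ 2 / 4) =
      ∏ i, (if i ∈ B then exp (G i ^ 2 / 4) else 1) := by
    intro G
    rw [exp_sum]
    refine Finset.prod_congr rfl fun i _ => ?_
    split_ifs <;> simp
  have i2 : ∀ i, Integrable (fun t : ℝ => if i ∈ B then exp (t ^ 2 / 4) else 1)
      (ProbabilityTheory.gaussianReal 0 1) := by
    intro i
    split_ifs
    · exact fn_gauss_int
    · exact integrable_const _
  have i3 := fnG_int (g := fun i (t : ℝ) => if i ∈ B then exp (t ^ 2 / 4) else 1) i2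
  have i4 := fnG_prod (fun i (t : ℝ) => if i ∈ B then exp (t ^ 2 / 4) else 1)
  have e4 : ∏ i, ∫ t, (if i ∈ B then exp (t ^ 2 / 4) else 1)
      ∂(ProbabilityTheory.gaussianReal 0 1) ≤ (3 / 2 : ℝ) ^ B.card := by
    rw [← Finset.prod_const, ← Finset.prod_ite_mem_eq B]
    refine Finset.prod_le_prod (fun i _ => integral_nonneg fun t => ?_) fun i _ => ?_
    · show (0 : ℝ) ≤ if i ∈ B then exp (t ^ 2 / 4) else 1
      split_ifs <;> positivity
    · split_ifs
      · exact fn_gauss_le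
      · simp
  have e5 : 2 * (3 / 2 : ℝ) ^ B.card ≤ 3 ^ B.card := by
    obtain ⟨c, hc⟩ := Nat.exists_eq_add_of_le' (Finset.card_pos.2 hB)
    rw [hc, pow_succ, pow_succ]
    have : (3 / 2 : ℝ) ^ c ≤ 3 ^ c := by gcongr; norm_num
    linarith
  have e6 : ∀ G : ι → ℝ, 0 ≤ ∏ i, (if i ∈ B then exp (G i ^ 2 / 4) else 1) := fun G =>
    Finset.prod_nonneg fun i _ => by split_ifs <;> positivity
  simp only [e3]
  rw [← ofReal_integral_eq_lintegral_ofReal i3 (ae_of_all _ e6), i4]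
  calc 2 * ENNReal.ofReal (∏ i, ∫ t, (if i ∈ B then exp (t ^ 2 / 4) else 1)
        ∂(ProbabilityTheory.gaussianReal 0 1)) ≤ 2 * ENNReal.ofReal ((3 / 2 : ℝ) ^ B.card) :=
        mul_le_mul' le_rfl (ENNReal.ofReal_le_ofReal e4)
    _ = ENNReal.ofReal (2 * (3 / 2 : ℝ) ^ B.card) := by
        rw [ENNReal.ofReal_mul (by norm_num)]; simp
    _ ≤ ENNReal.ofReal ((3 : ℝ) ^ B.card) := ENNReal.ofReal_le_ofReal e5
    _ = 3 ^ B.card := by rw [ENNReal.ofReal_pow (by norm_num)]; simp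

theorem fn_meas {ρ : (ι → ℝ) → ℝ} (hm : Measurable ρ) (B : Finset ι) :
    Measurable (fun p : (ι → ℝ) × (ι → ℝ) =>
      ENNReal.ofReal (exp (∑ i, p.1 i * (if i ∈ B then p.2 i else 0)) * ρ p.1)) := by
  refine (Measurable.mul (Measurable.exp (Finset.measurable_sum _ fun i _ => ?_))
    (hm.comp measurable_fst)).ennreal_ofReal
  split_ifs <;> fun_prop

/-- From linear subgaussianity to the joint coordinate bound. For θ ≠ 0,
⟨θ,x⟩ ≤ |θ|²/4 + ⟨θ/|θ|,x⟩², so ∫ exp⟨θ,x⟩ ρ ≤ 2 exp(|θ|²/4). Integrate θ against the standard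
Gaussian on the coordinates in B: exp(Σ_B x²/2) = E exp(Σ_B G i x i) and
E exp(Σ_B G i²/4) = √2^|B|; 2 √2^|B| ≤ 3^|B| for B nonempty. -/
theorem subG_of_linear {ρ : (ι → ℝ) → ℝ} (hm : Measurable ρ) (h0 : ∀ x, 0 ≤ ρ x)
    (hi : Integrable ρ) (h1 : ∫ x, ρ x = 1)
    (h : ∀ θ : ι → ℝ, ∑ i, θ i ^ 2 = 1 →
      ∫⁻ x, ENNReal.ofReal (exp ((∑ i, x i * θ i) ^ 2) * ρ x) ≤ 2) (B : Finset ι) :
    ∫⁻ x, ENNReal.ofReal (exp (∑ i ∈ B, x i ^ 2 / 2) * ρ x) ≤ 3 ^ B.card := by
  rcases B.eq_empty_or_nonempty with rfl | hB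
  · simp only [Finset.sum_empty, exp_zero, one_mul, Finset.card_empty, pow_zero]
    rw [← ofReal_integral_eq_lintegral_ofReal hi (ae_of_all _ h0), h1]
    simp
  have := fnG_prob (ι := ι)
  have e1 : ∫⁻ x, ENNReal.ofReal (exp (∑ i ∈ B, x i ^ 2 / 2) * ρ x) =
      ∫⁻ x : ι → ℝ, ∫⁻ G : ι → ℝ,
        ENNReal.ofReal (exp (∑ i, x i * (if i ∈ B then G i else 0)) * ρ x) ∂(fnG ι) :=
    lintegral_congr fun x => fn_step2 B x (h0 x)
  have e2 := lintegral_prod (μ := (volume : Measure (ι → ℝ))) (ν := fnG ι) _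
    (fn_meas hm B).aemeasurable
  have e3 := lintegral_prod_symm (μ := (volume : Measure (ι → ℝ))) (ν := fnG ι) _
    (fn_meas hm B).aemeasurable
  have e4 : ∫⁻ G : ι → ℝ, (∫⁻ x : ι → ℝ,
      ENNReal.ofReal (exp (∑ i, x i * (if i ∈ B then G i else 0)) * ρ x)) ∂(fnG ι) ≤
      ∫⁻ G : ι → ℝ, 2 * ENNReal.ofReal (exp (∑ i, (if i ∈ B then G i else 0) ^ 2 / 4)) ∂(fnG ι) :=
    lintegral_mono fun G => fn_laplace h0 hi h1 h fun i => if i ∈ B then G i else 0
  exact (e1.trans (e2.symm.trans e3)).le.trans (e4.trans (fn_step4 hB))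

/-- The scaled identification of coordinate space with Euclidean space. -/
noncomputable def fnT (n : ℕ) {a : ℝ} (ha : 0 < a) :
    (Fin n → ℝ) ≃L[ℝ] EuclideanSpace ℝ (Fin n) :=
  (LinearEquiv.smulOfNeZero ℝ (Fin n → ℝ) a ha.ne').toContinuousLinearEquiv.trans
    (EuclideanSpace.equiv (Fin n) ℝ).symm

theorem fnT_eq (n : ℕ) {a : ℝ} (ha : 0 < a) (y : Fin n → ℝ) :
    fnT n ha y = WithLp.toLp 2 (a • y) := rfl

theorem fnT_apply (n : ℕ) {a : ℝ} (ha : 0 < a) (y : Fin n → ℝ) (i : Fin n) :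
    fnT n ha y i = a * y i := rfl

theorem fnT_map (n : ℕ) {a : ℝ} (ha : 0 < a) :
    Measure.map (fnT n ha) volume = ENNReal.ofReal ((a ^ n)⁻¹) • volume := by
  have h1 : (fnT n ha : (Fin n → ℝ) → EuclideanSpace ℝ (Fin n)) =
      (WithLp.toLp 2) ∘ (fun y => a • y) := rfl
  have hp := PiLp.volume_preserving_toLp (Fin n)
  rw [h1, ← Measure.map_map hp.measurable (measurable_const_smul a),
    Measure.map_addHaar_smul _ ha.ne', Measure.map_smul, hp.map_eq,
    abs_of_pos (by positivity)]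
  simp

theorem fnT_emb (n : ℕ) {a : ℝ} (ha : 0 < a) : MeasurableEmbedding (fnT n ha) :=
  (fnT n ha).toHomeomorph.measurableEmbedding

theorem fnT_integral (n : ℕ) {a : ℝ} (ha : 0 < a) (g : EuclideanSpace ℝ (Fin n) → ℝ) :
    ∫ y, a ^ n * g (fnT n ha y) = ∫ x, g x := by
  rw [integral_const_mul, ← (fnT_emb n ha).integral_map, fnT_map, integral_smul_measure,
    ENNReal.toReal_ofReal (by positivity), smul_eq_mul, ← mul_assoc,
    mul_inv_cancel₀ (by positivity), one_mul]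

theorem fnT_lintegral (n : ℕ) {a : ℝ} (ha : 0 < a) (g : EuclideanSpace ℝ (Fin n) → ℝ) :
    ∫⁻ y, ENNReal.ofReal (a ^ n * g (fnT n ha y)) = ∫⁻ x, ENNReal.ofReal (g x) := by
  simp only [ENNReal.ofReal_mul (show 0 ≤ a ^ n by positivity)]
  rw [lintegral_const_mul' _ _ ENNReal.ofReal_ne_top,
    ← (fnT_emb n ha).lintegral_map (fun x => ENNReal.ofReal (g x)), fnT_map,
    lintegral_smul_measure, smul_eq_mul, ← mul_assoc,
    ← ENNReal.ofReal_mul (show 0 ≤ a ^ n by positivity), mul_inv_cancel₀ (by positivity)]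
  simp

theorem fnT_integrable (n : ℕ) {a : ℝ} (ha : 0 < a) {g : EuclideanSpace ℝ (Fin n) → ℝ}
    (hg : Integrable g) : Integrable (fun y => a ^ n * g (fnT n ha y)) := by
  refine Integrable.const_mul ?_ _
  refine ((fnT_emb n ha).integrable_map_iff (g := g)).1 ?_
  rw [fnT_map]
  exact hg.smul_measure ENNReal.ofReal_ne_top

theorem fn_grad (n : ℕ) {a : ℝ} (ha : 0 < a) {f : EuclideanSpace ℝ (Fin n) → ℝ}
    (hf : Differentiable ℝ f) (y : Fin n → ℝ) :
    ∑ i, pd (fun y => f (fnT n ha y)) i y ^ 2 = a ^ 2 * ‖gradient f (fnT n ha y)‖ ^ 2 := by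
  rw [EuclideanSpace.real_norm_sq_eq, Finset.mul_sum]
  refine Finset.sum_congr rfl fun i _ => ?_
  have h1 : pd (fun y => f (fnT n ha y)) i y =
      fderiv ℝ f (fnT n ha y) (fnT n ha (Pi.single i 1)) := by
    unfold pd
    rw [show (fun y => f (fnT n ha y)) = f ∘ (fnT n ha) from rfl,
      fderiv_comp y (hf _) (fnT n ha).differentiableAt, (fnT n ha).fderiv]
    rfl
  have h2 : fnT n ha (Pi.single i 1) = a • EuclideanSpace.single i (1 : ℝ) := by
    ext j
    simp [fnT_apply, Pi.single_apply]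
  have h3 : fderiv ℝ f (fnT n ha y) (EuclideanSpace.single i (1 : ℝ)) =
      gradient f (fnT n ha y) i := by
    rw [← inner_gradient_left, EuclideanSpace.inner_single_right]
    simp
  rw [h1, h2, map_smul, h3, smul_eq_mul, mul_pow]

/-- The final statement: transfer to `Fin n → ℝ` (volume preserving `WithLp` equivalence),
rescale x ↦ a x, apply `subG_of_linear` and `tight`. -/
theorem final (n : ℕ) (ρ : EuclideanSpace ℝ (Fin n) → ℝ) (hm : Measurable ρ) (h0 : ∀ x, 0 ≤ ρ x)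
    (hi : Integrable ρ) (h1 : ∫ x, ρ x = 1) (hc : Convex ℝ {x | 0 < ρ x})
    (hl : ConcaveOn ℝ {x | 0 < ρ x} (fun x => Real.log (ρ x)))
    (hu : ∀ x y : EuclideanSpace ℝ (Fin n), (∀ i, |x i| = |y i|) → ρ x = ρ y) (a : ℝ) (ha : 0 < a)
    (hs : ∀ θ : EuclideanSpace ℝ (Fin n), ‖θ‖ = 1 →
      ∫⁻ x, ENNReal.ofReal (Real.exp (inner ℝ x θ ^ 2 / a ^ 2) * ρ x) ≤ 2)
    (f : EuclideanSpace ℝ (Fin n) → ℝ) (hf : ContDiff ℝ 1 f) (hfs : HasCompactSupport f) :
    (∫ x, f x ^ 2 * Real.log (f x ^ 2) * ρ x) -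
        (∫ x, f x ^ 2 * ρ x) * Real.log (∫ x, f x ^ 2 * ρ x) ≤
      K0 * a ^ 2 * ∫ x, ‖gradient f x‖ ^ 2 * ρ x := by
  have han : 0 < a ^ n := pow_pos ha n
  have hm' : Measurable fun y => a ^ n * ρ (fnT n ha y) :=
    (hm.comp (fnT_emb n ha).measurable).const_mul _
  have h0' : ∀ y, 0 ≤ a ^ n * ρ (fnT n ha y) := fun y => mul_nonneg han.le (h0 _)
  have hi' := fnT_integrable n ha hi
  have h1' : ∫ y, a ^ n * ρ (fnT n ha y) = 1 := by rw [fnT_integral, h1]
  have hpos : ∀ y, 0 < a ^ n * ρ (fnT n ha y) ↔ 0 < ρ (fnT n ha y) := fun y =>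
    mul_pos_iff_of_pos_left han
  have hconv : Convex ℝ {y | 0 < a ^ n * ρ (fnT n ha y)} := by
    intro x hx y hy s t hs0 ht0 hst
    rw [mem_ofPred_eq, hpos] at hx hy ⊢
    rw [map_add, map_smul, map_smul]
    exact hc hx hy hs0 ht0 hst
  have hLC : LC fun y => a ^ n * ρ (fnT n ha y) := by
    refine ⟨hm', h0', hi', h1', hconv, ⟨hconv, fun x hx y hy s t hs0 ht0 hst => ?_⟩,
      fun x y hxy => ?_, subG_of_linear hm' h0' hi' h1' fun θ hθ => ?_⟩
    · have hz := hconv hx hy hs0 ht0 hst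
      rw [mem_ofPred_eq, hpos] at hx hy hz
      have h2 := hl.2 hx hy hs0 ht0 hst
      simp only [map_add, map_smul, smul_eq_mul] at h2 hz ⊢
      rw [log_mul han.ne' hx.ne', log_mul han.ne' hy.ne', log_mul han.ne' hz.ne']
      have h3 : s * log (a ^ n) + t * log (a ^ n) = log (a ^ n) := by rw [← add_mul, hst, one_mul]
      linarith
    · show a ^ n * ρ (fnT n ha x) = a ^ n * ρ (fnT n ha y)
      rw [hu (fnT n ha x) (fnT n ha y) fun i => by
        rw [fnT_apply, fnT_apply, abs_mul, abs_mul, hxy i]]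
    · have hn : ‖(WithLp.toLp 2 θ : EuclideanSpace ℝ (Fin n))‖ = 1 := by
        rw [← sq_eq_sq₀ (norm_nonneg _) zero_le_one, EuclideanSpace.real_norm_sq_eq, one_pow]
        exact hθ
      refine le_trans (le_of_eq ?_) (hs _ hn)
      rw [← fnT_lintegral n ha]
      refine lintegral_congr fun y => ?_
      have e1 : inner ℝ (fnT n ha y) (WithLp.toLp 2 θ : EuclideanSpace ℝ (Fin n)) =
          a * ∑ i, y i * θ i := by
        rw [PiLp.inner_apply, Finset.mul_sum]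
        refine Finset.sum_congr rfl fun i _ => ?_
        rw [fnT_apply]
        simp only [RCLike.inner_apply, conj_trivial]
        ring
      have e2 : (a * ∑ i, y i * θ i) ^ 2 / a ^ 2 = (∑ i, y i * θ i) ^ 2 := by field_simp
      rw [e1, e2, mul_left_comm]
  have hC : C1c fun y => f (fnT n ha y) :=
    ⟨hf.comp (fnT n ha).contDiff, hfs.comp_homeomorph (fnT n ha).toHomeomorph⟩
  have key := tight hLC hC
  have hI : ∀ g : EuclideanSpace ℝ (Fin n) → ℝ,
      ∫ y, g (fnT n ha y) ∂(mu fun y => a ^ n * ρ (fnT n ha y)) = ∫ x, g x * ρ x := by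
    intro g
    rw [lm_integral_mu hm' h0', ← fnT_integral n ha]
    refine integral_congr_ae (ae_of_all _ fun y => ?_)
    ring
  have hP := lm_prob_mu h0' hi' h1'
  have hE : En (mu fun y => a ^ n * ρ (fnT n ha y)) (fun y => f (fnT n ha y)) =
      a ^ 2 * ∫ x, ‖gradient f x‖ ^ 2 * ρ x := by
    unfold En
    rw [← integral_finsetSum _ fun i _ => ?_]
    · simp only [fn_grad n ha (hf.differentiable one_ne_zero)]
      rw [integral_const_mul, hI fun x => ‖gradient f x‖ ^ 2]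
    · obtain ⟨d, hd0, hd⟩ := hC.pd_bdd i
      refine integrable_of_bdd ((hC.pd_cont i).measurable.pow_const 2) (C := d ^ 2) fun x => ?_
      rw [abs_pow]; gcongr; exact hd x
  unfold Ent at key
  rw [hE, hI fun x => f x ^ 2 * log (f x ^ 2), hI fun x => f x ^ 2, ← mul_assoc] at key
  exact key

end Vale.Agent.P245
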