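import Vale.Agent.P245.Master

/-! Two crude consequences of the master inequality. -/

open MeasureTheory Real Set Filter Topology
open scoped ENNReal

namespace Vale.Agent.P245

set_option linter.unusedSectionVars false

variable {ι : Type} [Fintype ι] [DecidableEq ι]

theorem lp_cont {f : (ι → ℝ) → ℝ} (hf : C1c f) {δ : ℝ} (hδ : 0 < δ) (i : ι) :
    Continuous (lp f δ i) := by
  unfold lp
  exact ((continuous_const.mul hf.cont).mul (hf.pd_cont i)).div
    ((hf.cont.pow 2).add continuous_const) fun x => by positivity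

theorem lp_sq_le (f : (ι → ℝ) → ℝ) {δ : ℝ} (hδ : 0 < δ) (i : ι) (x : ι → ℝ) :
    lp f δ i x ^ 2 * (f x ^ 2 + δ) ≤ 4 * pd f i x ^ 2 := by
  have hw : 0 < f x ^ 2 + δ := by positivity
  have e : lp f δ i x ^ 2 * (f x ^ 2 + δ) = 4 * pd f i x ^ 2 * (f x ^ 2 / (f x ^ 2 + δ)) := by
    unfold lp; field_simp; ring
  have h1 : f x ^ 2 / (f x ^ 2 + δ) ≤ 1 := (div_le_one hw).2 (by linarith)
  rw [e]; nlinarith [sq_nonneg (pd f i x)]

theorem lp_bdd {f : (ι → ℝ) → ℝ} (hf : C1c f) {δ : ℝ} (hδ : 0 < δ) :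
    ∃ B, 0 ≤ B ∧ ∀ x, ∑ i, lp f δ i x ^ 2 ≤ B := by
  choose C hC0 hC using hf.pd_bdd
  refine ⟨∑ i, 4 * C i ^ 2 / δ, Finset.sum_nonneg fun i _ => by positivity,
    fun x => Finset.sum_le_sum fun i _ => ?_⟩
  rw [le_div_iff₀ hδ]
  have h1 := lp_sq_le f hδ i x
  have h2 : pd f i x ^ 2 ≤ C i ^ 2 := by rw [← sq_abs]; gcongr; exact hC i x
  nlinarith [mul_nonneg (sq_nonneg (lp f δ i x)) (sq_nonneg (f x))]

/-- The master inequality for a quadratic weight. -/
theorem master_quad {V : (ι → ℝ) → ℝ} {S L : ℝ} (hV : Nice V S L) {f : (ι → ℝ) → ℝ} (hf : C1c f)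
    {δ : ℝ} (hδ : 0 < δ) {a : ℝ} (ha : 0 ≤ a) {u W : ℝ → ℝ} (hum : Measurable u)
    (hu0 : ∀ t, 0 ≤ u t) (hu1 : ∀ t, u t ≤ t ^ 2) (hWm : Measurable W) (hW0 : ∀ t, 0 ≤ W t)
    (hW1 : ∀ t, W t ≤ t ^ 2)
    (hpt : ∀ p x T : ℝ, x ≠ 0 → 0 < T → gain (p * x) (√(T / |x|)) ≤ a * p ^ 2 + u x + W T) :
    7 / 8 * Ent (dens V) (fun x => f x ^ 2 + δ) ≤
      (4 * a + Cs) * En (dens V) f + ∫ x, (∑ i, u (x i)) * (f x ^ 2 + δ) ∂(dens V) +
        (∫ x, (f x ^ 2 + δ) ∂(dens V)) * ∑ i, ∫ x, W |x i| ∂(dens V) +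
        1 / 8 * ∫ x, U S x * (f x ^ 2 + δ) ∂(dens V) := by
  have hb := hV.base
  have := hb.prob
  obtain ⟨B, hB0, hB⟩ := lp_bdd hf hδ
  have hlm : Measurable fun x => ∑ i, lp f δ i x ^ 2 :=
    Finset.measurable_sum _ fun i _ => (lp_cont hf hδ i).measurable.pow_const 2
  have hUm : Measurable fun x : ι → ℝ => ∑ i, u (x i) :=
    Finset.measurable_sum _ fun i _ => hum.comp (measurable_pi_apply i)
  have hU1 : ∀ x : ι → ℝ, ∑ i, u (x i) ≤ ∑ i, x i ^ 2 := fun x =>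
    Finset.sum_le_sum fun i _ => hu1 _
  have hU0 : ∀ x : ι → ℝ, 0 ≤ ∑ i, u (x i) := fun x => Finset.sum_nonneg fun i _ => hu0 _
  have hm := master hV hf hδ (Φ := fun x => a * ∑ i, lp f δ i x ^ 2 + ∑ i, u (x i))
    (W := fun _ => W) (C := a * B + 1) ((hlm.const_mul a).add hUm)
    (fun x => add_nonneg (mul_nonneg ha (Finset.sum_nonneg fun i _ => sq_nonneg _)) (hU0 x))
    (fun x => by
      have h1 := mul_le_mul_of_nonneg_left (hB x) ha
      have h2 : 0 ≤ ∑ i, x i ^ 2 := Finset.sum_nonneg fun i _ => sq_nonneg _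
      have h3 := hU1 x
      nlinarith [mul_nonneg (mul_nonneg ha hB0) h2])
    (fun _ => hWm) (fun _ => hW0)
    (fun i => (hb.sq i).mono' (hWm.comp (by fun_prop)).aestronglyMeasurable
      (Eventually.of_forall fun x => by
        rw [Real.norm_eq_abs, abs_of_nonneg (hW0 _), ← sq_abs]; exact hW1 _))
    (fun x hx T hT => by
      rw [Finset.mul_sum, ← Finset.sum_add_distrib, ← Finset.sum_add_distrib]
      exact Finset.sum_le_sum fun i _ => hpt _ _ _ (hx i) (hT i))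
  obtain ⟨Cf, hCf0, hCf⟩ := hf.bdd
  have hwm : Measurable fun x => f x ^ 2 + δ := (hf.cont.measurable.pow_const 2).add_const δ
  have hwb : ∀ x, ‖f x ^ 2 + δ‖ ≤ Cf ^ 2 + δ := fun x => by
    rw [Real.norm_eq_abs, abs_of_pos (by positivity)]
    have : f x ^ 2 ≤ Cf ^ 2 := by rw [← sq_abs]; gcongr; exact hCf x
    linarith
  have i1 : Integrable (fun x => (∑ i, lp f δ i x ^ 2) * (f x ^ 2 + δ)) (dens V) :=
    (int_of_nonneg_le hlm (fun x => Finset.sum_nonneg fun i _ => sq_nonneg _) hB).mul_bdd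
      hwm.aestronglyMeasurable (Eventually.of_forall hwb)
  have i2 : Integrable (fun x : ι → ℝ => (∑ i, u (x i)) * (f x ^ 2 + δ)) (dens V) :=
    (hb.int_of_quad hUm (C := 1) fun x => by
      rw [abs_of_nonneg (hU0 x)]; linarith [hU1 x]).mul_bdd
      hwm.aestronglyMeasurable (Eventually.of_forall hwb)
  have i3 : ∀ i, Integrable (fun x => pd f i x ^ 2) (dens V) := fun i => by
    refine integrable_of_supp ((hf.pd_cont i).pow 2) ?_
    have : (fun x => pd f i x ^ 2) = fun x => pd f i x * pd f i x := by funext x; ring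
    rw [this]; exact (hf.pd_supp i).mul_right
  have h1 : ∫ x, (∑ i, lp f δ i x ^ 2) * (f x ^ 2 + δ) ∂(dens V) ≤ 4 * En (dens V) f := by
    unfold En
    rw [← integral_finsetSum _ fun i _ => i3 i, ← integral_const_mul]
    refine integral_mono i1 ((integrable_finsetSum _ fun i _ => i3 i).const_mul 4) fun x => ?_
    simp only [Finset.sum_mul, Finset.mul_sum]
    exact Finset.sum_le_sum fun i _ => lp_sq_le f hδ i x
  have e : ∫ x, (a * ∑ i, lp f δ i x ^ 2 + ∑ i, u (x i)) * (f x ^ 2 + δ) ∂(dens V) =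
      a * ∫ x, (∑ i, lp f δ i x ^ 2) * (f x ^ 2 + δ) ∂(dens V) +
        ∫ x, (∑ i, u (x i)) * (f x ^ 2 + δ) ∂(dens V) := by
    rw [← integral_const_mul, ← integral_add (i1.const_mul a) i2]
    refine integral_congr_ae (Eventually.of_forall fun x => ?_)
    ring
  rw [e] at hm
  have := mul_le_mul_of_nonneg_left h1 ha
  linarith

theorem add_delta {μ : Measure (ι → ℝ)} {S : ℝ} (hb : Base μ S) {f : (ι → ℝ) → ℝ} (hf : C1c f)
    (δ : ℝ) : ∫ x, (f x ^ 2 + δ) ∂μ = ∫ x, f x ^ 2 ∂μ + δ ∧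
      ∫ x, U S x * (f x ^ 2 + δ) ∂μ = ∫ x, U S x * f x ^ 2 ∂μ + (∫ x, U S x ∂μ) * δ := by
  have := hb.prob
  have hs : HasCompactSupport fun x => f x ^ 2 := by
    have : (fun x => f x ^ 2) = fun x => f x * f x := by funext x; ring
    rw [this]; exact hf.2.mul_right
  have i1 : Integrable (fun x => f x ^ 2) μ := integrable_of_supp (hf.cont.pow 2) hs
  have i2 : Integrable (fun x => U S x * f x ^ 2) μ :=
    integrable_of_supp ((U_cont S).mul (hf.cont.pow 2)) hs.mul_left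
  constructor
  · rw [integral_add i1 (integrable_const _)]; simp
  · simp only [mul_add]
    rw [integral_add i2 (hb.int_U.mul_const _), integral_mul_const]

/-- Defective inequality with an absolute gradient constant. -/
theorem gain_ineq {V : (ι → ℝ) → ℝ} {S L : ℝ} (hV : Nice V S L) :
    ∃ C : ℝ, 0 ≤ C ∧ ∀ φ : (ι → ℝ) → ℝ, C1c φ →
      Ent (dens V) (fun x => φ x ^ 2) ≤ K1 * En (dens V) φ +
        (∫ x, U S x * φ x ^ 2 ∂(dens V)) / 2 + C * ∫ x, φ x ^ 2 ∂(dens V) := by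
  have hb := hV.base
  have := hb.prob
  set Q := ∑ i, ∫ x, x i ^ 2 ∂(dens V) with hQ
  have hQ0 : 0 ≤ Q := Finset.sum_nonneg fun i _ => integral_nonneg fun x => sq_nonneg _
  set a : ℝ := Fintype.card ι * log 4 with ha
  have ha0 : 0 ≤ a := mul_nonneg (Nat.cast_nonneg _) (log_nonneg (by norm_num))
  refine ⟨2 * Q + a, by positivity, fun φ hφ => ?_⟩
  obtain ⟨Cf, hCf0, hCf⟩ := hφ.bdd
  have hsq : ∀ x, φ x ^ 2 ≤ Cf ^ 2 := fun x => by rw [← sq_abs]; gcongr; exact hCf x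
  refine Ent_le_of_forall (hφ.cont.measurable.pow_const 2) (fun x => sq_nonneg _) hsq
    (B := (∫ x, U S x ∂(dens V)) / 2 + (2 * Q + a)) fun δ hδ _ => ?_
  have h1 := master_quad hV hφ hδ (a := 65) (by norm_num) (u := fun t => t ^ 2 / 64)
    (W := fun t => t ^ 2) (by fun_prop) (fun t => by positivity)
    (fun t => by nlinarith [sq_nonneg t]) (by fun_prop) (fun t => sq_nonneg t) (fun t => le_rfl)
    (fun p x T hx hT => by
      have := gain_le_a p x T hx hT
      rw [abs_mul] at this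
      rw [← sq_abs p, ← sq_abs x]
      nlinarith [sq_nonneg (64 * |p| - |x|), sq_nonneg (|p| - T)])
  have h2 := second_moment hb (w := fun x => φ x ^ 2 + δ)
    ((hφ.cont.measurable.pow_const 2).add_const δ) (fun x => by positivity) (C := Cf ^ 2 + δ)
    (fun x => by linarith [hsq x])
  have e : ∫ x, (∑ i, x i ^ 2 / 64) * (φ x ^ 2 + δ) ∂(dens V) =
      1 / 64 * ∫ x, (∑ i, x i ^ 2) * (φ x ^ 2 + δ) ∂(dens V) := by
    rw [← integral_const_mul]
    refine integral_congr_ae (Eventually.of_forall fun x => ?_)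
    simp only [← Finset.sum_div]; ring
  simp only [sq_abs] at h1
  rw [e, ← hQ] at h1
  rw [← ha] at h2
  obtain ⟨e1, e2⟩ := add_delta hb hφ δ
  rw [e1, e2] at h1 h2
  have hE := En_nonneg (dens V) φ
  have hP : 0 ≤ ∫ x, U S x * φ x ^ 2 ∂(dens V) :=
    integral_nonneg fun x => mul_nonneg (U_nonneg _ _) (sq_nonneg _)
  have hU : 0 ≤ ∫ x, U S x ∂(dens V) := integral_nonneg fun x => U_nonneg _ _
  have hN : 0 ≤ ∫ x, φ x ^ 2 ∂(dens V) := integral_nonneg fun x => sq_nonneg _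
  have hc := two_le_C2
  unfold Cs at h1
  unfold K1
  have c1 : 2 * En (dens V) φ ≤ C2 * En (dens V) φ := by gcongr
  nlinarith [mul_nonneg hU hδ.le, mul_nonneg hN hQ0, mul_nonneg hN ha0, mul_nonneg hδ.le hQ0,
    mul_nonneg hδ.le ha0]

theorem gain_le_c (p x T S : ℝ) (hS : 0 ≤ S) (hx : x ≠ 0) (hT : 0 < T) :
    gain (p * x) (√(T / |x|)) ≤
      (24 * S ^ 2 + 65) * p ^ 2 + U1 S x / 8 + if S < T then T ^ 2 else 0 := by
  refine le_of_forall_pos_le_add fun e he => ?_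
  have hθ : 0 < e / (2 * (x ^ 2 + T ^ 2)) := by positivity
  have h := gain_le_b p 0 x T S _ hx hT hθ
  rw [add_zero] at h
  have h1 : 2 * (e / (2 * (x ^ 2 + T ^ 2))) * x ^ 2 + 2 * (e / (2 * (x ^ 2 + T ^ 2))) * T ^ 2 = e := by
    field_simp
  have h2 : 8 * p ^ 2 * min (T ^ 2) (S ^ 2) ≤ 8 * p ^ 2 * S ^ 2 := by
    gcongr; exact min_le_right _ _
  have h3 : min (4 * (p * x) ^ 2) (2 * |p * x|) ≤ (16 * S ^ 2 + 64) * p ^ 2 + U1 S x / 8 := by
    have hU := U1_nonneg S x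
    rcases le_total |x| (2 * S) with hx2 | hx2
    · refine (min_le_left _ _).trans ?_
      have : x ^ 2 ≤ (2 * S) ^ 2 := by rw [← sq_abs]; gcongr
      rw [mul_pow]
      nlinarith [sq_nonneg p]
    · refine (min_le_right _ _).trans ?_
      have := sq_le_U1 hS hx2
      rw [abs_mul, ← sq_abs p]
      rw [← sq_abs x] at this
      nlinarith [sq_nonneg (64 * |p| - |x|), mul_nonneg (sq_nonneg S) (sq_nonneg |p|)]
  simp only [ne_eq, OfNat.ofNat_ne_zero, not_false_eq_true, zero_pow, zero_div, add_zero] at h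
  linarith

/-- The defective inequality holds with some finite constant. -/
theorem exists_KI {V : (ι → ℝ) → ℝ} {S L : ℝ} (hV : Nice V S L) : ∃ K, KI (dens V) S K := by
  have hb := hV.base
  have := hb.prob
  have hS : 0 ≤ S := by linarith [hb.one_le]
  refine ⟨2 * (4 * (24 * S ^ 2 + 65) + Cs), fun φ hφ => ?_⟩
  obtain ⟨Cf, hCf0, hCf⟩ := hφ.bdd
  have hsq : ∀ x, φ x ^ 2 ≤ Cf ^ 2 := fun x => by rw [← sq_abs]; gcongr; exact hCf x
  refine Ent_le_of_forall (hφ.cont.measurable.pow_const 2) (fun x => sq_nonneg _) hsq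
    (B := (∫ x, U S x ∂(dens V)) + 1) fun δ hδ _ => ?_
  have h1 := master_quad hV hφ hδ (a := 24 * S ^ 2 + 65) (by positivity)
    (u := fun t => U1 S t / 8) (W := fun T => if S < T then T ^ 2 else 0)
    ((U1_cont S).measurable.div_const 8) (fun t => by have := U1_nonneg S t; positivity)
    (fun t => by nlinarith [sq_nonneg t, U1_le hS t])
    (Measurable.ite measurableSet_Ioi (by fun_prop) (by fun_prop))
    (fun t => by split_ifs <;> positivity)
    (fun t => by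
      split_ifs
      · exact le_rfl
      · positivity)
    (fun p x T hx hT => gain_le_c p x T S hS hx hT)
  have e : ∫ x, (∑ i, U1 S (x i) / 8) * (φ x ^ 2 + δ) ∂(dens V) =
      1 / 8 * ∫ x, U S x * (φ x ^ 2 + δ) ∂(dens V) := by
    rw [← integral_const_mul]
    refine integral_congr_ae (Eventually.of_forall fun x => ?_)
    simp only [← Finset.sum_div, U]; ring
  simp only [sq_abs] at h1
  rw [e] at h1
  obtain ⟨e1, e2⟩ := add_delta hb hφ δ
  rw [e1, e2] at h1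
  have hE := En_nonneg (dens V) φ
  have hP : 0 ≤ ∫ x, U S x * φ x ^ 2 ∂(dens V) :=
    integral_nonneg fun x => mul_nonneg (U_nonneg _ _) (sq_nonneg _)
  have hU : 0 ≤ ∫ x, U S x ∂(dens V) := integral_nonneg fun x => U_nonneg _ _
  have hN : 0 ≤ ∫ x, φ x ^ 2 ∂(dens V) := integral_nonneg fun x => sq_nonneg _
  have hc := two_le_C2
  have hCs : 0 ≤ Cs := by unfold Cs; linarith
  have h2 := mul_le_mul_of_nonneg_left hV.tail
    (show 0 ≤ ∫ x, φ x ^ 2 ∂(dens V) + δ by linarith)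
  have h3 : 0 ≤ (4 * (24 * S ^ 2 + 65) + Cs) * En (dens V) φ := by positivity
  nlinarith [mul_nonneg hU hδ.le]

end Vale.Agent.P245
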