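import Vale.Agent.P245.ShiftAux

open MeasureTheory Real Set Filter Topology
open scoped ENNReal

namespace Vale.Agent.P245

set_option linter.unusedSectionVars false

variable {ι : Type} [Fintype ι] [DecidableEq ι]

theorem beta_deriv {δ : ℝ} (hδ : 0 < δ) (c : ℝ) :
    HasDerivAt (fun u : ℝ => u * log (u ^ 2 + δ))
      (log (c ^ 2 + δ) + c * (2 * c / (c ^ 2 + δ))) c := by
  have h1 : HasDerivAt (fun u : ℝ => u ^ 2 + δ) (2 * c) c := by
    simpa using (hasDerivAt_pow 2 c).add_const δ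
  have h2 := h1.log (by positivity : c ^ 2 + δ ≠ 0)
  have h3 := (hasDerivAt_id' c).mul h2
  rw [one_mul] at h3
  exact h3

theorem beta_lt {δ : ℝ} (hδ : 0 < δ) {a b : ℝ} (hab : a < b) :
    (b * log (b ^ 2 + δ) - a * log (a ^ 2 + δ)) * (b - a) ≤
      (b - a) ^ 2 * (log (max (a ^ 2) (b ^ 2) + δ) + 2) := by
  obtain ⟨c, hc, hs⟩ := exists_hasDerivAt_eq_slope (fun u : ℝ => u * log (u ^ 2 + δ))
    (fun c => log (c ^ 2 + δ) + c * (2 * c / (c ^ 2 + δ))) hab
    (fun u _ => (beta_deriv hδ u).continuousAt.continuousWithinAt) (fun u _ => beta_deriv hδ u)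
  have hc2 : c ^ 2 ≤ max (a ^ 2) (b ^ 2) := by
    rcases le_total 0 c with h | h
    · exact le_max_of_le_right (pow_le_pow_left₀ h hc.2.le 2)
    · refine le_max_of_le_left ?_
      nlinarith [hc.1]
  have h1 : log (c ^ 2 + δ) ≤ log (max (a ^ 2) (b ^ 2) + δ) :=
    log_le_log (by positivity) (by linarith)
  have h2 : c * (2 * c / (c ^ 2 + δ)) ≤ 2 := by
    rw [← mul_div_assoc, div_le_iff₀ (by positivity)]
    nlinarith
  have hba : 0 < b - a := sub_pos.2 hab
  rw [eq_div_iff hba.ne'] at hs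
  rw [← hs, mul_assoc, ← pow_two, mul_comm]
  exact mul_le_mul_of_nonneg_left (by linarith) (sq_nonneg _)

theorem beta_le {δ : ℝ} (hδ : 0 < δ) (a b : ℝ) :
    (b * log (b ^ 2 + δ) - a * log (a ^ 2 + δ)) * (b - a) ≤
      (b - a) ^ 2 * (log (max (a ^ 2) (b ^ 2) + δ) + 2) := by
  rcases lt_trichotomy a b with h | rfl | h
  · exact beta_lt hδ h
  · simp
  · have := beta_lt hδ h
    rw [max_comm] at this
    nlinarith

theorem pot_cont {f : (ι → ℝ) → ℝ} (hf : Continuous f) {δ : ℝ} (hδ : 0 < δ) :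
    Continuous (pot f δ) := by
  unfold pot
  refine Continuous.log (((hf.pow 2).add continuous_const).div_const _) fun x => ?_
  positivity

theorem pot_eq {f : (ι → ℝ) → ℝ} {δ : ℝ} (hδ : 0 < δ) (x : ι → ℝ) :
    pot f δ x = log (f x ^ 2 + δ) - log (1 + δ) := by
  unfold pot
  rw [log_div (by positivity) (by positivity)]

theorem logRw_cont {f : (ι → ℝ) → ℝ} (hf : Continuous f) {δ : ℝ} (hδ : 0 < δ) (i : ι) (s : ℝ) :
    Continuous (fun x => log (Rw f δ i s x)) := by
  unfold Rw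
  refine Continuous.log (((hf.pow 2).max ((hf.comp (sh_cont i s)).pow 2)).add continuous_const)
    fun x => ?_
  have : 0 ≤ max (f x ^ 2) (f (sh i s x) ^ 2) := le_max_of_le_left (sq_nonneg _)
  positivity

/-- The gradient part of the discrete Bochner identity. -/
theorem grad_adj {V : (ι → ℝ) → ℝ} {S L : ℝ} (hV : Nice V S L) {f : (ι → ℝ) → ℝ} (hf : C1c f)
    (i j : ι) (s : ℝ) :
    ∫ x, pd f j x * pd (adj V (dif f i s) i s) j x ∂(dens V) =
      -∫ x, pd (dif f i s) j x ^ 2 ∂(dens V) -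
        ∫ x, dif f i s x * pd f j (sh i s x) * (pd V j (sh i s x) - pd V j x) ∂(dens V) := by
  have := hV.base.prob
  have hc : Continuous V := hV.smooth.c1.continuous
  have hφ := hf.dif i s
  have hp := pd_cont hV.smooth.c1 j
  have h1 := integral_mul_adj hc (hf.pd_cont j) (hφ.pd_cc j) i s
  have h2 := integral_mul_shift hc
    (fun x => pd f j x * (pd V j x - pd V j (sh i (-s) x))) (dif f i s) i s
  simp only [sh_neg_sh] at h2
  have i1 : Integrable (fun x => pd f j x * adj V (pd (dif f i s) j) i s x) (dens V) := by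
    refine ((hf.pd_cc j).mul_right ?_).int
    exact (hφ.pd_cont j).sub (((hφ.pd_cont j).comp (sh_cont i (-s))).mul (expV_cont hc i (-s)))
  have i2 : Integrable (fun x => pd f j x * (pd V j x - pd V j (sh i (-s) x)) *
      (dif f i s (sh i (-s) x) * exp (V x - V (sh i (-s) x)))) (dens V) :=
    (((hf.pd_cc j).mul_right (hp.sub (hp.comp (sh_cont i (-s))))).mul_right
      ((hφ.cont.comp (sh_cont i (-s))).mul (expV_cont hc i (-s)))).int
  have e : ∀ x, pd f j x * pd (adj V (dif f i s) i s) j x =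
      pd f j x * adj V (pd (dif f i s) j) i s x - pd f j x * (pd V j x - pd V j (sh i (-s) x)) *
        (dif f i s (sh i (-s) x) * exp (V x - V (sh i (-s) x))) := by
    intro x
    rw [pd_adj hV.smooth.c1 hφ]
    unfold adj
    ring
  simp only [e]
  rw [integral_sub i1 i2, h1, h2]
  congr 1
  · congr 1
    refine integral_congr_ae (Eventually.of_forall fun x => ?_)
    simp only [pd_dif hf]
    ring
  · refine integral_congr_ae (Eventually.of_forall fun x => ?_)
    simp only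
    ring

/-- The potential part of the discrete Bochner inequality. -/
theorem pot_adj {V : (ι → ℝ) → ℝ} {S L : ℝ} (hV : Nice V S L) {f : (ι → ℝ) → ℝ} (hf : C1c f)
    {δ : ℝ} (hδ : 0 < δ) (i : ι) (s : ℝ) :
    ∫ x, (U S x + 1 - pot f δ x) * (f x * adj V (dif f i s) i s x) ∂(dens V) ≤
      -∫ x, U S x * dif f i s x ^ 2 ∂(dens V) - Uterm V S f i s +
        ∫ x, dif f i s x ^ 2 ∂(dens V) + ∫ x, dif f i s x ^ 2 * log (Rw f δ i s x) ∂(dens V) := by
  have := hV.base.prob
  have hc : Continuous V := hV.smooth.c1.continuous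
  have hφ := (hf.dif i s).cc
  have hu : Continuous fun x => (U S x + 1 - pot f δ x) * f x :=
    (((U_cont S).add continuous_const).sub (pot_cont hf.cont hδ)).mul hf.cont
  have h1 := integral_mul_adj hc hu hφ i s
  simp only [mul_assoc] at h1
  rw [h1, ← integral_neg]
  have i1 : Integrable (fun x => U S x * dif f i s x ^ 2) (dens V) :=
    (hφ.sq.mul_left (U_cont S)).int
  have i2 : Integrable (fun x => (U S (sh i s x) - U S x) * (f (sh i s x) * dif f i s x))
      (dens V) := ((hφ.mul_left (hf.cont.comp (sh_cont i s))).mul_left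
        (((U_cont S).comp (sh_cont i s)).sub (U_cont S))).int
  have i3 : Integrable (fun x => dif f i s x ^ 2) (dens V) := hφ.sq.int
  have i4 : Integrable (fun x => dif f i s x ^ 2 * log (Rw f δ i s x)) (dens V) :=
    (hφ.sq.mul_right (logRw_cont hf.cont hδ i s)).int
  have i1' : Integrable (fun x => -(U S x * dif f i s x ^ 2)) (dens V) := i1.neg
  have i5 : Integrable (fun x => -(U S x * dif f i s x ^ 2) -
      (U S (sh i s x) - U S x) * (f (sh i s x) * dif f i s x)) (dens V) := i1'.sub i2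
  have i6 : Integrable (fun x => -(U S x * dif f i s x ^ 2) -
      (U S (sh i s x) - U S x) * (f (sh i s x) * dif f i s x) + dif f i s x ^ 2) (dens V) :=
    i5.add i3
  have i0 : Integrable (fun x => -(((U S (sh i s x) + 1 - pot f δ (sh i s x)) * f (sh i s x) -
      (U S x + 1 - pot f δ x) * f x) * dif f i s x)) (dens V) :=
    (hφ.mul_left ((hu.comp (sh_cont i s)).sub hu)).int.neg
  have key := integral_mono i0 (i6.add i4) (fun x => by
    have hb := beta_le hδ (f x) (f (sh i s x))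
    have hl : 0 ≤ log (1 + δ) := log_nonneg (by linarith)
    have hl2 := mul_nonneg hl (sq_nonneg (f (sh i s x) - f x))
    simp only [Pi.add_apply, pot_eq hδ]
    unfold dif Rw
    nlinarith)
  refine key.trans (le_of_eq ?_)
  unfold Uterm
  simp only [Pi.add_apply]
  rw [integral_add i6 i4, integral_add i5 i3, integral_sub i1' i2, integral_neg]

/-- The discrete Bochner inequality. With φ = dif f i s, ψ = adj V φ i s, `shift_adj` gives
∫ u ψ = -∫ (u ∘ sh - u) φ; expand `Bf` with `pd_adj`, `pd_dif`. The function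
β u = u log(u² + δ) has β' = log(u²+δ) + 2u²/(u²+δ) ≤ log(F²+δ) + 2 for |u| ≤ F, so by the mean
value theorem (β(f ∘ sh) - β f) φ ≤ φ² (log Rw + 2); the term log(1+δ) ∫ φ² has the good sign. -/
theorem shift_ineq {V : (ι → ℝ) → ℝ} {S L : ℝ} (hV : Nice V S L) {f : (ι → ℝ) → ℝ} (hf : C1c f)
    {δ : ℝ} (hδ : 0 < δ) (K : ℝ) (i : ι) (s : ℝ) :
    K * En (dens V) (dif f i s) + ∫ x, U S x * dif f i s x ^ 2 ∂(dens V) +
        ∫ x, dif f i s x ^ 2 ∂(dens V) - ∫ x, dif f i s x ^ 2 * log (Rw f δ i s x) ∂(dens V) ≤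
      -Bf (dens V) S K (pot f δ) f (adj V (dif f i s) i s) - K * Curv V f i s -
        Uterm V S f i s + 2 * ∫ x, dif f i s x ^ 2 ∂(dens V) := by
  have h1 := pot_adj hV hf hδ i s
  have h2 : ∑ j, ∫ x, pd f j x * pd (adj V (dif f i s) i s) j x ∂(dens V) =
      -En (dens V) (dif f i s) - Curv V f i s := by
    simp only [grad_adj hV hf]
    unfold En Curv
    rw [Finset.sum_sub_distrib, Finset.sum_neg_distrib]
  unfold Bf
  rw [h2]
  linarith

theorem U1_shift (S y : ℝ) {s : ℝ} (hs : 0 ≤ s) :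
    |U1 S (y + s) - U1 S y| ≤ s * (max (|y + s| - S) 0 + s) := by
  unfold U1
  set p := max (|y + s| - S) 0
  set q := max (|y| - S) 0
  have hp : 0 ≤ p := le_max_right _ _
  have hq : 0 ≤ q := le_max_right _ _
  have hpq : |p - q| ≤ s := by
    refine (abs_max_sub_max_le_abs _ _ _).trans ?_
    have h := abs_abs_sub_abs_le_abs_sub (y + s) y
    rw [add_sub_cancel_left, abs_of_nonneg hs] at h
    rwa [sub_sub_sub_cancel_right]
  have e : p ^ 2 / 2 - q ^ 2 / 2 = (p - q) * ((p + q) / 2) := by ring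
  rw [e, abs_mul, abs_of_nonneg (by positivity : 0 ≤ (p + q) / 2)]
  have h2 := (abs_le.1 hpq).1
  exact mul_le_mul hpq (by linarith) (by positivity) hs

/-- |U1 S (x+s) - U1 S x| ≤ s ((|x+s| - S)₊ + s); Cauchy-Schwarz, `shift_le`, `dif_sq_le`. -/
theorem Uterm_le {V : (ι → ℝ) → ℝ} {S L : ℝ} (hV : Nice V S L) {f : (ι → ℝ) → ℝ} (hf : C1c f)
    (hn : ∫ x, f x ^ 2 ∂(dens V) = 1) (i : ι) {s : ℝ} (hs : 0 ≤ s) :
    |Uterm V S f i s| ≤ s ^ 2 * exp (L * s) * √(∫ x, pd f i x ^ 2 ∂(dens V)) *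
      (√(2 * ∫ x, U1 S (x i) * f x ^ 2 ∂(dens V)) + s) := by
  have := hV.base.prob
  have hφ := (hf.dif i s).cc
  have hpc : Continuous fun x : ι → ℝ => max (|x i| - S) 0 := by fun_prop
  have hg : CC (fun x => max (|x i| - S) 0 * f x) := hf.cc.mul_left hpc
  have c1 := (hg.sh i s).abs.cs (μ := dens V) hφ.abs
  have c2 := (hf.cc.sh i s).abs.cs (μ := dens V) hφ.abs
  simp only [sq_abs] at c1 c2
  have s1 := shift_sq hV hg i s
  have s2 := shift_sq hV hf.cc i s
  have s3 := dif_sq_le hV hf i hs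
  rw [abs_of_nonneg hs] at s1 s2
  rw [hn, mul_one] at s2
  have e1 : ∫ x, (max (|x i| - S) 0 * f x) ^ 2 ∂(dens V) =
      2 * ∫ x, U1 S (x i) * f x ^ 2 ∂(dens V) := by
    rw [← integral_const_mul]
    refine integral_congr_ae (Eventually.of_forall fun x => ?_)
    unfold U1
    simp only
    ring
  rw [e1] at s1
  set E := exp (L * s) with hE
  have hE0 : 0 ≤ E := (exp_pos _).le
  set A := ∫ x, pd f i x ^ 2 ∂(dens V)
  set B := 2 * ∫ x, U1 S (x i) * f x ^ 2 ∂(dens V)
  have r1 := (sqrt_le_sqrt s1).trans (le_of_eq (sqrt_mul hE0 B))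
  have r2 := sqrt_le_sqrt s2
  have r3 : √(∫ x, dif f i s x ^ 2 ∂(dens V)) ≤ s * (√E * √A) := by
    refine (sqrt_le_sqrt s3).trans (le_of_eq ?_)
    rw [mul_assoc, sqrt_mul (sq_nonneg s), sqrt_sq hs, sqrt_mul hE0]
  have j1 := ((hg.sh i s).abs.mul_right hφ.abs.1).int (μ := dens V)
  have j2 := ((hf.cc.sh i s).abs.mul_right hφ.abs.1).int (μ := dens V)
  have h2 : |Uterm V S f i s| ≤ ∫ x, (s * (|max (|sh i s x i| - S) 0 * f (sh i s x)| *
      |dif f i s x|) + s ^ 2 * (|f (sh i s x)| * |dif f i s x|)) ∂(dens V) := by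
    refine norm_integral_le_of_norm_le
      (f := fun x => (U S (sh i s x) - U S x) * (f (sh i s x) * dif f i s x))
      ((j1.const_mul s).add (j2.const_mul (s ^ 2))) (Eventually.of_forall fun x => ?_)
    have h := U1_shift S (x i) hs
    rw [← U_sh_sub, ← sh_apply_self i s x] at h
    have h0 : 0 ≤ max (|sh i s x i| - S) 0 := le_max_right _ _
    simp only [Real.norm_eq_abs, abs_mul, abs_of_nonneg h0]
    have h3 := mul_le_mul_of_nonneg_right h
      (mul_nonneg (abs_nonneg (f (sh i s x))) (abs_nonneg (dif f i s x)))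
    refine h3.trans (le_of_eq ?_)
    ring
  rw [integral_add (j1.const_mul s) (j2.const_mul (s ^ 2)), integral_const_mul,
    integral_const_mul] at h2
  have d1 := ((le_abs_self _).trans c1).trans
    (mul_le_mul r1 r3 (sqrt_nonneg _) (by positivity))
  have d2 := ((le_abs_self _).trans c2).trans
    (mul_le_mul r2 r3 (sqrt_nonneg _) (by positivity))
  have hEE : √E * √E = E := mul_self_sqrt hE0
  calc |Uterm V S f i s| ≤ s * (√E * √B * (s * (√E * √A))) + s ^ 2 * (√E * (s * (√E * √A))) :=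
        h2.trans (add_le_add (mul_le_mul_of_nonneg_left d1 hs)
          (mul_le_mul_of_nonneg_left d2 (sq_nonneg s)))
    _ = s ^ 2 * (√E * √E) * √A * (√B + s) := by ring
    _ = s ^ 2 * E * √A * (√B + s) := by rw [hEE]

theorem Bf_self {μ : Measure (ι → ℝ)} [IsFiniteMeasure μ] (S K : ℝ) {χ v : (ι → ℝ) → ℝ}
    (hχ : Continuous χ) (hv : C1c v) :
    Bf μ S K χ v v = K * En μ v + ∫ x, U S x * v x ^ 2 ∂μ + ∫ x, v x ^ 2 ∂μ -
      ∫ x, v x ^ 2 * χ x ∂μ := by
  have i1 : Integrable (fun x => U S x * v x ^ 2) μ := (hv.cc.sq.mul_left (U_cont S)).int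
  have i2 : Integrable (fun x => v x ^ 2) μ := hv.cc.sq.int
  have i3 : Integrable (fun x => v x ^ 2 * χ x) μ := (hv.cc.sq.mul_right hχ).int
  have i4 : Integrable (fun x => U S x * v x ^ 2 + v x ^ 2) μ := i1.add i2
  have e : ∀ x, (U S x + 1 - χ x) * (v x * v x) = U S x * v x ^ 2 + v x ^ 2 - v x ^ 2 * χ x :=
    fun x => by ring
  unfold Bf En
  simp only [e]
  simp only [← pow_two]
  rw [integral_sub i4 i3, integral_add i1 i2]
  ring

theorem int_expand {μ : Measure (ι → ℝ)} [IsFiniteMeasure μ] {w u v : (ι → ℝ) → ℝ}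
    (hw : Continuous w) (hu : CC u) (hv : CC v) (t : ℝ) :
    ∫ x, w x * ((u x + t * v x) * (u x + t * v x)) ∂μ =
      ∫ x, w x * (u x * u x) ∂μ + 2 * t * ∫ x, w x * (u x * v x) ∂μ +
        t ^ 2 * ∫ x, w x * (v x * v x) ∂μ := by
  have i1 : Integrable (fun x => w x * (u x * u x)) μ := ((hu.mul_left hu.1).mul_left hw).int
  have i2 : Integrable (fun x => 2 * t * (w x * (u x * v x))) μ :=
    ((hv.mul_left hu.1).mul_left hw).int.const_mul _
  have i3 : Integrable (fun x => t ^ 2 * (w x * (v x * v x))) μ :=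
    ((hv.mul_left hv.1).mul_left hw).int.const_mul _
  have i4 : Integrable (fun x => w x * (u x * u x) + 2 * t * (w x * (u x * v x))) μ := i1.add i2
  rw [← integral_const_mul, ← integral_const_mul, ← integral_add i1 i2, ← integral_add i4 i3]
  refine integral_congr_ae (Eventually.of_forall fun x => ?_)
  simp only
  ring

theorem Bf_expand {μ : Measure (ι → ℝ)} [IsFiniteMeasure μ] (S K : ℝ) {χ u v : (ι → ℝ) → ℝ}
    (hχ : Continuous χ) (hu : C1c u) (hv : C1c v) (t : ℝ) :
    Bf μ S K χ (fun x => u x + t * v x) (fun x => u x + t * v x) =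
      Bf μ S K χ u u + 2 * t * Bf μ S K χ u v + t ^ 2 * Bf μ S K χ v v := by
  have h1 := int_expand (μ := μ) (w := fun x => U S x + 1 - χ x)
    (((U_cont S).add continuous_const).sub hχ) hu.cc hv.cc t
  have h2 : ∀ j, ∫ x, pd (fun x => u x + t * v x) j x * pd (fun x => u x + t * v x) j x ∂μ =
      ∫ x, pd u j x * pd u j x ∂μ + 2 * t * ∫ x, pd u j x * pd v j x ∂μ +
        t ^ 2 * ∫ x, pd v j x * pd v j x ∂μ := by
    intro j
    have h := int_expand (μ := μ) (w := fun _ => 1) continuous_const (hu.pd_cc j) (hv.pd_cc j) t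
    simp only [one_mul] at h
    rw [← h]
    refine integral_congr_ae (Eventually.of_forall fun x => ?_)
    simp only [pd_add hu.diff (hv.const_mul t).diff, pd_const_mul hv.diff]
  unfold Bf
  simp only [h1, h2, Finset.sum_add_distrib, ← Finset.mul_sum]
  ring

theorem Bf_nonneg {V : (ι → ℝ) → ℝ} {S L K : ℝ} (hV : Nice V S L) (hK : KI (dens V) S K)
    {f : (ι → ℝ) → ℝ} (hf : C1c f) (hn : ∫ x, f x ^ 2 ∂(dens V) = 1) {δ : ℝ} (hδ : 0 < δ)
    {v : (ι → ℝ) → ℝ} (hv : C1c v) : 0 ≤ Bf (dens V) S K (pot f δ) v v := by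
  have := hV.base.prob
  have hχ := pot_cont hf.cont hδ
  have e : ∀ x, exp (pot f δ x) = (f x ^ 2 + δ) / (1 + δ) := fun x => by
    unfold pot
    rw [exp_log (by positivity)]
  have i1 : Integrable (fun x => f x ^ 2) (dens V) := hf.cc.sq.int
  have i2 : Integrable (fun x => f x ^ 2 + δ) (dens V) := i1.add (integrable_const δ)
  obtain ⟨C, _, hC⟩ := bdd_of_supp hv.cc.sq.1 hv.cc.sq.2
  have hg := gibbs (μ := dens V) (w := fun x => v x ^ 2) (G := pot f δ) (fun x => sq_nonneg _)
    hv.cc.sq.int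
    (int_mul_log hv.cc.sq.1.measurable (fun x => sq_nonneg _) fun x => (le_abs_self _).trans (hC x))
    (hv.cc.sq.mul_right hχ).int (by simp only [e]; exact i2.div_const _) one_pos (by
      simp only [e]
      rw [integral_div, integral_add i1 (integrable_const δ), hn]
      simp only [integral_const, probReal_univ, smul_eq_mul, one_mul]
      exact le_of_eq (div_self (by positivity)))
  rw [log_one, mul_zero, add_zero] at hg
  rw [Bf_self S K hχ hv]
  linarith [hK v hv]

/-- A near-extremal function is a near-null vector of a nonnegative quadratic form: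
∫ exp (pot f δ) = 1, so `gibbs` and `KI` give Bf v v ≥ 0 for every v in C1c; expand
Bf (f ± t ψ) (f ± t ψ) ≥ 0. Moreover pot f δ ≥ log f² - δ where f ≠ 0, and
-pot f δ ≤ log (2/δ). -/
theorem near_null {V : (ι → ℝ) → ℝ} {S L K : ℝ} (hV : Nice V S L) (hK : KI (dens V) S K)
    {f : (ι → ℝ) → ℝ} (hf : C1c f) (hn : ∫ x, f x ^ 2 ∂(dens V) = 1) {δ : ℝ} (hδ : 0 < δ)
    (hδ1 : δ ≤ 1) {ψ : (ι → ℝ) → ℝ} (hψ : C1c ψ) {t : ℝ} (ht : 0 < t) :
    2 * |Bf (dens V) S K (pot f δ) f ψ| ≤
      (K * En (dens V) f + ∫ x, U S x * f x ^ 2 ∂(dens V) + 1 -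
          Ent (dens V) (fun x => f x ^ 2) + δ) / t +
        t * (K * En (dens V) ψ + ∫ x, U S x * ψ x ^ 2 ∂(dens V) +
          (1 + log (2 / δ)) * ∫ x, ψ x ^ 2 ∂(dens V)) := by
  have := hV.base.prob
  have hχ := pot_cont hf.cont hδ
  have p1 := Bf_nonneg hV hK hf hn hδ (hf.add (hψ.const_mul t))
  have p2 := Bf_nonneg hV hK hf hn hδ (hf.add (hψ.const_mul (-t)))
  rw [Bf_expand S K hχ hf hψ] at p1 p2
  have a1 : Bf (dens V) S K (pot f δ) f f ≤ K * En (dens V) f + ∫ x, U S x * f x ^ 2 ∂(dens V) +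
      1 - Ent (dens V) (fun x => f x ^ 2) + δ := by
    obtain ⟨C, _, hC⟩ := bdd_of_supp hf.cc.sq.1 hf.cc.sq.2
    have i1 : Integrable (fun x => f x ^ 2 * log (f x ^ 2)) (dens V) :=
      int_mul_log hf.cc.sq.1.measurable (fun x => sq_nonneg _)
        fun x => (le_abs_self _).trans (hC x)
    have i2 : Integrable (fun x => δ * f x ^ 2) (dens V) := hf.cc.sq.int.const_mul δ
    have h := integral_mono (i1.sub i2) (hf.cc.sq.mul_right hχ).int (fun x => by
      simp only [Pi.sub_apply, pot_eq hδ]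
      have h1 : log (1 + δ) ≤ δ := by linarith [log_le_sub_one_of_pos (by positivity : 0 < 1 + δ)]
      have h2 : f x ^ 2 * log (f x ^ 2) ≤ f x ^ 2 * log (f x ^ 2 + δ) := by
        rcases (sq_nonneg (f x)).eq_or_lt with h | h
        · rw [← h]; simp
        · exact mul_le_mul_of_nonneg_left (log_le_log h (by linarith)) h.le
      nlinarith [sq_nonneg (f x)])
    simp only [Pi.sub_apply] at h
    rw [integral_sub i1 i2, integral_const_mul, hn] at h
    rw [Bf_self S K hχ hf, hn]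
    unfold Ent
    rw [hn, log_one]
    linarith
  have a2 : Bf (dens V) S K (pot f δ) ψ ψ ≤ K * En (dens V) ψ + ∫ x, U S x * ψ x ^ 2 ∂(dens V) +
      (1 + log (2 / δ)) * ∫ x, ψ x ^ 2 ∂(dens V) := by
    have h := integral_mono (hψ.cc.sq.int (μ := dens V) |>.const_mul (-log (2 / δ)))
      (hψ.cc.sq.mul_right hχ).int (fun x => by
        simp only
        rw [mul_comm]
        refine mul_le_mul_of_nonneg_left ?_ (sq_nonneg _)
        unfold pot
        rw [← log_inv, inv_div]
        refine log_le_log (by positivity) ?_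
        rw [div_le_div_iff₀ (by positivity) (by positivity)]
        nlinarith [sq_nonneg (f x)])
    rw [integral_const_mul] at h
    rw [Bf_self S K hχ hψ]
    linarith
  have h3 : 2 * |Bf (dens V) S K (pot f δ) f ψ| * t ≤
      Bf (dens V) S K (pot f δ) f f + t ^ 2 * Bf (dens V) S K (pot f δ) ψ ψ := by
    rcases abs_cases (Bf (dens V) S K (pot f δ) f ψ) with h | h <;> rw [h.1] <;> nlinarith
  have h4 := mul_le_mul_of_nonneg_left a2 (sq_nonneg t)
  rw [← le_div_iff₀ ht] at h3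
  refine h3.trans ?_
  rw [div_le_iff₀ ht, add_mul, div_mul_cancel₀ _ ht.ne']
  nlinarith

end Vale.Agent.P245
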