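import Vale.Agent.P245.Basic

/-! Integration against a density, and dominated convergence for the approximating potentials. -/

open MeasureTheory Real Set Filter Topology
open scoped ENNReal

namespace Vale.Agent.P245

set_option linter.unusedSectionVars false

variable {ι : Type} [Fintype ι] [DecidableEq ι]

theorem lm_integral_mu {ρ : (ι → ℝ) → ℝ} (hm : Measurable ρ) (h0 : ∀ x, 0 ≤ ρ x)
    (g : (ι → ℝ) → ℝ) : ∫ x, g x ∂(mu ρ) = ∫ x, ρ x * g x := by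
  unfold mu
  rw [integral_withDensity_eq_integral_toReal_smul hm.ennreal_ofReal
    (ae_of_all _ fun _ => ENNReal.ofReal_lt_top)]
  simp only [ENNReal.toReal_ofReal (h0 _), smul_eq_mul]

theorem lm_integrable_mu {ρ : (ι → ℝ) → ℝ} (hm : Measurable ρ) (h0 : ∀ x, 0 ≤ ρ x)
    (g : (ι → ℝ) → ℝ) : Integrable g (mu ρ) ↔ Integrable (fun x => ρ x * g x) := by
  unfold mu
  rw [integrable_withDensity_iff_integrable_smul' hm.ennreal_ofReal
    (ae_of_all _ fun _ => ENNReal.ofReal_lt_top)]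
  simp only [ENNReal.toReal_ofReal (h0 _), smul_eq_mul]

theorem lm_prob_mu {ρ : (ι → ℝ) → ℝ} (h0 : ∀ x, 0 ≤ ρ x) (hi : Integrable ρ)
    (h1 : ∫ x, ρ x = 1) : IsProbabilityMeasure (mu ρ) := by
  constructor
  unfold mu
  rw [withDensity_apply _ MeasurableSet.univ, Measure.restrict_univ,
    ← ofReal_integral_eq_lintegral_ofReal hi (ae_of_all _ h0), h1, ENNReal.ofReal_one]

theorem lm_int_mul_bdd {ρ g : (ι → ℝ) → ℝ} (hi : Integrable ρ) (hg : Measurable g) {C : ℝ}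
    (hC : ∀ x, |g x| ≤ C) : Integrable (fun x => ρ x * g x) :=
  hi.mul_bdd hg.aestronglyMeasurable (ae_of_all _ hC)

/-- The one-dimensional dominating function. -/
theorem lm_int_one (S : ℝ) : Integrable (fun t : ℝ => exp (-max (|t| - S) 0) * (1 + t ^ 2)) := by
  refine (integrable_inv_one_add_sq.const_mul (50 * exp |S|)).mono' (by fun_prop)
    (ae_of_all _ fun t => ?_)
  rw [Real.norm_eq_abs, abs_of_nonneg (by positivity)]
  have h1 : exp (-max (|t| - S) 0) ≤ exp |S| * (exp |t|)⁻¹ := by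
    rw [← exp_neg, ← exp_add, exp_le_exp]
    have := le_max_left (|t| - S) 0
    have := le_abs_self S
    linarith
  have h2 : (1 : ℝ) ≤ exp |t| := one_le_exp (abs_nonneg t)
  have h3 : |t| ^ 4 / (Nat.factorial 4 : ℝ) ≤ exp |t| := pow_div_factorial_le_exp _ (abs_nonneg t) 4
  have h4 : |t| ^ 4 = t ^ 4 := by rw [pow_abs, abs_of_nonneg (by positivity)]
  have h5 : ((Nat.factorial 4 : ℕ) : ℝ) = 24 := by norm_num [Nat.factorial]
  rw [h4, h5] at h3
  have h6 : (1 + t ^ 2) * (1 + t ^ 2) ≤ 50 * exp |t| := by nlinarith [sq_nonneg (t ^ 2 - 1)]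
  have h7 : 0 < 1 + t ^ 2 := by positivity
  have h8 : 0 < exp |t| := exp_pos _
  calc exp (-max (|t| - S) 0) * (1 + t ^ 2) ≤ exp |S| * (exp |t|)⁻¹ * (1 + t ^ 2) := by gcongr
    _ = exp |S| * ((1 + t ^ 2) * (1 + t ^ 2)) * ((exp |t|)⁻¹ * (1 + t ^ 2)⁻¹) := by field_simp
    _ ≤ exp |S| * (50 * exp |t|) * ((exp |t|)⁻¹ * (1 + t ^ 2)⁻¹) := by gcongr
    _ = 50 * exp |S| * (1 + t ^ 2)⁻¹ := by field_simp

theorem lm_one_add_sum_le (x : ι → ℝ) : 1 + ∑ i, x i ^ 2 ≤ ∏ i, (1 + x i ^ 2) := by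
  have key : ∀ s : Finset ι, 1 + ∑ i ∈ s, x i ^ 2 ≤ ∏ i ∈ s, (1 + x i ^ 2) := by
    intro s
    induction s using Finset.induction_on with
    | empty => simp
    | insert a s ha ih =>
      rw [Finset.sum_insert ha, Finset.prod_insert ha]
      have h1 : 0 ≤ ∑ i ∈ s, x i ^ 2 := Finset.sum_nonneg fun _ _ => sq_nonneg _
      have h2 : 0 ≤ x a ^ 2 := sq_nonneg _
      nlinarith [mul_nonneg h1 h2]
  exact key _

/-- The dominating function. -/
theorem lm_int_dom (S : ℝ) :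
    Integrable (fun x : ι → ℝ => ∏ i, (exp (-max (|x i| - S) 0) * (1 + x i ^ 2))) :=
  Integrable.fintype_prod (f := fun (_ : ι) (t : ℝ) => exp (-max (|t| - S) 0) * (1 + t ^ 2))
    (μ := fun _ => volume) fun _ => lm_int_one S

theorem lm_dom_le {S C c : ℝ} {r g : (ι → ℝ) → ℝ} (hr0 : ∀ x, 0 ≤ r x)
    (hr : ∀ x, r x ≤ C * ∏ i, exp (-max (|x i| - S) 0))
    (hg : ∀ x, |g x| ≤ c * (1 + ∑ i, x i ^ 2)) (x : ι → ℝ) :
    ‖r x * g x‖ ≤ |C| * |c| * ∏ i, (exp (-max (|x i| - S) 0) * (1 + x i ^ 2)) := by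
  rw [Real.norm_eq_abs, abs_mul, abs_of_nonneg (hr0 x), Finset.prod_mul_distrib]
  have h1 : 0 ≤ ∏ i, exp (-max (|x i| - S) 0) := Finset.prod_nonneg fun _ _ => (exp_pos _).le
  have h2 : 0 ≤ 1 + ∑ i, x i ^ 2 := by positivity
  have h3 : r x ≤ |C| * ∏ i, exp (-max (|x i| - S) 0) :=
    (hr x).trans (mul_le_mul_of_nonneg_right (le_abs_self C) h1)
  have h4 : |g x| ≤ |c| * ∏ i, (1 + x i ^ 2) :=
    (hg x).trans ((mul_le_mul_of_nonneg_right (le_abs_self c) h2).trans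
      (mul_le_mul_of_nonneg_left (lm_one_add_sum_le x) (abs_nonneg c)))
  calc r x * |g x| ≤ (|C| * ∏ i, exp (-max (|x i| - S) 0)) * (|c| * ∏ i, (1 + x i ^ 2)) :=
        mul_le_mul h3 h4 (abs_nonneg _) (by positivity)
    _ = _ := by ring

theorem lm_int_of_dom {S C c : ℝ} {r g : (ι → ℝ) → ℝ} (hrm : Measurable r) (hr0 : ∀ x, 0 ≤ r x)
    (hr : ∀ x, r x ≤ C * ∏ i, exp (-max (|x i| - S) 0)) (hgm : Measurable g)
    (hg : ∀ x, |g x| ≤ c * (1 + ∑ i, x i ^ 2)) : Integrable (fun x => r x * g x) :=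
  ((lm_int_dom S).const_mul (|C| * |c|)).mono' (hrm.mul hgm).aestronglyMeasurable
    (ae_of_all _ (lm_dom_le hr0 hr hg))

theorem lm_dct {S C c : ℝ} {r : ℕ → (ι → ℝ) → ℝ} {r0 g : (ι → ℝ) → ℝ}
    (hrm : ∀ k, Measurable (r k)) (hr0 : ∀ k x, 0 ≤ r k x)
    (hr : ∀ k x, r k x ≤ C * ∏ i, exp (-max (|x i| - S) 0))
    (hlim : ∀ᵐ x : ι → ℝ, Tendsto (fun k => r k x) atTop (𝓝 (r0 x))) (hgm : Measurable g)
    (hg : ∀ x, |g x| ≤ c * (1 + ∑ i, x i ^ 2)) :
    Tendsto (fun k => ∫ x, r k x * g x) atTop (𝓝 (∫ x, r0 x * g x)) :=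
  tendsto_integral_of_dominated_convergence _
    (fun k => ((hrm k).mul hgm).aestronglyMeasurable) ((lm_int_dom S).const_mul (|C| * |c|))
    (fun k => ae_of_all _ (lm_dom_le (hr0 k) (hr k) hg))
    (hlim.mono fun _ hx => hx.mul_const _)

theorem lm_bdd_quad {g : (ι → ℝ) → ℝ} {c : ℝ} (hg : ∀ x, |g x| ≤ c) (x : ι → ℝ) :
    |g x| ≤ c * (1 + ∑ i, x i ^ 2) := by
  have h0 : 0 ≤ c := (abs_nonneg _).trans (hg x)
  have h1 : 0 ≤ ∑ i, x i ^ 2 := Finset.sum_nonneg fun _ _ => sq_nonneg _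
  nlinarith [hg x, mul_nonneg h0 h1]

theorem lm_meas_cube (S : ℝ) : MeasurableSet (cube ι S) := by
  have : cube ι S = ⋂ i, {x : ι → ℝ | |x i| ≤ S} := by ext x; simp [cube]
  rw [this]
  exact MeasurableSet.iInter fun i =>
    measurableSet_le (by fun_prop) measurable_const

/-- The mass of the cube tends to the total mass. -/
theorem lm_mass {ρ : (ι → ℝ) → ℝ} (hi : Integrable ρ) :
    Tendsto (fun m : ℕ => ∫ x, (cube ι m).indicator ρ x) atTop (𝓝 (∫ x, ρ x)) := by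
  refine tendsto_integral_of_dominated_convergence (fun x => ‖ρ x‖)
    (fun m => hi.aestronglyMeasurable.indicator (lm_meas_cube _)) hi.norm
    (fun m => ae_of_all _ fun x => norm_indicator_le_norm_self _ _) (ae_of_all _ fun x => ?_)
  refine tendsto_const_nhds.congr' ?_
  filter_upwards [eventually_ge_atTop ⌈‖x‖⌉₊] with m hm
  rw [indicator_of_mem]
  intro i
  exact (norm_le_pi_norm x i).trans ((Nat.le_ceil _).trans (by exact_mod_cast hm))

end Vale.Agent.P245
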