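import Vale.Agent.P245.Basic

open MeasureTheory Real Set Filter Topology
open scoped ENNReal

namespace Vale.Agent.P245

set_option linter.unusedSectionVars false

variable {ι : Type} [Fintype ι] [DecidableEq ι]

/-- Smooth compactly supported kernels. -/
def MolT (ψ : (ι → ℝ) → ℝ) : Prop :=
  ContDiff ℝ ((⊤ : ℕ∞) : WithTop ℕ∞) ψ ∧ HasCompactSupport ψ

theorem MolT.c1c {ψ : (ι → ℝ) → ℝ} (h : MolT ψ) : C1c ψ := ⟨h.1.of_le (by exact_mod_cast le_top), h.2⟩

theorem MolT.pd {ψ : (ι → ℝ) → ℝ} (h : MolT ψ) (j : ι) : MolT (pd ψ j) := by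
  refine ⟨?_, h.c1c.pd_supp j⟩
  unfold P245.pd
  exact (h.1.fderiv_right (m := ((⊤ : ℕ∞) : WithTop ℕ∞)) (by exact_mod_cast le_top)).clm_apply
    contDiff_const

/-- Convolution with a kernel. -/
noncomputable def molC (W ψ : (ι → ℝ) → ℝ) (x : ι → ℝ) : ℝ := ∫ t, W (x - t) * ψ t

theorem molC_eq (W ψ : (ι → ℝ) → ℝ) :
    molC W ψ = convolution W ψ (ContinuousLinearMap.lsmul ℝ ℝ) volume := by
  funext x; rw [convolution_lsmul_swap]; rfl

theorem molC_c1 {W ψ : (ι → ℝ) → ℝ} (hW : Continuous W) (h : MolT ψ) :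
    ContDiff ℝ 1 (molC W ψ) := by
  rw [molC_eq]
  exact h.2.contDiff_convolution_right (n := 1) _ hW.locallyIntegrable h.c1c.1

theorem pd_molC {W ψ : (ι → ℝ) → ℝ} (hW : Continuous W) (h : MolT ψ) (j : ι) :
    pd (molC W ψ) j = molC W (pd ψ j) := by
  funext x
  rw [molC_eq, molC_eq]
  unfold pd
  rw [(h.2.hasFDerivAt_convolution_right _ hW.locallyIntegrable h.c1c.1 x).fderiv,
    convolution_precompR_apply _ hW.locallyIntegrable (h.2.fderiv ℝ)
      (h.c1c.1.continuous_fderiv one_ne_zero)]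

theorem molC_int {W ψ : (ι → ℝ) → ℝ} (hW : Continuous W) (h : MolT ψ) (x : ι → ℝ) :
    Integrable fun t => W (x - t) * ψ t :=
  ((hW.comp (continuous_const.sub continuous_id)).mul h.c1c.cont).integrable_of_hasCompactSupport
    h.2.mul_left

theorem molC_lip {W ψ : (ι → ℝ) → ℝ} (hW : Continuous W) (h : MolT ψ) {L : ℝ}
    (hL : ∀ x y, |W x - W y| ≤ L * ∑ i, |x i - y i|) (x : ι → ℝ) (i : ι) (t : ℝ) :
    |molC W ψ (sh i t x) - molC W ψ x| ≤ (L * ∫ y, |ψ y|) * |t| := by
  unfold molC
  rw [← integral_sub (molC_int hW h _) (molC_int hW h _)]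
  have hi : Integrable fun y => L * |t| * |ψ y| :=
    (h.c1c.cont.integrable_of_hasCompactSupport h.2).abs.const_mul _
  have h1 := norm_integral_le_of_norm_le (f := fun y => W (sh i t x - y) * ψ y - W (x - y) * ψ y)
    hi (Eventually.of_forall fun y => by
      rw [← sub_mul, Real.norm_eq_abs, abs_mul]
      refine mul_le_mul_of_nonneg_right ((hL _ _).trans (le_of_eq ?_)) (abs_nonneg _)
      congr 1
      rw [Finset.sum_eq_single i]
      · simp [sh]
      · intro j _ hj; simp [sh, hj]
      · simp)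
  rw [integral_const_mul] at h1
  refine h1.trans (le_of_eq ?_); ring

theorem mol_fderiv_sum (f : (ι → ℝ) → ℝ) (x v : ι → ℝ) :
    fderiv ℝ f x v = ∑ i, v i * pd f i x := by
  conv_lhs => rw [← Finset.univ_sum_single v]
  rw [map_sum]
  refine Finset.sum_congr rfl fun i _ => ?_
  have e : (Pi.single i (v i) : ι → ℝ) = v i • (Pi.single i 1 : ι → ℝ) := by
    rw [← Pi.single_smul, smul_eq_mul, mul_one]
  rw [e, map_smul]; rfl

theorem mol_line {f : (ι → ℝ) → ℝ} (hf : Differentiable ℝ f) (x v : ι → ℝ) (t : ℝ) :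
    HasDerivAt (fun s : ℝ => f (x + s • v)) (∑ i, v i * pd f i (x + t • v)) t := by
  have h1 : HasDerivAt (fun s : ℝ => x + s • v) v t := by
    simpa using ((hasDerivAt_id t).smul_const v).const_add x
  have h2 := (hf (x + t • v)).hasFDerivAt.comp_hasDerivAt t h1
  rw [mol_fderiv_sum] at h2
  exact h2

theorem mol_sh {f : (ι → ℝ) → ℝ} (hf : Differentiable ℝ f) (x : ι → ℝ) (i : ι) (t : ℝ) :
    HasDerivAt (fun s : ℝ => f (sh i s x)) (pd f i (sh i t x)) t := by
  have e : ∀ s : ℝ, sh i s x = x + s • (Pi.single i 1 : ι → ℝ) := fun s => by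
    unfold sh; rw [← Pi.single_smul, smul_eq_mul, mul_one]
  have := mol_line hf x (Pi.single i 1) t
  simp only [e]
  simpa [Pi.single_apply] using this

theorem mol_hess {V : (ι → ℝ) → ℝ} (hc : ConvexOn ℝ univ V) (hV : Differentiable ℝ V)
    (hV2 : ∀ j, Differentiable ℝ (pd V j)) (x v : ι → ℝ) :
    0 ≤ ∑ i, ∑ j, v i * v j * pd (pd V j) i x := by
  have h1 : ConvexOn ℝ univ fun s : ℝ => V (x + s • v) := by
    refine ⟨convex_univ, fun a _ b _ p q hp hq hpq => ?_⟩
    have := hc.2 (mem_univ (x + a • v)) (mem_univ (x + b • v)) hp hq hpq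
    have e : p • (x + a • v) + q • (x + b • v) = x + (p • a + q • b) • v := by
      rw [smul_add, smul_add, add_add_add_comm, ← add_smul, hpq, one_smul, add_smul, smul_smul,
        smul_smul]; rfl
    rwa [e] at this
  have h2 := h1.monotoneOn_deriv fun s _ => (mol_line hV x v s).differentiableAt
  have e : deriv (fun s : ℝ => V (x + s • v)) = fun t => ∑ j, v j * pd V j (x + t • v) :=
    funext fun t => (mol_line hV x v t).deriv
  rw [e, monotoneOn_univ] at h2
  have h3 := (HasDerivAt.fun_sum (u := Finset.univ) fun j _ =>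
    (mol_line (hV2 j) x v 0).const_mul (v j)).nonneg_of_monotone h2
  refine h3.trans (le_of_eq ?_)
  rw [Finset.sum_comm]
  refine Finset.sum_congr rfl fun j _ => ?_
  rw [Finset.mul_sum]
  refine Finset.sum_congr rfl fun i _ => ?_
  rw [zero_smul, add_zero]; ring

theorem mol_taylor {g : (ι → ℝ) → ℝ} (hg : Differentiable ℝ g) {i : ι} {A : ℝ} (hA : 0 ≤ A)
    (h : ∀ x t, |pd g i (sh i t x) - pd g i x| ≤ A * |t|) (x : ι → ℝ) {t : ℝ} (ht : 0 ≤ t) :
    |g (sh i t x) - g x - t * pd g i x| ≤ A * t ^ 2 := by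
  have h1 := norm_image_sub_le_of_norm_deriv_le_segment'
    (f := fun s => g (sh i s x) - s * pd g i x) (f' := fun s => pd g i (sh i s x) - pd g i x)
    (a := 0) (b := t) (C := A * t) (fun s _ => by
      have := (mol_sh hg x i s).sub ((hasDerivAt_id s).mul_const (pd g i x))
      rw [one_mul] at this
      exact this.hasDerivWithinAt) (fun s hs => by
      refine (h x s).trans (mul_le_mul_of_nonneg_left ?_ hA)
      rw [abs_of_nonneg hs.1]; exact hs.2.le) t (right_mem_Icc.2 ht)
  simp only [sh_zero, zero_mul, sub_zero, Real.norm_eq_abs] at h1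
  rw [sub_right_comm]
  refine h1.trans (le_of_eq ?_); ring

theorem mol_flip_integral (ε : ι → Bool) {g : (ι → ℝ) → ℝ} (hg : Continuous g) :
    ∫ t, g (flip ε t) = ∫ t, g t := by
  have h1 : MeasurePreserving (flip ε : (ι → ℝ) → ι → ℝ) volume volume := by
    have := volume_preserving_pi (α' := fun _ : ι => ℝ) (β' := fun _ : ι => ℝ)
      (f := fun i t => if ε i then t else -t) fun i => by
        by_cases h : ε i
        · simp only [h, if_true]; exact MeasurePreserving.id _
        · simp only [h]; exact Measure.measurePreserving_neg _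
    exact this
  rw [← integral_map h1.measurable.aemeasurable hg.aestronglyMeasurable, h1.map_eq]

theorem mol_kernel {δ : ℝ} (hδ : 0 < δ) : ∃ κ : (ι → ℝ) → ℝ, MolT κ ∧ (∀ t, 0 ≤ κ t) ∧
    ∫ t, κ t = 1 ∧ (∀ ε t, κ (flip ε t) = κ t) ∧ ∀ t, κ t ≠ 0 → ∀ i, |t i| ≤ δ := by
  let b : ContDiffBump (0 : ℝ) := ⟨δ / 2, δ, by positivity, by linarith⟩
  have hs : ∀ t : ι → ℝ, ∏ i, b.normed volume (t i) ≠ 0 → ∀ i, |t i| ≤ δ := by
    intro t ht i
    have h1 : t i ∈ Function.support (b.normed volume) :=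
      Finset.prod_ne_zero_iff.1 ht i (Finset.mem_univ i)
    rw [b.support_normed_eq, mem_ball_zero_iff] at h1
    exact le_of_lt h1
  refine ⟨fun t => ∏ i, b.normed volume (t i), ⟨?_, ?_⟩,
    fun t => Finset.prod_nonneg fun i _ => b.nonneg_normed _, ?_, fun ε t => ?_, hs⟩
  · exact contDiff_prod fun i _ => b.contDiff_normed.comp (contDiff_apply ℝ ℝ i)
  · refine HasCompactSupport.intro (isCompact_closedBall (0 : ι → ℝ) δ) fun t ht => ?_
    by_contra h
    exact ht (mem_closedBall_zero_iff.2 ((pi_norm_le_iff_of_nonneg hδ.le).2 (hs t h)))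
  · rw [integral_fintype_prod_volume_eq_prod (fun _ : ι => b.normed volume)]
    simp [b.integral_normed]
  · refine Finset.prod_congr rfl fun i _ => ?_
    unfold flip
    split_ifs
    · rfl
    · exact b.normed_neg _

/-- Mollification. Take a smooth bump κ ≥ 0 of integral 1 with small support (for example
`ContDiffBump.normed`), symmetrized over the sign changes (or a product of even one-dimensional
bumps), and V = κ ⋆ W. Then pd V j = (∂_j κ) ⋆ W and ∂_i ∂_j V = (∂_i ∂_j κ) ⋆ W are Lipschitz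
because W is (|ψ ⋆ W x - ψ ⋆ W x'| ≤ ‖ψ‖₁ L Σ|x i - x' i|); the Hessian of the convex C² function V is
nonnegative, and the Taylor remainder of pd V j along e_i is O(t²), which gives `curv`. -/
theorem mollify {W : (ι → ℝ) → ℝ} (hc : ConvexOn ℝ univ W) (hu : Unc W) {L : ℝ} (hL0 : 0 ≤ L)
    (hL : ∀ x y, |W x - W y| ≤ L * ∑ i, |x i - y i|) {η : ℝ} (hη : 0 < η) :
    ∃ (V : (ι → ℝ) → ℝ) (L' : ℝ), Smooth V L' ∧ ∀ x, |V x - W x| ≤ η := by
  have hW : Continuous W := by
    refine (LipschitzWith.of_dist_le' (K := L * Fintype.card ι) fun x y => ?_).continuous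
    rw [Real.dist_eq, mul_assoc]
    refine (hL x y).trans (mul_le_mul_of_nonneg_left ?_ hL0)
    simpa using Finset.sum_le_card_nsmul Finset.univ (fun i => |x i - y i|) (dist x y)
      fun i _ => dist_le_pi_dist x y i
  set N : ℝ := (Fintype.card ι : ℝ) with hN
  have hN0 : 0 ≤ N := by positivity
  obtain ⟨κ, hκ, h0, h1, hfl, hsupp⟩ := mol_kernel (ι := ι) (δ := η / (L * N + 1)) (by positivity)
  have hκi : Integrable κ := hκ.c1c.cont.integrable_of_hasCompactSupport hκ.2
  set A : ((ι → ℝ) → ℝ) → ℝ := fun ψ => L * ∫ y, |ψ y| with hA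
  have hA0 : ∀ ψ, 0 ≤ A ψ := fun ψ => mul_nonneg hL0 (integral_nonneg fun _ => abs_nonneg _)
  set A1 := ∑ j, A (pd κ j) with hA1
  set A2 := ∑ i, ∑ j, A (pd (pd κ j) i) with hA2
  have hA10 : 0 ≤ A1 := Finset.sum_nonneg fun _ _ => hA0 _
  have hA20 : 0 ≤ A2 := Finset.sum_nonneg fun _ _ => Finset.sum_nonneg fun _ _ => hA0 _
  have hconv : ConvexOn ℝ univ (molC W κ) := by
    refine ⟨convex_univ, fun x _ y _ p q hp hq hpq => ?_⟩
    unfold molC
    rw [smul_eq_mul, smul_eq_mul, ← integral_const_mul, ← integral_const_mul,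
      ← integral_add ((molC_int hW hκ x).const_mul p) ((molC_int hW hκ y).const_mul q)]
    refine integral_mono (molC_int hW hκ _)
      (((molC_int hW hκ x).const_mul p).add ((molC_int hW hκ y).const_mul q)) fun t => ?_
    have h2 := hc.2 (mem_univ (x - t)) (mem_univ (y - t)) hp hq hpq
    have e : p • (x - t) + q • (y - t) = p • x + q • y - t := by
      rw [smul_sub, smul_sub, sub_add_sub_comm, ← add_smul, hpq, one_smul]
    rw [e, smul_eq_mul, smul_eq_mul] at h2
    have := mul_le_mul_of_nonneg_right h2 (h0 t)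
    show W (p • x + q • y - t) * κ t ≤ p * (W (x - t) * κ t) + q * (W (y - t) * κ t)
    linarith
  have hd : ∀ {ψ : (ι → ℝ) → ℝ}, MolT ψ → Differentiable ℝ (molC W ψ) := fun h =>
    (molC_c1 hW h).differentiable one_ne_zero
  refine ⟨molC W κ, A κ + A1 + N * A2, ⟨molC_c1 hW hκ, hconv, fun x y hxy => ?_, by
    have := hA0 κ; positivity, fun x i t => ?_, fun x i j t => ?_, fun x v t ht => ?_⟩,
    fun x => ?_⟩
  · set ε : ι → Bool := fun i => decide (y i = x i) with hε
    unfold molC
    rw [← mol_flip_integral ε (g := fun t => W (y - t) * κ t)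
      ((hW.comp (continuous_const.sub continuous_id)).mul hκ.c1c.cont)]
    refine integral_congr_ae (Eventually.of_forall fun t => ?_)
    show W (x - t) * κ t = W (y - flip ε t) * κ (flip ε t)
    rw [hfl, hu (x - t) (y - flip ε t)]
    intro i
    simp only [Pi.sub_apply, flip, hε, decide_eq_true_eq]
    split_ifs with h
    · rw [h]
    · rcases abs_eq_abs.1 (hxy i) with h2 | h2
      · exact absurd h2.symm h
      · rw [h2, ← abs_neg]; congr 1; ring
  · refine (molC_lip hW hκ hL x i t).trans (mul_le_mul_of_nonneg_right ?_ (abs_nonneg _))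
    have : 0 ≤ N * A2 := by positivity
    show A κ ≤ _
    linarith
  · rw [pd_molC hW hκ]
    refine (molC_lip hW (hκ.pd j) hL x i t).trans (mul_le_mul_of_nonneg_right ?_ (abs_nonneg _))
    have h2 : 0 ≤ N * A2 := by positivity
    have h3 : A (pd κ j) ≤ A1 :=
      Finset.single_le_sum (f := fun j => A (pd κ j)) (fun _ _ => hA0 _) (Finset.mem_univ j)
    show A (pd κ j) ≤ _
    linarith [hA0 κ]
  · have h2 := mol_hess hconv (hd hκ) (fun j => by rw [pd_molC hW hκ]; exact hd (hκ.pd j)) x v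
    have h3 : ∀ i j, t * (v i * v j * pd (pd (molC W κ) j) i x) -
        A2 * t ^ 2 * ((v i ^ 2 + v j ^ 2) / 2) ≤
          v i * v j * (pd (molC W κ) j (sh i t x) - pd (molC W κ) j x) := by
      intro i j
      have h4 : A (pd (pd κ j) i) ≤ A2 :=
        (Finset.single_le_sum (f := fun j => A (pd (pd κ j) i)) (fun _ _ => hA0 _)
          (Finset.mem_univ j)).trans (Finset.single_le_sum
            (f := fun i => ∑ j, A (pd (pd κ j) i))
            (fun _ _ => Finset.sum_nonneg fun _ _ => hA0 _) (Finset.mem_univ i))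
      have h5 := mol_taylor (g := pd (molC W κ) j) (i := i)
        (by rw [pd_molC hW hκ]; exact hd (hκ.pd j)) hA20 (fun x t => by
          rw [pd_molC hW hκ, pd_molC hW (hκ.pd j)]
          exact (molC_lip hW ((hκ.pd j).pd i) hL x i t).trans
            (mul_le_mul_of_nonneg_right h4 (abs_nonneg _))) x ht
      have h6 : |v i * v j| ≤ (v i ^ 2 + v j ^ 2) / 2 := by
        rw [abs_le]; constructor <;> nlinarith [sq_nonneg (v i + v j), sq_nonneg (v i - v j)]
      have h7 := mul_le_mul h6 h5 (abs_nonneg _) (by positivity)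
      rw [← abs_mul] at h7
      nlinarith [(abs_le.1 h7).1]
    have h4 := Finset.sum_le_sum fun i (_ : i ∈ Finset.univ) =>
      Finset.sum_le_sum fun j (_ : j ∈ Finset.univ) => h3 i j
    refine le_trans ?_ h4
    simp only [Finset.sum_sub_distrib, ← Finset.mul_sum, ← Finset.sum_div, Finset.sum_add_distrib,
      Finset.sum_const, Finset.card_univ, nsmul_eq_mul, ← hN]
    have h5 : 0 ≤ ∑ i, v i ^ 2 := by positivity
    have h6 := mul_nonneg ht h2
    have h7 : 0 ≤ (A κ + A1) * t ^ 2 * ∑ i, v i ^ 2 := by have := hA0 κ; positivity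
    nlinarith
  · have e : molC W κ x - W x = ∫ t, (W (x - t) * κ t - W x * κ t) := by
      rw [integral_sub (molC_int hW hκ x) (hκi.const_mul _), integral_const_mul, h1, mul_one]; rfl
    rw [e]
    have h2 := norm_integral_le_of_norm_le (f := fun t => W (x - t) * κ t - W x * κ t)
      (hκi.const_mul η) (Eventually.of_forall fun t => by
        rw [← sub_mul, Real.norm_eq_abs, abs_mul, abs_of_nonneg (h0 t)]
        by_cases ht : κ t = 0
        · simp [ht]
        refine mul_le_mul_of_nonneg_right ((hL _ _).trans ?_) (h0 t)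
        have h3 : ∑ i, |(x - t) i - x i| ≤ N * (η / (L * N + 1)) := by
          simpa using Finset.sum_le_card_nsmul Finset.univ (fun i => |(x - t) i - x i|) _
            fun i _ => by simpa using hsupp t ht i
        refine (mul_le_mul_of_nonneg_left h3 hL0).trans ?_
        rw [← mul_assoc, mul_div_assoc', div_le_iff₀ (by positivity)]
        nlinarith)
    rwa [integral_const_mul, h1, mul_one] at h2

theorem Smooth.add_const {V : (ι → ℝ) → ℝ} {L : ℝ} (hV : Smooth V L) (c : ℝ) :
    Smooth (fun x => V x + c) L := by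
  have e : ∀ j, pd (fun x => V x + c) j = pd V j := fun j => by
    funext x; unfold pd; rw [fderiv_add_const]
  refine ⟨hV.c1.add contDiff_const, hV.convex.add_const c, fun x y h => ?_, hV.nonneg,
    fun x i t => ?_, fun x i j t => ?_, fun x v t ht => ?_⟩
  · show V x + c = V y + c
    rw [hV.unc x y h]
  · simpa using hV.lip x i t
  · rw [e]; exact hV.lip' x i j t
  · simp only [e]; exact hV.curv x v t ht

end Vale.Agent.P245
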