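import Vale.Agent.P245.Core
import Vale.Agent.P245.Envelope
import Vale.Agent.P245.Mollify
import Vale.Agent.P245.LimitAux

open MeasureTheory Real Set Filter Topology
open scoped ENNReal

namespace Vale.Agent.P245

set_option linter.unusedSectionVars false

variable {ι : Type} [Fintype ι] [DecidableEq ι]

/-- Smooth approximating potentials. -/
theorem lm_approx {ρ : (ι → ℝ) → ℝ} (hρ : LC ρ) {S : ℝ} (hS : 0 < S) :
    ∃ (V : ℕ → (ι → ℝ) → ℝ) (L : ℕ → ℝ) (C : ℝ), (∀ k, Smooth (V k) (L k)) ∧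
      (∀ k x, exp (-V k x) ≤ C * ∏ i, exp (-max (|x i| - S) 0)) ∧
      ∀ᵐ x : ι → ℝ, Tendsto (fun k => exp (-V k x)) atTop (𝓝 ((cube ι S).indicator ρ x)) := by
  obtain ⟨W, C, hW, hdom, hlim⟩ := envelope hρ hS
  have hex : ∀ k : ℕ, ∃ (V : (ι → ℝ) → ℝ) (L' : ℝ), Smooth V L' ∧
      ∀ x, |V x - W k x| ≤ 1 / ((k : ℝ) + 1) := by
    intro k
    obtain ⟨hc, hu, L, hL0, hL⟩ := hW k
    exact mollify hc hu hL0 hL (by positivity)
  choose V L hV hVW using hex
  refine ⟨V, L, exp 1 * C, hV, fun k x => ?_, hlim.mono fun x hx => ?_⟩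
  · have h1 : 1 / ((k : ℝ) + 1) ≤ 1 := by
      rw [div_le_one (by positivity)]
      have : (0 : ℝ) ≤ k := Nat.cast_nonneg k
      linarith
    have h2 := (abs_le.1 (hVW k x)).1
    calc exp (-V k x) ≤ exp 1 * exp (-W k x) := by
          rw [← exp_add, exp_le_exp]; linarith
      _ ≤ exp 1 * (C * ∏ i, exp (-max (|x i| - S) 0)) := by gcongr; exact hdom k x
      _ = _ := by ring
  · have h1 : Tendsto (fun k => V k x - W k x) atTop (𝓝 0) :=
      squeeze_zero_norm (fun k => hVW k x) tendsto_one_div_add_atTop_nhds_zero_nat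
    have h2 : Tendsto (fun k => exp (-(V k x - W k x))) atTop (𝓝 (exp (-0))) :=
      (continuous_exp.tendsto _).comp h1.neg
    have h3 := hx.mul h2
    simp only [neg_zero, exp_zero, mul_one] at h3
    refine h3.congr fun k => ?_
    rw [← exp_add]; congr 1; ring

theorem lm_pow_lt {b : ℕ} (hb : 1 ≤ b) : (3 : ℝ) ^ b / (9 / 10) < 4 ^ b := by
  obtain ⟨c, rfl⟩ := Nat.exists_eq_add_of_le' hb
  have h1 : (3 : ℝ) ^ c ≤ 4 ^ c := by gcongr; norm_num
  have h2 : (0 : ℝ) < 4 ^ c := by positivity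
  rw [pow_succ, pow_succ, div_lt_iff₀ (by norm_num)]
  nlinarith

/-- The truncated subgaussian bound for the restricted density. -/
theorem lm_subG {ρ : (ι → ℝ) → ℝ} (hρ : LC ρ) (S : ℝ) (B : Finset ι) :
    ∫ x, (cube ι S).indicator ρ x * exp (∑ i ∈ B, min (x i ^ 2) (S ^ 2) / 2) ≤ 3 ^ B.card := by
  have h0 : ∀ x, 0 ≤ (cube ι S).indicator ρ x := fun x => indicator_nonneg (fun y _ => hρ.nonneg y) x
  rw [integral_eq_lintegral_of_nonneg_ae (ae_of_all _ fun x => mul_nonneg (h0 x) (exp_pos _).le)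
    (((hρ.meas.indicator (lm_meas_cube S)).mul (by fun_prop)).aestronglyMeasurable)]
  refine ENNReal.toReal_le_of_le_ofReal (by positivity) ?_
  have h3 : ENNReal.ofReal ((3 : ℝ) ^ B.card) = 3 ^ B.card := by
    rw [ENNReal.ofReal_pow (by norm_num)]; simp
  rw [h3]
  refine le_trans (lintegral_mono fun x => ENNReal.ofReal_le_ofReal ?_) (hρ.subG B)
  rw [mul_comm]
  refine mul_le_mul ?_ (indicator_le_self' (fun _ _ => hρ.nonneg _) x) (h0 x) (exp_pos _).le
  rw [exp_le_exp]
  exact Finset.sum_le_sum fun i _ => by gcongr; exact min_le_left _ _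

/-- The inequality at a fixed truncation level. -/
theorem lm_fixed {ρ : (ι → ℝ) → ℝ} (hρ : LC ρ) {f : (ι → ℝ) → ℝ} (hf : C1c f) {S : ℝ}
    (hS : 1 ≤ S) (hsupp : ∀ x, x ∈ tsupport f → ∀ i, |x i| ≤ S)
    (hZ : 9 / 10 ≤ ∫ x, (cube ι S).indicator ρ x) :
    Ent (mu ρ) (fun x => f x ^ 2) ≤ K0 * En (mu ρ) f + ∫ x, f x ^ 2 ∂(mu ρ) -
      (∫ x, f x ^ 2 ∂(mu ρ)) * log (∫ x, (cube ι S).indicator ρ x) := by
  obtain ⟨V, L, C, hV, hdom, hlim⟩ := lm_approx hρ (lt_of_lt_of_le one_pos hS)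
  set Z0 := ∫ x, (cube ι S).indicator ρ x with hZ0
  have hZ0p : 0 < Z0 := by linarith
  have hVm : ∀ k, Measurable (fun x => exp (-V k x)) := fun k =>
    ((hV k).c1.continuous.neg.rexp).measurable
  have hV0 : ∀ k x, 0 ≤ exp (-V k x) := fun k x => (exp_pos _).le
  have hone : ∀ x : ι → ℝ, |(1 : ℝ)| ≤ 1 * (1 + ∑ i, x i ^ 2) :=
    lm_bdd_quad (g := fun _ => (1 : ℝ)) (fun _ => by simp)
  set Z : ℕ → ℝ := fun k => ∫ x, exp (-V k x) with hZdef
  have hVi : ∀ k, Integrable (fun x => exp (-V k x)) := fun k => by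
    simpa using lm_int_of_dom (hVm k) (hV0 k) (hdom k) measurable_const hone
  have hZt : Tendsto Z atTop (𝓝 Z0) := by
    simpa using lm_dct hVm hV0 hdom hlim measurable_const hone
  have hZp : ∀ k, 0 < Z k := fun k => integral_exp_pos (hVi k)
  have hexp : ∀ k x, exp (-(V k x + log (Z k))) = (Z k)⁻¹ * exp (-V k x) := by
    intro k x
    rw [neg_add, exp_add, exp_neg (log _), exp_log (hZp k), mul_comm]
  have hVm' : ∀ k, Measurable (fun x => exp (-(V k x + log (Z k)))) := fun k =>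
    (((hV k).c1.continuous.add continuous_const).neg.rexp).measurable
  have hint : ∀ k (g : (ι → ℝ) → ℝ), ∫ x, g x ∂(dens fun x => V k x + log (Z k)) =
      (Z k)⁻¹ * ∫ x, exp (-V k x) * g x := by
    intro k g
    unfold dens
    rw [lm_integral_mu (hVm' k) (fun x => (exp_pos _).le), ← integral_const_mul]
    simp only [hexp, mul_assoc]
  have hconv : ∀ (g : (ι → ℝ) → ℝ) (c : ℝ), Measurable g →
      (∀ x, |g x| ≤ c * (1 + ∑ i, x i ^ 2)) →
      Tendsto (fun k => ∫ x, g x ∂(dens fun x => V k x + log (Z k))) atTop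
        (𝓝 (Z0⁻¹ * ∫ x, (cube ι S).indicator ρ x * g x)) := by
    intro g c hgm hg
    simp only [hint]
    exact (hZt.inv₀ hZ0p.ne').mul (lm_dct hVm hV0 hdom hlim hgm hg)
  have hprob : ∀ k, IsProbabilityMeasure (dens fun x => V k x + log (Z k)) := by
    intro k
    unfold dens
    refine lm_prob_mu (fun x => (exp_pos _).le) ?_ ?_
    · simp only [hexp]; exact (hVi k).const_mul _
    · simp only [hexp]; rw [integral_const_mul]; exact inv_mul_cancel₀ (hZp k).ne'
  have hsq : ∀ i (x : ι → ℝ), |x i ^ 2| ≤ 1 * (1 + ∑ i, x i ^ 2) := by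
    intro i x
    rw [abs_of_nonneg (sq_nonneg _)]
    have := Finset.single_le_sum (f := fun i => x i ^ 2) (fun _ _ => sq_nonneg _)
      (Finset.mem_univ i)
    linarith
  have hsub : ∀ᶠ k in atTop, ∀ B : Finset ι,
      ∫ x, exp (∑ i ∈ B, min (x i ^ 2) (S ^ 2) / 2) ∂(dens fun x => V k x + log (Z k)) ≤
        4 ^ B.card := by
    rw [eventually_all]
    intro B
    rcases B.eq_empty_or_nonempty with rfl | hB
    · refine Eventually.of_forall fun k => ?_
      have := hprob k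
      simp
    · have hb : ∀ x : ι → ℝ, |exp (∑ i ∈ B, min (x i ^ 2) (S ^ 2) / 2)| ≤
          exp (∑ _i ∈ B, S ^ 2 / 2) := by
        intro x
        rw [abs_of_pos (exp_pos _), exp_le_exp]
        exact Finset.sum_le_sum fun i _ => by gcongr; exact min_le_right _ _
      have ht := hconv _ _ (by fun_prop) (lm_bdd_quad hb)
      refine (ht.eventually (gt_mem_nhds ?_)).mono fun k hk => hk.le
      refine lt_of_le_of_lt ?_ (lm_pow_lt (Finset.card_pos.2 hB))
      rw [div_eq_inv_mul]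
      exact mul_le_mul (inv_anti₀ (by norm_num) hZ) (lm_subG hρ S B)
        (integral_nonneg fun x => mul_nonneg
          (indicator_nonneg (fun y _ => hρ.nonneg y) x) (exp_pos _).le) (by norm_num)
  have htail : ∀ᶠ k in atTop, ∑ i, ∫ x, (if S < |x i| then x i ^ 2 else 0)
      ∂(dens fun x => V k x + log (Z k)) ≤ 1 / 100 := by
    have ht : ∀ i, Tendsto (fun k => ∫ x, (if S < |x i| then x i ^ 2 else 0)
        ∂(dens fun x => V k x + log (Z k))) atTop (𝓝 0) := by
      intro i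
      have h1 := hconv (fun x => if S < |x i| then x i ^ 2 else 0) 1
        (Measurable.ite (measurableSet_lt measurable_const (by fun_prop)) (by fun_prop)
          measurable_const) (fun x => by
          split_ifs
          · exact hsq i x
          · rw [abs_zero]; positivity)
      have h2 : ∀ x : ι → ℝ, (cube ι S).indicator ρ x * (if S < |x i| then x i ^ 2 else 0) = 0 := by
        intro x
        by_cases hx : x ∈ cube ι S
        · rw [if_neg (not_lt.2 (hx i)), mul_zero]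
        · rw [indicator_of_notMem hx, zero_mul]
      simpa only [h2, integral_zero, mul_zero] using h1
    have ht2 := tendsto_finsetSum Finset.univ fun i _ => ht i
    rw [Finset.sum_const_zero] at ht2
    exact ht2.eventually (ge_mem_nhds (by norm_num))
  have hKI : ∀ᶠ k in atTop, Ent (dens fun x => V k x + log (Z k)) (fun x => f x ^ 2) ≤
      K0 * En (dens fun x => V k x + log (Z k)) f +
        ∫ x, f x ^ 2 ∂(dens fun x => V k x + log (Z k)) := by
    filter_upwards [hsub, htail] with k hk1 hk2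
    have hN : Nice (fun x => V k x + log (Z k)) S (L k) := by
      refine ⟨(hV k).add_const _, ⟨hprob k, hS, fun i => ?_, hk1⟩, hk2⟩
      unfold dens
      rw [lm_integrable_mu (hVm' k) (fun x => (exp_pos _).le)]
      simp only [hexp, mul_assoc]
      exact (lm_int_of_dom (hVm k) (hV0 k) (hdom k) (by fun_prop) (hsq i)).const_mul _
    have h1 := core hN f hf
    have h2 : ∀ x, U S x * f x ^ 2 = 0 := by
      intro x
      by_cases hx : x ∈ tsupport f
      · have : U S x = 0 := Finset.sum_eq_zero fun i _ => U1_eq_zero (hsupp x hx i)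
        rw [this, zero_mul]
      · rw [image_eq_zero_of_notMem_tsupport hx]; simp
    simpa only [h2, integral_zero, add_zero] using h1
  have hlimg : ∀ (g : (ι → ℝ) → ℝ) (c : ℝ), Measurable g → (∀ x, |g x| ≤ c) →
      (∀ x, x ∉ tsupport f → g x = 0) →
      Tendsto (fun k => ∫ x, g x ∂(dens fun x => V k x + log (Z k))) atTop
        (𝓝 (Z0⁻¹ * ∫ x, g x ∂(mu ρ))) := by
    intro g c hgm hg hg0
    have h1 := hconv g c hgm (lm_bdd_quad hg)
    have h2 : ∀ x, (cube ι S).indicator ρ x * g x = ρ x * g x := by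
      intro x
      by_cases hx : x ∈ tsupport f
      · rw [indicator_of_mem (show x ∈ cube ι S from hsupp x hx)]
      · rw [hg0 x hx, mul_zero, mul_zero]
    rw [lm_integral_mu hρ.meas hρ.nonneg]
    simpa only [h2] using h1
  obtain ⟨c, hc0, hc⟩ := hf.bdd
  have hc2 : ∀ x, f x ^ 2 ≤ c ^ 2 := fun x => by
    rw [← sq_abs]; gcongr; exact hc x
  have hfm : Measurable (fun x => f x ^ 2) := hf.cont.measurable.pow_const 2
  have t1 := hlimg (fun x => f x ^ 2) (c ^ 2) hfm
    (fun x => by rw [abs_of_nonneg (sq_nonneg _)]; exact hc2 x)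
    (fun x hx => by rw [image_eq_zero_of_notMem_tsupport hx]; simp)
  have t2 := hlimg (fun x => f x ^ 2 * log (f x ^ 2)) ((c ^ 2) ^ 2 + 1) (hfm.mul hfm.log)
    (fun x => abs_mul_log_le (sq_nonneg _) (hc2 x))
    (fun x hx => by rw [image_eq_zero_of_notMem_tsupport hx]; simp)
  have t3 : ∀ i, Tendsto (fun k => ∫ x, pd f i x ^ 2 ∂(dens fun x => V k x + log (Z k))) atTop
      (𝓝 (Z0⁻¹ * ∫ x, pd f i x ^ 2 ∂(mu ρ))) := by
    intro i
    obtain ⟨d, hd0, hd⟩ := hf.pd_bdd i
    refine hlimg (fun x => pd f i x ^ 2) (d ^ 2) ((hf.pd_cont i).measurable.pow_const 2)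
      (fun x => ?_) (fun x hx => ?_)
    · rw [abs_pow]; gcongr; exact hd x
    · have : fderiv ℝ f x = 0 := by
        by_contra hne
        exact hx (support_fderiv_subset ℝ hne)
      simp [pd, this]
  have t4 : Tendsto (fun k => En (dens fun x => V k x + log (Z k)) f) atTop
      (𝓝 (Z0⁻¹ * En (mu ρ) f)) := by
    unfold En
    rw [Finset.mul_sum]
    exact tendsto_finsetSum _ fun i _ => t3 i
  have t5 := t2.sub ((continuous_mul_log.tendsto _).comp t1)
  have key := le_of_tendsto_of_tendsto t5 ((t4.const_mul K0).add t1) hKI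
  unfold Ent
  set N := ∫ x, f x ^ 2 ∂(mu ρ)
  set A := ∫ x, f x ^ 2 * log (f x ^ 2) ∂(mu ρ)
  set E := En (mu ρ) f
  have h1 : Z0⁻¹ * N * log (Z0⁻¹ * N) = Z0⁻¹ * (N * log N - N * log Z0) := by
    rcases eq_or_ne N 0 with h | h
    · simp [h]
    · rw [log_mul (inv_ne_zero hZ0p.ne') h, log_inv]; ring
  rw [h1] at key
  have h2 : Z0⁻¹ * (A - N * log N) ≤ Z0⁻¹ * (K0 * E + N - N * log Z0) := by linarith
  exact le_of_mul_le_mul_left h2 (inv_pos.2 hZ0p)

/-- Passage to the limit. Fix S ≥ 1 with supp f ⊆ cube S and Z S = ∫ over cube S of ρ ≥ 9/10.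
Let V k = mollification of the envelope W k within 1/(k+1), Z k = ∫ exp(-V k) → Z S by dominated
convergence (dominating function e C Π exp(-(|x i| - S)₊), times 1 + Σ x² where needed).
For large k, V k + log Z k is `Nice` (finitely many B; 3^|B|/Z S < 4^|B| for B nonempty, equality
for B empty; the tail tends to 0). Apply `core` (the U term vanishes on the support of f), let
k → ∞ to get the inequality for ρ restricted to cube S and divided by Z S, then let S → ∞. -/
theorem defective {ρ : (ι → ℝ) → ℝ} (hρ : LC ρ) {f : (ι → ℝ) → ℝ} (hf : C1c f) :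
    Ent (mu ρ) (fun x => f x ^ 2) ≤ K0 * En (mu ρ) f + ∫ x, f x ^ 2 ∂(mu ρ) := by
  obtain ⟨R, hR0, hR⟩ := exists_cube hf.2
  have hm := lm_mass hρ.int
  rw [hρ.one] at hm
  have h1 : Tendsto (fun m : ℕ => K0 * En (mu ρ) f + ∫ x, f x ^ 2 ∂(mu ρ) -
      (∫ x, f x ^ 2 ∂(mu ρ)) * log (∫ x, (cube ι m).indicator ρ x)) atTop
      (𝓝 (K0 * En (mu ρ) f + ∫ x, f x ^ 2 ∂(mu ρ) - (∫ x, f x ^ 2 ∂(mu ρ)) * log 1)) :=
    tendsto_const_nhds.sub ((hm.log one_ne_zero).const_mul _)
  rw [log_one, mul_zero, sub_zero] at h1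
  refine ge_of_tendsto h1 ?_
  filter_upwards [hm.eventually (le_mem_nhds (show (9 / 10 : ℝ) < 1 by norm_num)),
    eventually_ge_atTop ⌈R⌉₊, eventually_ge_atTop 1] with m h2 h3 h4
  refine lm_fixed hρ hf (by exact_mod_cast h4) (fun x hx i => ?_) h2
  exact (hR x hx i).trans ((Nat.le_ceil _).trans (by exact_mod_cast h3))

end Vale.Agent.P245
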