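import Vale.Agent.P245.Basic

open MeasureTheory Real Set Filter Topology
open scoped ENNReal

namespace Vale.Agent.P245

set_option linter.unusedSectionVars false

variable {ι : Type} [Fintype ι] [DecidableEq ι]

theorem int_mul_w {μ : Measure (ι → ℝ)} {w u : (ι → ℝ) → ℝ} (hw : Measurable w)
    (h0 : ∀ x, 0 ≤ w x) {C : ℝ} (hC : ∀ x, w x ≤ C) (hu : Integrable u μ) :
    Integrable (fun x => u x * w x) μ :=
  hu.mul_bdd (c := C) hw.aestronglyMeasurable (Eventually.of_forall fun x => by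
    rw [Real.norm_eq_abs, abs_of_nonneg (h0 x)]; exact hC x)

theorem Base.int_ind_sq {μ : Measure (ι → ℝ)} {S : ℝ} (hb : Base μ S) {A : Set ℝ}
    (hA : MeasurableSet A) (i : ι) :
    Integrable (fun x : ι → ℝ => A.indicator (fun t => t ^ 2) (x i)) μ := by
  have hm : Measurable (fun x : ι → ℝ => A.indicator (fun t : ℝ => t ^ 2) (x i)) :=
    ((measurable_id.pow_const 2).indicator hA).comp (measurable_pi_apply i)
  refine (hb.sq i).mono' hm.aestronglyMeasurable (Eventually.of_forall fun x => ?_)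
  rw [Real.norm_eq_abs, abs_of_nonneg (indicator_nonneg (fun _ _ => sq_nonneg _) _)]
  exact indicator_le_self' (fun _ _ => sq_nonneg _) _

theorem int_ind_one {μ : Measure (ι → ℝ)} [IsFiniteMeasure μ] {A : Set ℝ}
    (hA : MeasurableSet A) (i : ι) :
    Integrable (fun x : ι → ℝ => A.indicator (fun _ => (1 : ℝ)) (x i)) μ := by
  have hm : Measurable (fun x : ι → ℝ => A.indicator (fun _ : ℝ => (1 : ℝ)) (x i)) :=
    (measurable_const.indicator hA).comp (measurable_pi_apply i)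
  refine integrable_of_bdd hm (C := 1) fun x => ?_
  rw [abs_of_nonneg (indicator_nonneg (fun _ _ => zero_le_one) _)]
  exact indicator_le_self' (fun _ _ => zero_le_one) _

theorem Base.int_subG {μ : Measure (ι → ℝ)} {S : ℝ} (hb : Base μ S) (B : Finset ι) :
    Integrable (fun x : ι → ℝ => exp (∑ i ∈ B, min (x i ^ 2) (S ^ 2) / 2)) μ := by
  have := hb.prob
  have hc : Continuous fun x : ι → ℝ => exp (∑ i ∈ B, min (x i ^ 2) (S ^ 2) / 2) := by
    fun_prop
  refine integrable_of_bdd hc.measurable (C := exp (∑ _i ∈ B, S ^ 2 / 2)) fun x => ?_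
  rw [abs_of_pos (exp_pos _)]
  exact exp_le_exp.2 (Finset.sum_le_sum fun i _ => by gcongr; exact min_le_right _ _)

theorem Base.prod_bound {μ : Measure (ι → ℝ)} {S : ℝ} (hb : Base μ S) {p : ι → ℝ}
    (hp : ∀ i, 0 ≤ p i) :
    Integrable (fun x : ι → ℝ => ∏ i, (1 + p i * exp (min (x i ^ 2) (S ^ 2) / 2))) μ ∧
      ∫ x, ∏ i, (1 + p i * exp (min (x i ^ 2) (S ^ 2) / 2)) ∂μ ≤ exp (∑ i, 4 * p i) := by
  have e : (fun x : ι → ℝ => ∏ i, (1 + p i * exp (min (x i ^ 2) (S ^ 2) / 2))) =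
      fun x => ∑ B ∈ (Finset.univ : Finset ι).powerset,
        (∏ i ∈ B, p i) * exp (∑ i ∈ B, min (x i ^ 2) (S ^ 2) / 2) := by
    funext x
    rw [Finset.prod_one_add]
    refine Finset.sum_congr rfl fun B _ => ?_
    rw [Finset.prod_mul_distrib, Real.exp_sum]
  refine ⟨by rw [e]; exact integrable_finsetSum _ fun B _ => (hb.int_subG B).const_mul _, ?_⟩
  rw [e, integral_finsetSum _ fun B _ => (hb.int_subG B).const_mul _]
  calc ∑ B ∈ (Finset.univ : Finset ι).powerset,
        ∫ x, (∏ i ∈ B, p i) * exp (∑ i ∈ B, min (x i ^ 2) (S ^ 2) / 2) ∂μ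
      ≤ ∑ B ∈ (Finset.univ : Finset ι).powerset, ∏ i ∈ B, 4 * p i := by
        refine Finset.sum_le_sum fun B _ => ?_
        rw [integral_const_mul, Finset.prod_mul_distrib, Finset.prod_const, mul_comm (4 ^ _)]
        exact mul_le_mul_of_nonneg_left (hb.subG B) (Finset.prod_nonneg fun i _ => hp i)
    _ = ∏ i, (1 + 4 * p i) := (Finset.prod_one_add _).symm
    _ ≤ exp (∑ i, 4 * p i) :=
        Real.prod_one_add_le_exp_sum _ fun i => by have := hp i; positivity

/-- The cost of atypical levels is paid by the entropy. -/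
theorem atyp_bound {μ : Measure (ι → ℝ)} {S : ℝ} (hb : Base μ S) {w : (ι → ℝ) → ℝ}
    (hw : Measurable w) (h0 : ∀ x, 0 ≤ w x) {C : ℝ} (hC : ∀ x, w x ≤ C)
    (hM : 0 < ∫ x, w x ∂μ) {A : ι → Set ℝ} (hA : ∀ i, MeasurableSet (A i))
    (h32 : ∀ i t, t ∈ A i → 32 ≤ |t|)
    (hq : ∀ i t, t ∈ A i → (∫ x, w x ∂μ) * exp (-(t ^ 2 / 16)) ≤
      ∫ x, (A i).indicator (fun _ => (1 : ℝ)) (x i) * w x ∂μ) :
    ∑ i, ∫ x, (A i).indicator (fun t => t ^ 2) (x i) * w x ∂μ ≤
      6 * (Ent μ w + ∫ x, U S x * w x ∂μ) := by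
  have := hb.prob
  have hS : 0 ≤ S := by linarith [hb.one_le]
  set M := ∫ x, w x ∂μ with hMdef
  set q : ι → ℝ := fun i => ∫ x, (A i).indicator (fun _ => (1 : ℝ)) (x i) * w x ∂μ with hqdef
  set X : ι → ℝ := fun i => ∫ x, (A i).indicator (fun t => t ^ 2) (x i) * w x ∂μ with hXdef
  have hq0 : ∀ i, 0 ≤ q i := fun i => integral_nonneg fun x =>
    mul_nonneg (indicator_nonneg (fun _ _ => zero_le_one) _) (h0 x)
  have hiX : ∀ i, Integrable (fun x : ι → ℝ => (A i).indicator (fun t => t ^ 2) (x i) * w x) μ :=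
    fun i => int_mul_w hw h0 hC (hb.int_ind_sq (hA i) i)
  have hqX : ∀ i, 1024 * q i ≤ X i := by
    intro i
    rw [hqdef, ← integral_const_mul]
    refine integral_mono ((int_mul_w hw h0 hC (int_ind_one (hA i) i)).const_mul _) (hiX i)
      fun x => ?_
    by_cases hx : x i ∈ A i
    · simp only [indicator_of_mem hx]
      have h1 := h32 i _ hx
      have h2 : 1024 ≤ x i ^ 2 := by rw [← sq_abs]; nlinarith
      have := mul_le_mul_of_nonneg_right h2 (h0 x)
      linarith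
    · simp [indicator_of_notMem hx]
  set G : (ι → ℝ) → ℝ := fun x =>
    ∑ i, (3 / 16 * (A i).indicator (fun t => t ^ 2) (x i) - U1 S (x i)) with hG
  have hp : ∀ i, 0 ≤ q i / M := fun i => div_nonneg (hq0 i) hM.le
  obtain ⟨hPi, hPle⟩ := hb.prod_bound hp
  have hGm : Measurable G := by
    refine Finset.measurable_sum _ fun i _ => Measurable.sub (Measurable.const_mul ?_ _) ?_
    · exact ((measurable_id.pow_const 2).indicator (hA i)).comp (measurable_pi_apply i)
    · exact (U1_cont S).measurable.comp (measurable_pi_apply i)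
  have hexp : ∀ x, exp (G x) ≤ ∏ i, (1 + q i / M * exp (min (x i ^ 2) (S ^ 2) / 2)) := by
    intro x
    rw [hG, Real.exp_sum]
    refine Finset.prod_le_prod (fun i _ => (exp_pos _).le) fun i _ => ?_
    by_cases hx : x i ∈ A i
    · rw [indicator_of_mem hx]
      have h1 := sq_sub_U1 hS (x i)
      have h2 : exp (-(x i ^ 2 / 16)) ≤ q i / M := by
        rw [le_div_iff₀ hM, mul_comm]; exact hq i _ hx
      calc exp (3 / 16 * x i ^ 2 - U1 S (x i))
          ≤ exp (-(x i ^ 2 / 16) + min (x i ^ 2) (S ^ 2) / 2) := exp_le_exp.2 (by linarith)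
        _ = exp (-(x i ^ 2 / 16)) * exp (min (x i ^ 2) (S ^ 2) / 2) := exp_add _ _
        _ ≤ q i / M * exp (min (x i ^ 2) (S ^ 2) / 2) := by gcongr
        _ ≤ _ := by linarith
    · rw [indicator_of_notMem hx]
      have h1 : exp (3 / 16 * 0 - U1 S (x i)) ≤ 1 :=
        exp_le_one_iff.2 (by linarith [U1_nonneg S (x i)])
      have h2 : 0 ≤ q i / M * exp (min (x i ^ 2) (S ^ 2) / 2) :=
        mul_nonneg (hp i) (exp_pos _).le
      linarith
  have hexpi : Integrable (fun x => exp (G x)) μ :=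
    hPi.mono' hGm.exp.aestronglyMeasurable (Eventually.of_forall fun x => by
      rw [Real.norm_eq_abs, abs_of_pos (exp_pos _)]; exact hexp x)
  have hUw : Integrable (fun x => U S x * w x) μ := int_mul_w hw h0 hC hb.int_U
  have e : (fun x => w x * G x) = fun x =>
      3 / 16 * (∑ i, (A i).indicator (fun t => t ^ 2) (x i) * w x) - U S x * w x := by
    funext x
    simp only [hG, U, Finset.sum_sub_distrib, ← Finset.mul_sum, ← Finset.sum_mul]
    ring
  have hsi : Integrable (fun x : ι → ℝ => ∑ i, (A i).indicator (fun t => t ^ 2) (x i) * w x) μ :=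
    integrable_finsetSum _ fun i _ => hiX i
  have hwG : Integrable (fun x => w x * G x) μ := by
    rw [e]; exact (hsi.const_mul _).sub' hUw
  have key := gibbs h0 (int_of_nonneg_le hw h0 hC) (int_mul_log hw h0 hC) hwG hexpi
    (exp_pos (∑ i, 4 * (q i / M))) ((integral_mono hexpi hPi hexp).trans hPle)
  rw [e, integral_sub (hsi.const_mul _) hUw, integral_const_mul,
    integral_finsetSum _ fun i _ => hiX i, log_exp, ← hMdef] at key
  have h4 : M * ∑ i, 4 * (q i / M) = 4 * ∑ i, q i := by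
    rw [Finset.mul_sum, Finset.mul_sum]
    exact Finset.sum_congr rfl fun i _ => by field_simp
  have h5 : 1024 * ∑ i, q i ≤ ∑ i, X i := by
    rw [Finset.mul_sum]; exact Finset.sum_le_sum fun i _ => hqX i
  have h6 : 0 ≤ ∑ i, q i := Finset.sum_nonneg fun i _ => hq0 i
  rw [h4] at key
  change 3 / 16 * ∑ i, X i - _ ≤ _ at key
  change ∑ i, X i ≤ _
  linarith

/-- Level sets of the absolute value. -/
def lev (j : ℕ) : Set ℝ := {t | ⌊|t|⌋₊ = j}

theorem meas_levs (J : Finset ℕ) : MeasurableSet {t : ℝ | ⌊|t|⌋₊ ∈ J} :=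
  (measurable_abs.nat_floor) (J.countable_toSet.measurableSet)

theorem meas_lev (j : ℕ) : MeasurableSet (lev j) :=
  (measurable_abs.nat_floor) (measurableSet_singleton j)

theorem typ_sum (n : ℕ) :
    ∑ j ∈ Finset.Ico 32 n, exp (((j : ℝ) + 1) ^ 2 / 128) * exp (-((j : ℝ) ^ 2 / 16)) ≤ 1 := by
  calc ∑ j ∈ Finset.Ico 32 n, exp (((j : ℝ) + 1) ^ 2 / 128) * exp (-((j : ℝ) ^ 2 / 16))
      ≤ ∑ j ∈ Finset.Ico 32 n, (1 / 2 : ℝ) ^ j := by
        refine Finset.sum_le_sum fun j hj => ?_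
        have h1 : (32 : ℝ) ≤ j := by exact_mod_cast (Finset.mem_Ico.1 hj).1
        have h2 : exp (-1) ≤ 1 / 2 := by
          rw [exp_neg, one_div]
          exact inv_anti₀ (by norm_num) (by linarith [Real.add_one_le_exp (1 : ℝ)])
        rw [← exp_add]
        calc exp (((j : ℝ) + 1) ^ 2 / 128 + -((j : ℝ) ^ 2 / 16)) ≤ exp (j * (-1)) :=
              exp_le_exp.2 (by nlinarith)
          _ = exp (-1) ^ j := exp_nat_mul _ _
          _ ≤ (1 / 2 : ℝ) ^ j := pow_le_pow_left₀ (exp_pos _).le h2 j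
    _ ≤ (1 / 2 : ℝ) ^ 32 / (1 - 1 / 2) := geom_sum_Ico_le_of_lt_one (by norm_num) (by norm_num)
    _ ≤ 1 := by norm_num

/-- Typical levels have a bounded exponential moment. -/
theorem typ_bound {μ : Measure (ι → ℝ)} [IsFiniteMeasure μ] {w : (ι → ℝ) → ℝ}
    (hw : Measurable w) (h0 : ∀ x, 0 ≤ w x) {C : ℝ} (hC : ∀ x, w x ≤ C) (i : ι) (n : ℕ)
    {J : Finset ℕ} (hJ : J ⊆ Finset.Ico 32 n)
    (hm : ∀ j ∈ J, ∫ x, (lev j).indicator (fun _ => (1 : ℝ)) (x i) * w x ∂μ ≤
      (∫ x, w x ∂μ) * exp (-((j : ℝ) ^ 2 / 16)))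
    {A : Set ℝ} (hA : ∀ t, t ∉ A → |t| < 32 ∨ ⌊|t|⌋₊ ∈ J) :
    ∫ x, Aᶜ.indicator (fun t => exp (t ^ 2 / 128)) (x i) * w x ∂μ ≤ C2 * ∫ x, w x ∂μ := by
  set M := ∫ x, w x ∂μ with hMdef
  have hM : 0 ≤ M := integral_nonneg h0
  have hi1 : ∀ j : ℕ, Integrable (fun x : ι → ℝ => exp (((j : ℝ) + 1) ^ 2 / 128) *
      ((lev j).indicator (fun _ => (1 : ℝ)) (x i) * w x)) μ :=
    fun j => (int_mul_w hw h0 hC (int_ind_one (meas_lev j) i)).const_mul _
  have hwi := int_of_nonneg_le (μ := μ) hw h0 hC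
  have hi2 : Integrable (fun x : ι → ℝ => ∑ j ∈ J, exp (((j : ℝ) + 1) ^ 2 / 128) *
      ((lev j).indicator (fun _ => (1 : ℝ)) (x i) * w x)) μ :=
    integrable_finsetSum _ fun j _ => hi1 j
  have hterm : ∀ (x : ι → ℝ) (j : ℕ), 0 ≤ exp (((j : ℝ) + 1) ^ 2 / 128) *
      ((lev j).indicator (fun _ => (1 : ℝ)) (x i) * w x) := fun x j =>
    mul_nonneg (exp_pos _).le (mul_nonneg (indicator_nonneg (fun _ _ => zero_le_one) _) (h0 x))
  calc ∫ x, Aᶜ.indicator (fun t => exp (t ^ 2 / 128)) (x i) * w x ∂μ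
      ≤ ∫ x, (exp 8 * w x + ∑ j ∈ J, exp (((j : ℝ) + 1) ^ 2 / 128) *
          ((lev j).indicator (fun _ => (1 : ℝ)) (x i) * w x)) ∂μ := by
        refine integral_mono_of_nonneg (Eventually.of_forall fun x =>
          mul_nonneg (indicator_nonneg (fun _ _ => (exp_pos _).le) _) (h0 x))
          ((hwi.const_mul _).fun_add hi2) (Eventually.of_forall fun x => ?_)
        have hs : 0 ≤ ∑ j ∈ J, exp (((j : ℝ) + 1) ^ 2 / 128) *
            ((lev j).indicator (fun _ => (1 : ℝ)) (x i) * w x) :=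
          Finset.sum_nonneg fun j _ => hterm x j
        have h8 : 0 ≤ exp 8 * w x := mul_nonneg (exp_pos _).le (h0 x)
        show Aᶜ.indicator (fun t => exp (t ^ 2 / 128)) (x i) * w x ≤ _
        by_cases hx : x i ∈ A
        · rw [indicator_of_notMem (by simpa using hx), zero_mul]
          exact add_nonneg h8 hs
        · rw [indicator_of_mem (by simpa using hx)]
          rcases hA _ hx with h | h
          · have h1 : x i ^ 2 / 128 ≤ 8 := by
              rw [← sq_abs]; nlinarith [abs_nonneg (x i)]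
            have h2 := mul_le_mul_of_nonneg_right (exp_le_exp.2 h1) (h0 x)
            linarith
          · have h1 := Finset.single_le_sum (f := fun j : ℕ => exp (((j : ℝ) + 1) ^ 2 / 128) *
              ((lev j).indicator (fun _ => (1 : ℝ)) (x i) * w x)) (fun j _ => hterm x j) h
            have h2 : x i ∈ lev ⌊|x i|⌋₊ := rfl
            simp only [indicator_of_mem h2, one_mul] at h1
            have h3 := Nat.lt_floor_add_one |x i|
            have h4 : x i ^ 2 / 128 ≤ ((⌊|x i|⌋₊ : ℝ) + 1) ^ 2 / 128 := by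
              rw [← sq_abs (x i)]
              gcongr
            have h5 := mul_le_mul_of_nonneg_right (exp_le_exp.2 h4) (h0 x)
            linarith
    _ = exp 8 * M + ∑ j ∈ J, exp (((j : ℝ) + 1) ^ 2 / 128) *
          ∫ x, (lev j).indicator (fun _ => (1 : ℝ)) (x i) * w x ∂μ := by
        rw [integral_add (hwi.const_mul _) hi2, integral_const_mul,
          integral_finsetSum _ fun j _ => hi1 j]
        simp only [integral_const_mul, hMdef]
    _ ≤ exp 8 * M + ∑ j ∈ Finset.Ico 32 n, exp (((j : ℝ) + 1) ^ 2 / 128) *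
          (M * exp (-((j : ℝ) ^ 2 / 16))) := by
        refine add_le_add le_rfl (le_trans (Finset.sum_le_sum fun j hj =>
          mul_le_mul_of_nonneg_left (hm j hj) (exp_pos _).le) ?_)
        exact Finset.sum_le_sum_of_subset_of_nonneg hJ fun j _ _ => by positivity
    _ = exp 8 * M + M * ∑ j ∈ Finset.Ico 32 n, exp (((j : ℝ) + 1) ^ 2 / 128) *
          exp (-((j : ℝ) ^ 2 / 16)) := by
        rw [Finset.mul_sum]
        exact congrArg _ (Finset.sum_congr rfl fun j _ => by ring)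
    _ ≤ exp 8 * M + M * 1 := by gcongr; exact typ_sum n
    _ = C2 * M := by unfold C2; ring

/-- Splitting of the values of each coordinate into paid levels `A i` and typical levels.
Proof. M = ∫ w. Let S1 = max 32 ⌈2S⌉₊ (natural number), level of t = ⌊|t|⌋₊,
m i j = ∫ w over {level of x i = j}. Call j atypical for i if 32 ≤ j < S1 and
m i j > M exp(-j²/16). A0 i = {t | level t atypical}, A i = A0 i ∪ {S1 ≤ |t|}.
Second bound: pointwise, off A i, exp(t²/128) ≤ e^8 + Σ_{j typical in Ico 32 S1}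
exp((j+1)²/128) 1(level j), and exp((j+1)²/128 - j²/16) ≤ exp(-j), whose sum is ≤ 1.
First bound: π i = ∫ w over {x i ∈ A0 i}, κ i = log (M / π i); on A0 i, κ i ≤ (x i)²/16 because
π i ≥ m i j. Apply `gibbs` with G x = Σ_i (1(x i ∈ A0 i) ((x i)²/4 - κ i) - U1 S (x i)):
exp G ≤ Π_i (1 + (π i / M) exp(min((x i)², S²)/2)) (use `sq_sub_U1`), expand with
`Finset.prod_one_add`/`Finset.prod_add` over subsets B and use `hb.subG`, getting
∫ exp G ≤ Π (1 + 4 π i / M) ≤ exp(4 Σ π i / M). With X0 = Σ ∫ (x i)² 1(A0 i) w and π i ≤ X0 i/1024: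
X0/4 - X0/16 ≤ Ent + ∫ U w + 4 X0/1024, so X0 ≤ 6 (Ent + ∫ U w). On S1 ≤ |t| use `sq_le_U1`
(gives 8 ∫ U w) and `Ent_nonneg`. -/
theorem splitting {μ : Measure (ι → ℝ)} {S : ℝ} (hb : Base μ S) {w : (ι → ℝ) → ℝ}
    (hw : Measurable w) (h0 : ∀ x, 0 ≤ w x) {C : ℝ} (hC : ∀ x, w x ≤ C)
    (hM : 0 < ∫ x, w x ∂μ) :
    ∃ A : ι → Set ℝ, (∀ i, MeasurableSet (A i)) ∧ (∀ i t, t ∈ A i → 32 ≤ |t|) ∧
      (∃ R, ∀ i t, t ∉ A i → |t| ≤ R) ∧
      ∑ i, ∫ x, (A i).indicator (fun t => t ^ 2) (x i) * w x ∂μ ≤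
        14 * (Ent μ w + ∫ x, U S x * w x ∂μ) ∧
      ∀ i, ∫ x, (A i)ᶜ.indicator (fun t => exp (t ^ 2 / 128)) (x i) * w x ∂μ ≤
        C2 * ∫ x, w x ∂μ := by
  have := hb.prob
  have hS : 0 ≤ S := by linarith [hb.one_le]
  set M := ∫ x, w x ∂μ with hMdef
  set n : ℕ := max 32 ⌈2 * S⌉₊ with hn
  have hn32 : (32 : ℝ) ≤ n := by exact_mod_cast le_max_left _ _
  have hnS : 2 * S ≤ n := (Nat.le_ceil _).trans (by exact_mod_cast le_max_right _ _)
  set m : ι → ℕ → ℝ := fun i j => ∫ x, (lev j).indicator (fun _ => (1 : ℝ)) (x i) * w x ∂μ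
    with hm
  set J : ι → Finset ℕ := fun i =>
    (Finset.Ico 32 n).filter (fun j => M * exp (-((j : ℝ) ^ 2 / 16)) < m i j) with hJ
  set A0 : ι → Set ℝ := fun i => {t : ℝ | ⌊|t|⌋₊ ∈ J i} with hA0
  have hA0m : ∀ i, MeasurableSet (A0 i) := fun i => meas_levs (J i)
  have hbig : MeasurableSet {t : ℝ | (n : ℝ) ≤ |t|} :=
    measurableSet_le measurable_const measurable_abs
  have h32 : ∀ i t, t ∈ A0 i → 32 ≤ |t| := by
    intro i t ht
    have h1 : 32 ≤ ⌊|t|⌋₊ := (Finset.mem_Ico.1 (Finset.mem_filter.1 ht).1).1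
    have h2 := Nat.floor_le (abs_nonneg t)
    have h3 : (32 : ℝ) ≤ ⌊|t|⌋₊ := by exact_mod_cast h1
    linarith
  have hE := Ent_nonneg (μ := μ) h0 (int_of_nonneg_le hw h0 hC) (int_mul_log hw h0 hC)
  have hUw : Integrable (fun x => U S x * w x) μ := int_mul_w hw h0 hC hb.int_U
  refine ⟨fun i => A0 i ∪ {t : ℝ | (n : ℝ) ≤ |t|}, fun i => (hA0m i).union hbig, ?_, ⟨n, ?_⟩,
    ?_, ?_⟩
  · rintro i t (ht | ht)
    · exact h32 i t ht
    · exact hn32.trans ht
  · intro i t ht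
    by_contra h
    exact ht (Or.inr (not_le.1 h).le)
  · have key := atyp_bound hb hw h0 hC hM hA0m h32 (by
      intro i t ht
      have ht' : ⌊|t|⌋₊ ∈ J i := ht
      have h1 := (Finset.mem_filter.1 ht').2
      have h2 : exp (-(t ^ 2 / 16)) ≤ exp (-((⌊|t|⌋₊ : ℝ) ^ 2 / 16)) := by
        refine exp_le_exp.2 (neg_le_neg ?_)
        rw [← sq_abs t]
        gcongr
        exact Nat.floor_le (abs_nonneg t)
      refine (mul_le_mul_of_nonneg_left h2 hM.le).trans (h1.le.trans ?_)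
      refine integral_mono (int_mul_w hw h0 hC (int_ind_one (meas_lev _) i))
        (int_mul_w hw h0 hC (int_ind_one (hA0m i) i)) fun x => ?_
      refine mul_le_mul_of_nonneg_right ?_ (h0 x)
      refine indicator_le_indicator_of_subset (fun u hu => ?_) (fun _ => zero_le_one) _
      have hu' : ⌊|u|⌋₊ = ⌊|t|⌋₊ := hu
      show ⌊|u|⌋₊ ∈ J i
      rw [hu']; exact ht)
    have h1 : ∀ i, ∫ x, (A0 i ∪ {t : ℝ | (n : ℝ) ≤ |t|}).indicator (fun t => t ^ 2) (x i) * w x ∂μ ≤
        ∫ x, (A0 i).indicator (fun t => t ^ 2) (x i) * w x ∂μ +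
          8 * ∫ x, U1 S (x i) * w x ∂μ := by
      intro i
      have i1 := int_mul_w hw h0 hC (hb.int_ind_sq (hA0m i) i)
      have i2 := (int_mul_w hw h0 hC (hb.int_U1 i)).const_mul 8
      rw [← integral_const_mul, ← integral_add i1 i2]
      refine integral_mono (int_mul_w hw h0 hC (hb.int_ind_sq ((hA0m i).union hbig) i))
        (i1.fun_add i2) fun x => ?_
      have hu := mul_nonneg (U1_nonneg S (x i)) (h0 x)
      show _ * w x ≤ _ * w x + 8 * (U1 S (x i) * w x)
      by_cases hx : x i ∈ A0 i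
      · rw [indicator_of_mem hx, indicator_of_mem (mem_union_left _ hx)]; linarith
      · rw [indicator_of_notMem hx]
        by_cases hx' : (n : ℝ) ≤ |x i|
        · rw [indicator_of_mem (mem_union_right _ (show x i ∈ {t : ℝ | (n : ℝ) ≤ |t|} from hx'))]
          have := mul_le_mul_of_nonneg_right (sq_le_U1 hS (hnS.trans hx')) (h0 x)
          linarith
        · rw [indicator_of_notMem (by rintro (h | h); exacts [hx h, hx' h])]
          linarith
    have h2 : ∑ i, ∫ x, U1 S (x i) * w x ∂μ = ∫ x, U S x * w x ∂μ := by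
      rw [← integral_finsetSum _ fun i _ => int_mul_w hw h0 hC (hb.int_U1 i)]
      simp only [U, Finset.sum_mul]
    have h3 := Finset.sum_le_sum fun i (_ : i ∈ Finset.univ) => h1 i
    rw [Finset.sum_add_distrib, ← Finset.mul_sum, h2] at h3
    have h4 : 0 ≤ ∫ x, U S x * w x ∂μ :=
      integral_nonneg fun x => mul_nonneg (U_nonneg S x) (h0 x)
    linarith
  · intro i
    refine typ_bound hw h0 hC i n
      (J := (Finset.Ico 32 n).filter (fun j => ¬ M * exp (-((j : ℝ) ^ 2 / 16)) < m i j))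
      (Finset.filter_subset _ _) (fun j hj => not_lt.1 (Finset.mem_filter.1 hj).2) ?_
    intro t ht
    by_cases h : |t| < 32
    · exact Or.inl h
    · right
      have h1 : ¬ (n : ℝ) ≤ |t| := fun h => ht (Or.inr h)
      have h2 : ⌊|t|⌋₊ ∈ Finset.Ico 32 n := by
        refine Finset.mem_Ico.2 ⟨Nat.le_floor (by exact_mod_cast not_lt.1 h), ?_⟩
        exact (Nat.floor_lt (abs_nonneg t)).2 (not_le.1 h1)
      refine Finset.mem_filter.2 ⟨h2, fun h3 => ht (Or.inl ?_)⟩
      exact Finset.mem_filter.2 ⟨h2, h3⟩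

/-- Second moment under a density. Apply `gibbs` with G x = Σ ((x i)²/4 - U1 S (x i)),
`sq_sub_U1`, and `hb.subG univ`. -/
theorem second_moment {μ : Measure (ι → ℝ)} {S : ℝ} (hb : Base μ S) {w : (ι → ℝ) → ℝ}
    (hw : Measurable w) (h0 : ∀ x, 0 ≤ w x) {C : ℝ} (hC : ∀ x, w x ≤ C) :
    ∫ x, (∑ i, x i ^ 2) * w x ∂μ ≤
      4 * (Ent μ w + ∫ x, U S x * w x ∂μ + (∫ x, w x ∂μ) * (Fintype.card ι * log 4)) := by
  have := hb.prob
  have hS : 0 ≤ S := by linarith [hb.one_le]
  have hsq : Integrable (fun x : ι → ℝ => ∑ i, x i ^ 2) μ :=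
    integrable_finsetSum _ fun i _ => hb.sq i
  have i1 := int_mul_w hw h0 hC hsq
  have i2 : Integrable (fun x => U S x * w x) μ := int_mul_w hw h0 hC hb.int_U
  set G : (ι → ℝ) → ℝ := fun x => (∑ i, x i ^ 2) / 4 - U S x with hG
  have hGc : Continuous G := by
    have := U_cont (ι := ι) S
    rw [hG]; fun_prop
  have hexp : ∀ x, exp (G x) ≤ exp (∑ i, min (x i ^ 2) (S ^ 2) / 2) := by
    intro x
    refine exp_le_exp.2 ?_
    simp only [hG, U, Finset.sum_div, ← Finset.sum_sub_distrib]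
    exact Finset.sum_le_sum fun i _ => sq_sub_U1 hS (x i)
  have hexpi : Integrable (fun x => exp (G x)) μ :=
    (hb.int_subG Finset.univ).mono' hGc.measurable.exp.aestronglyMeasurable
      (Eventually.of_forall fun x => by
        rw [Real.norm_eq_abs, abs_of_pos (exp_pos _)]; exact hexp x)
  have e : (fun x => w x * G x) = fun x => 1 / 4 * ((∑ i, x i ^ 2) * w x) - U S x * w x := by
    funext x; simp only [hG]; ring
  have hwG : Integrable (fun x => w x * G x) μ := by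
    rw [e]; exact (i1.const_mul _).sub' i2
  have key := gibbs h0 (int_of_nonneg_le hw h0 hC) (int_mul_log hw h0 hC) hwG hexpi
    (Z := 4 ^ Fintype.card ι) (by positivity)
    ((integral_mono hexpi (hb.int_subG Finset.univ) hexp).trans (hb.subG Finset.univ))
  rw [e, integral_sub (i1.const_mul _) i2, integral_const_mul, log_pow] at key
  linarith

end Vale.Agent.P245
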