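import Vale.Agent.P245.Orth
import Vale.Agent.P245.Split
import Vale.Agent.P245.Cube

open MeasureTheory Real Set Filter Topology
open scoped ENNReal

namespace Vale.Agent.P245

set_option linter.unusedSectionVars false

variable {ι : Type} [Fintype ι] [DecidableEq ι]

theorem sign_arith {m m' a E c : ℝ} (hm' : 0 < m') (hge : m' ≤ m) (ha0 : 0 ≤ a) (ham : a ≤ m)
    (hE : 0 ≤ E) (hc : 0 < c)
    (h : ∀ l : ℝ, 0 < l → m - m' ≤ a + l * (c * m) + l⁻¹ * (128 * E)) :
    (m - m') ^ 2 / (2 * (m + m')) ≤ a + 512 * c * E := by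
  have hm : 0 < m := hm'.trans_le hge
  rw [div_le_iff₀ (by positivity)]
  have hcE : 0 ≤ c * E := mul_nonneg hc.le hE
  rcases le_or_gt (m - m') a with h1 | h1
  · have h2 : (m - m') ^ 2 ≤ a * m := by nlinarith
    nlinarith [mul_nonneg ha0 hm.le, mul_nonneg ha0 hm'.le, mul_nonneg hcE hm.le,
      mul_nonneg hcE hm'.le]
  · set Y := m - m' - a with hY
    have hY0 : 0 < Y := by linarith
    have h2 := h (Y / (2 * (c * m))) (by positivity)
    have e1 : Y / (2 * (c * m)) * (c * m) = Y / 2 := by field_simp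
    have e2 : (Y / (2 * (c * m)))⁻¹ * (128 * E) = 256 * (c * E * m) / Y := by
      field_simp; ring
    rw [e1, e2] at h2
    have h3 : Y / 2 ≤ 256 * (c * E * m) / Y := by linarith
    rw [le_div_iff₀ hY0] at h3
    have h4 : m - m' = a + Y := by rw [hY]; ring
    rw [h4]
    nlinarith [sq_nonneg (a - Y), mul_nonneg ha0 hm'.le, mul_nonneg hcE hm'.le,
      mul_le_mul_of_nonneg_left ham ha0]

theorem sign_pt {a b l e : ℝ} (hl : 0 < l) (he : 0 < e) {δ : ℝ} (hδ : 0 < δ) :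
    (a ^ 2 + δ) - (b ^ 2 + δ) ≤ l * (e * (a ^ 2 + δ)) + l⁻¹ * ((a - b) ^ 2 * e⁻¹) := by
  have h0 : 0 ≤ (l * e * a - (a - b)) ^ 2 / (l * e) := by positivity
  have e1 : (l * e * a - (a - b)) ^ 2 / (l * e) =
      l * (e * a ^ 2) + l⁻¹ * ((a - b) ^ 2 * e⁻¹) - 2 * a * (a - b) := by
    field_simp; ring
  have h2 : 0 ≤ l * (e * δ) := by positivity
  nlinarith [sq_nonneg (a - b)]

theorem sign_diff {ν : Measure (ι → ℝ)} [IsProbabilityMeasure ν] {a b : (ι → ℝ) → ℝ}
    (ha : Measurable a) (hb : Measurable b) {C : ℝ} (haC : ∀ x, |a x| ≤ C) (hbC : ∀ x, |b x| ≤ C)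
    {δ : ℝ} (hδ : 0 < δ) (i : ι) {A : Set ℝ} (hA : MeasurableSet A) {R : ℝ}
    (hR : ∀ t, t ∉ A → |t| ≤ R)
    (h2 : ∫ x, Aᶜ.indicator (fun t => exp (t ^ 2 / 128)) (x i) * (a x ^ 2 + δ) ∂ν ≤
      C2 * ∫ x, (a x ^ 2 + δ) ∂ν)
    {E : ℝ} (hE0 : 0 ≤ E) (hE : ∫ x, (a x - b x) ^ 2 * exp (-(x i ^ 2 / 128)) ∂ν ≤ 128 * E)
    (hge : ∫ x, (b x ^ 2 + δ) ∂ν ≤ ∫ x, (a x ^ 2 + δ) ∂ν) :
    (∫ x, (a x ^ 2 + δ) ∂ν - ∫ x, (b x ^ 2 + δ) ∂ν) ^ 2 /
        (2 * (∫ x, (a x ^ 2 + δ) ∂ν + ∫ x, (b x ^ 2 + δ) ∂ν)) ≤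
      ∫ x, A.indicator (fun _ => (1 : ℝ)) (x i) * (a x ^ 2 + δ) ∂ν + 512 * C2 * E := by
  have sqb : ∀ {u : (ι → ℝ) → ℝ}, (∀ x, |u x| ≤ C) → ∀ x, u x ^ 2 + δ ≤ C ^ 2 + δ := by
    intro u hu x
    have := pow_le_pow_left₀ (abs_nonneg _) (hu x) 2
    rw [sq_abs] at this; linarith
  have ham : Measurable fun x => a x ^ 2 + δ := (ha.pow_const 2).add_const δ
  have hbm : Measurable fun x => b x ^ 2 + δ := (hb.pow_const 2).add_const δ
  have ha0 : ∀ x, 0 ≤ a x ^ 2 + δ := fun x => by positivity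
  have hb0 : ∀ x, 0 ≤ b x ^ 2 + δ := fun x => by positivity
  have ia := int_of_nonneg_le (μ := ν) ham ha0 (sqb haC)
  have ib := int_of_nonneg_le (μ := ν) hbm hb0 (sqb hbC)
  have i1 := int_mul_w ham ha0 (sqb haC) (int_ind_one (μ := ν) hA i)
  have i2 : Integrable
      (fun x : ι → ℝ => Aᶜ.indicator (fun t => exp (t ^ 2 / 128)) (x i) * (a x ^ 2 + δ)) ν := by
    refine int_mul_w ham ha0 (sqb haC) ?_
    have hm : Measurable fun x : ι → ℝ => Aᶜ.indicator (fun t : ℝ => exp (t ^ 2 / 128)) (x i) :=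
      ((((measurable_id.pow_const 2).div_const 128).exp).indicator hA.compl).comp
        (measurable_pi_apply i)
    refine integrable_of_bdd hm (C := exp (R ^ 2 / 128)) fun x => ?_
    by_cases hx : x i ∈ A
    · rw [indicator_of_notMem (by simpa using hx), abs_zero]; exact (exp_pos _).le
    · rw [indicator_of_mem (by simpa using hx), abs_of_pos (exp_pos _)]
      have := pow_le_pow_left₀ (abs_nonneg _) (hR _ hx) 2
      rw [sq_abs] at this
      exact exp_le_exp.2 (by linarith)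
  have i3 : Integrable (fun x : ι → ℝ => (a x - b x) ^ 2 * exp (-(x i ^ 2 / 128))) ν := by
    have hm : Measurable fun x : ι → ℝ => (a x - b x) ^ 2 * exp (-(x i ^ 2 / 128)) :=
      ((ha.sub hb).pow_const 2).fun_mul
        ((((measurable_pi_apply i).pow_const 2).div_const 128).neg.exp)
    refine int_of_nonneg_le hm (fun x => by positivity) (C := (2 * C) ^ 2) fun x => ?_
    have h1 : |a x - b x| ≤ 2 * C := (abs_sub _ _).trans (by linarith [haC x, hbC x])
    have h3 := pow_le_pow_left₀ (abs_nonneg _) h1 2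
    rw [sq_abs] at h3
    have h4 : exp (-(x i ^ 2 / 128)) ≤ 1 := exp_le_one_iff.2 (by have := sq_nonneg (x i); linarith)
    nlinarith [sq_nonneg (a x - b x), exp_pos (-(x i ^ 2 / 128))]
  have hbpos : 0 < ∫ x, (b x ^ 2 + δ) ∂ν := by
    have : ∫ _x, δ ∂ν ≤ ∫ x, (b x ^ 2 + δ) ∂ν :=
      integral_mono (integrable_const _) ib fun x => by
        have := sq_nonneg (b x); show δ ≤ b x ^ 2 + δ; linarith
    simp only [integral_const, probReal_univ, smul_eq_mul, one_mul] at this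
    linarith
  refine sign_arith hbpos hge (integral_nonneg fun x =>
    mul_nonneg (indicator_nonneg (fun _ _ => zero_le_one) _) (ha0 x)) ?_ hE0
    (by linarith [two_le_C2]) fun l hl => ?_
  · refine integral_mono i1 ia fun x => ?_
    have h1 : A.indicator (fun _ => (1 : ℝ)) (x i) ≤ 1 :=
      indicator_le_self' (fun _ _ => zero_le_one) _
    have := mul_le_mul_of_nonneg_right h1 (ha0 x)
    rw [one_mul] at this
    exact this
  · have key : ∫ x, ((a x ^ 2 + δ) - (b x ^ 2 + δ)) ∂ν ≤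
        ∫ x, (A.indicator (fun _ => (1 : ℝ)) (x i) * (a x ^ 2 + δ) +
          l * (Aᶜ.indicator (fun t => exp (t ^ 2 / 128)) (x i) * (a x ^ 2 + δ)) +
          l⁻¹ * ((a x - b x) ^ 2 * exp (-(x i ^ 2 / 128)))) ∂ν := by
      refine integral_mono (ia.sub' ib) ((i1.fun_add (i2.const_mul _)).fun_add (i3.const_mul _))
        fun x => ?_
      have h3 : 0 ≤ l⁻¹ * ((a x - b x) ^ 2 * exp (-(x i ^ 2 / 128))) := by positivity
      show (a x ^ 2 + δ) - (b x ^ 2 + δ) ≤ _
      by_cases hx : x i ∈ A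
      · simp only [indicator_of_mem hx, indicator_of_notMem (show x i ∉ Aᶜ by simpa using hx)]
        linarith [hb0 x]
      · simp only [indicator_of_notMem hx, indicator_of_mem (show x i ∈ Aᶜ by simpa using hx)]
        have := sign_pt (a := a x) (b := b x) hl (exp_pos (x i ^ 2 / 128)) hδ
        rw [← exp_neg] at this
        linarith
    rw [integral_sub ia ib, integral_add (i1.fun_add (i2.const_mul _)) (i3.const_mul _),
      integral_add i1 (i2.const_mul _), integral_const_mul, integral_const_mul] at key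
    have h5 := mul_le_mul_of_nonneg_left h2 hl.le
    have h6 := mul_le_mul_of_nonneg_left hE (inv_pos.2 hl).le
    linarith

theorem U_flip (S : ℝ) (ε : ι → Bool) (x : ι → ℝ) : U S (flip ε x) = U S x := by
  unfold U U1
  simp only [abs_flip]

theorem ind_one_le {ν : Measure (ι → ℝ)} {S : ℝ} (hb : Base ν S) {w : (ι → ℝ) → ℝ}
    (hw : Measurable w) (h0 : ∀ x, 0 ≤ w x) {C : ℝ} (hC : ∀ x, w x ≤ C) {A : Set ℝ}
    (hA : MeasurableSet A) (h32 : ∀ t, t ∈ A → 32 ≤ |t|) (i : ι) :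
    1024 * ∫ x, A.indicator (fun _ => (1 : ℝ)) (x i) * w x ∂ν ≤
      ∫ x, A.indicator (fun t => t ^ 2) (x i) * w x ∂ν := by
  have := hb.prob
  rw [← integral_const_mul]
  refine integral_mono ((int_mul_w hw h0 hC (int_ind_one hA i)).const_mul _)
    (int_mul_w hw h0 hC (hb.int_ind_sq hA i)) fun x => ?_
  by_cases hx : x i ∈ A
  · simp only [indicator_of_mem hx]
    have h1 := h32 _ hx
    have h2 : 1024 ≤ x i ^ 2 := by rw [← sq_abs]; nlinarith
    have := mul_le_mul_of_nonneg_right h2 (h0 x)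
    linarith
  · simp [indicator_of_notMem hx]

theorem pd_log_sq {f : (ι → ℝ) → ℝ} (hf : Differentiable ℝ f) {δ : ℝ} (hδ : 0 < δ) (i : ι)
    (x : ι → ℝ) : pd (fun y => log (f y ^ 2 + δ)) i x = lp f δ i x := by
  have hpos : f x ^ 2 + δ ≠ 0 := by positivity
  have h1 : HasFDerivAt (fun y => f y ^ 2 + δ) ((2 * f x) • fderiv ℝ f x) x := by
    have := ((hf x).hasFDerivAt.pow 2).add_const δ
    simpa using this
  have h2 := h1.log hpos
  unfold pd lp pd
  rw [h2.fderiv]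
  simp only [smul_apply, smul_eq_mul]
  field_simp

theorem flip_contDiff (ε : ι → Bool) : ContDiff ℝ 1 (flip ε : (ι → ℝ) → ι → ℝ) := by
  refine contDiff_pi.2 fun i => ?_
  unfold flip
  split_ifs
  · exact contDiff_apply ℝ ℝ i
  · exact (contDiff_apply ℝ ℝ i).neg

/-- The entropy carried by the signs. Put w ε x = f(flip ε x)² + δ, m ε = ∫ w ε ∂plus,
H ε = Ent plus (w ε). By `integral_flip`, Ent w = avg H + (cube entropy of m), so
avg H ≤ Ent w by `cube_ent_nonneg`. Take the sets A ε i of `splitting` for (plus, w ε).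
If m ε ≥ m ε' (ε' = tog i ε), a = f(flip ε x), b = f(flip ε' x): a² - b² ≤ w ε on x i ∈ A ε i, and
a² - b² ≤ 2|a||a-b| elsewhere; Cauchy-Schwarz with the weights exp(±(x i)²/128) and `hardy` give
m ε - m ε' ≤ mA + 2 √(128 (e + e') C2 m ε), mA = ∫ w ε 1(x i ∈ A ε i) ≤ X ε i / 1024, mA ≤ m ε.
Hence (m ε - m ε')²/(2(m ε + m ε')) ≤ mA + 512 C2 (e + e'). Sum with `cube_ent_le`
(tog i is an involution), 28/1024 ≤ 1/8. -/
theorem sign_step {V : (ι → ℝ) → ℝ} {S L : ℝ} (hV : Nice V S L) {f : (ι → ℝ) → ℝ} (hf : C1c f)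
    {δ : ℝ} (hδ : 0 < δ) :
    Ent (dens V) (fun x => f x ^ 2 + δ) ≤
      ((2 : ℝ) ^ Fintype.card ι)⁻¹ *
          ∑ ε, Ent (plus (dens V)) (fun x => f (flip ε x) ^ 2 + δ) +
        Cs * En (dens V) f +
        1 / 8 * (Ent (dens V) (fun x => f x ^ 2 + δ) +
          ∫ x, U S x * (f x ^ 2 + δ) ∂(dens V)) := by
  have hVc : Continuous V := hV.smooth.c1.continuous
  have hu := hV.smooth.unc
  have hbμ := hV.base
  have hbν : Base (plus (dens V)) S := base_plus hVc hu hbμ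
  have := hbμ.prob
  have := hbν.prob
  set ν := plus (dens V) with hν
  set N : ℝ := (2 : ℝ) ^ Fintype.card ι with hN
  have hN0 : 0 ≤ N⁻¹ := by positivity
  obtain ⟨C, -, hC⟩ := hf.bdd
  have hfm : Measurable f := hf.cont.measurable
  have sqb : ∀ x, f x ^ 2 + δ ≤ C ^ 2 + δ := by
    intro x
    have := pow_le_pow_left₀ (abs_nonneg _) (hC x) 2
    rw [sq_abs] at this; linarith
  have hw0 : ∀ x, 0 ≤ f x ^ 2 + δ := fun x => by positivity
  have hwm : Measurable fun x => f x ^ 2 + δ := (hfm.pow_const 2).add_const δ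
  have hfε : ∀ ε : ι → Bool, Measurable fun x => f (flip ε x) :=
    fun ε => hfm.comp (flip_cont ε).measurable
  have hwε : ∀ ε : ι → Bool, Measurable fun x => f (flip ε x) ^ 2 + δ :=
    fun ε => ((hfε ε).pow_const 2).add_const δ
  set m : (ι → Bool) → ℝ := fun ε => ∫ x, (f (flip ε x) ^ 2 + δ) ∂ν with hm
  set H : (ι → Bool) → ℝ := fun ε => Ent ν (fun x => f (flip ε x) ^ 2 + δ) with hH
  set Q : (ι → Bool) → ℝ := fun ε => ∫ x, U S x * (f (flip ε x) ^ 2 + δ) ∂ν with hQ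
  set e : (ι → Bool) → ι → ℝ := fun ε i => ∫ x, pd f i (flip ε x) ^ 2 ∂ν with he
  have iw : ∀ ε : ι → Bool, Integrable (fun x => f (flip ε x) ^ 2 + δ) ν :=
    fun ε => int_of_nonneg_le (hwε ε) (fun x => hw0 _) fun x => sqb _
  have hmpos : ∀ ε, 0 < m ε := by
    intro ε
    have : ∫ _x, δ ∂ν ≤ m ε :=
      integral_mono (integrable_const _) (iw ε) fun x => by
        have := sq_nonneg (f (flip ε x)); show δ ≤ f (flip ε x) ^ 2 + δ; linarith
    simp only [integral_const, probReal_univ, smul_eq_mul, one_mul] at this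
    linarith
  have hM : ∫ x, (f x ^ 2 + δ) ∂(dens V) = N⁻¹ * ∑ ε, m ε :=
    (integral_flip hVc hu (int_of_nonneg_le hwm hw0 sqb)).2
  have hL : ∫ x, (f x ^ 2 + δ) * log (f x ^ 2 + δ) ∂(dens V) =
      N⁻¹ * ∑ ε, (H ε + m ε * log (m ε)) := by
    rw [(integral_flip hVc hu (int_mul_log hwm hw0 sqb)).2]
    refine congrArg _ (Finset.sum_congr rfl fun ε _ => ?_)
    simp only [hH, hm, Ent]; ring
  have hU : ∫ x, U S x * (f x ^ 2 + δ) ∂(dens V) = N⁻¹ * ∑ ε, Q ε := by
    rw [(integral_flip hVc hu (int_mul_w hwm hw0 sqb hbμ.int_U)).2]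
    simp only [U_flip]
    rfl
  have hEn : En (dens V) f = ∑ i, N⁻¹ * ∑ ε, e ε i := by
    unfold En
    refine Finset.sum_congr rfl fun i _ => ?_
    exact (integral_flip hVc hu (u := fun x => pd f i x ^ 2)
      (integrable_of_supp ((hf.pd_cont i).pow 2)
        ((hf.pd_supp i).comp_left (g := fun t : ℝ => t ^ 2) (by simp)))).2
  have hEnt : Ent (dens V) (fun x => f x ^ 2 + δ) = N⁻¹ * ∑ ε, H ε +
      (N⁻¹ * ∑ ε, m ε * log (m ε) - (N⁻¹ * ∑ ε, m ε) * log (N⁻¹ * ∑ ε, m ε)) := by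
    unfold Ent
    rw [hL, hM, Finset.sum_add_distrib]; ring
  have hc0 := cube_ent_nonneg m hmpos
  have hc1 := cube_ent_le m hmpos
  rw [← hN] at hc0 hc1
  have hsp := fun ε : ι → Bool => splitting hbν (hwε ε) (fun x => hw0 _) (fun x => sqb _) (hmpos ε)
  choose A hAm hA32 hAR hA1 hA2 using hsp
  set a : (ι → Bool) → ι → ℝ := fun ε i =>
    ∫ x, (A ε i).indicator (fun _ => (1 : ℝ)) (x i) * (f (flip ε x) ^ 2 + δ) ∂ν with ha
  have ha0 : ∀ ε i, 0 ≤ a ε i := fun ε i => integral_nonneg fun x =>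
    mul_nonneg (indicator_nonneg (fun _ _ => zero_le_one) _) (hw0 _)
  have he0 : ∀ ε i, 0 ≤ e ε i := fun ε i => integral_nonneg fun x => sq_nonneg _
  have hone : ∀ i ε, m (tog i ε) ≤ m ε → (m ε - m (tog i ε)) ^ 2 / (2 * (m ε + m (tog i ε))) ≤
      a ε i + 512 * C2 * (e ε i + e (tog i ε) i) := by
    intro i ε hge
    obtain ⟨R, hR⟩ := hAR ε
    exact sign_diff (hfε ε) (hfε (tog i ε)) (fun x => hC _) (fun x => hC _) hδ i (hAm ε i)
      (hR i) (hA2 ε i) (add_nonneg (he0 _ _) (he0 _ _))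
      (hardy hV.smooth.convex hVc hu hbν hf i ε) hge
  have htwo : ∀ i ε, (m ε - m (tog i ε)) ^ 2 / (2 * (m ε + m (tog i ε))) ≤
      a ε i + a (tog i ε) i + 512 * C2 * (e ε i + e (tog i ε) i) := by
    intro i ε
    rcases le_total (m (tog i ε)) (m ε) with h | h
    · linarith [hone i ε h, ha0 (tog i ε) i]
    · have h1 := hone i (tog i ε) (by rw [tog_tog]; exact h)
      rw [tog_tog] at h1
      have e1 : (m ε - m (tog i ε)) ^ 2 / (2 * (m ε + m (tog i ε))) =
          (m (tog i ε) - m ε) ^ 2 / (2 * (m (tog i ε) + m ε)) := by ring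
      rw [e1]
      linarith [ha0 ε i]
  have hsum : ∀ i, ∑ ε, (m ε - m (tog i ε)) ^ 2 / (2 * (m ε + m (tog i ε))) ≤
      2 * ∑ ε, a ε i + Cs * ∑ ε, e ε i := by
    intro i
    refine (Finset.sum_le_sum fun ε _ => htwo i ε).trans (le_of_eq ?_)
    rw [Finset.sum_add_distrib, Finset.sum_add_distrib, ← Finset.mul_sum, Finset.sum_add_distrib,
      sum_tog i (fun ε => a ε i), sum_tog i (fun ε => e ε i)]
    unfold Cs; ring
  have haH : ∀ ε, 1024 * ∑ i, a ε i ≤ 14 * (H ε + Q ε) := by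
    intro ε
    refine le_trans ?_ (hA1 ε)
    rw [Finset.mul_sum]
    exact Finset.sum_le_sum fun i _ =>
      ind_one_le hbν (hwε ε) (fun x => hw0 _) (fun x => sqb _) (hAm ε i) (hA32 ε i) i
  have h1 : ∑ i, N⁻¹ * ∑ ε, (m ε - m (tog i ε)) ^ 2 / (2 * (m ε + m (tog i ε))) ≤
      2 * (N⁻¹ * ∑ ε, ∑ i, a ε i) + Cs * En (dens V) f := by
    refine (Finset.sum_le_sum fun i _ => mul_le_mul_of_nonneg_left (hsum i) hN0).trans
      (le_of_eq ?_)
    rw [hEn, Finset.sum_comm, Finset.mul_sum, Finset.mul_sum, Finset.mul_sum,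
      ← Finset.sum_add_distrib]
    exact Finset.sum_congr rfl fun i _ => by ring
  have h2 : 1024 * (N⁻¹ * ∑ ε, ∑ i, a ε i) ≤ 14 * (N⁻¹ * ∑ ε, H ε + N⁻¹ * ∑ ε, Q ε) := by
    have h3 := Finset.sum_le_sum fun ε (_ : ε ∈ Finset.univ) => haH ε
    rw [← Finset.mul_sum, ← Finset.mul_sum, Finset.sum_add_distrib] at h3
    have := mul_le_mul_of_nonneg_left h3 hN0
    linarith
  have h3 : 0 ≤ N⁻¹ * ∑ ε, ∑ i, a ε i :=
    mul_nonneg hN0 (Finset.sum_nonneg fun ε _ => Finset.sum_nonneg fun i _ => ha0 ε i)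
  rw [hU]
  change _ ≤ N⁻¹ * ∑ ε, H ε + _ + _
  linarith

/-- The master inequality. Apply `pl_orth` on each orthant to g = log (f(flip ε x)² + δ), with
Φ replaced by the indicator of a cube containing the support of f times Φ ∘ flip ε (outside that
cube `lp = 0` and `gain 0 u ≤ 0`), and W T = Σ W i (T i); use `pd_flip`, `integral_flip`,
`integral_unc`, `base_plus` and `sign_step`. -/
theorem master {V : (ι → ℝ) → ℝ} {S L : ℝ} (hV : Nice V S L) {f : (ι → ℝ) → ℝ} (hf : C1c f)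
    {δ : ℝ} (hδ : 0 < δ) {Φ : (ι → ℝ) → ℝ} {W : ι → ℝ → ℝ} (hΦm : Measurable Φ)
    (hΦ0 : ∀ x, 0 ≤ Φ x) {C : ℝ} (hΦb : ∀ x, Φ x ≤ C * (1 + ∑ i, x i ^ 2))
    (hWm : ∀ i, Measurable (W i)) (hW0 : ∀ i t, 0 ≤ W i t)
    (hWi : ∀ i, Integrable (fun x : ι → ℝ => W i |x i|) (dens V))
    (hpt : ∀ x : ι → ℝ, (∀ i, x i ≠ 0) → ∀ T : ι → ℝ, (∀ i, 0 < T i) →
      ∑ i, gain (lp f δ i x * x i) (√(T i / |x i|)) ≤ Φ x + ∑ i, W i (T i)) :
    Ent (dens V) (fun x => f x ^ 2 + δ) ≤
      ∫ x, Φ x * (f x ^ 2 + δ) ∂(dens V) +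
        (∫ x, (f x ^ 2 + δ) ∂(dens V)) * ∑ i, ∫ x, W i |x i| ∂(dens V) +
        Cs * En (dens V) f +
        1 / 8 * (Ent (dens V) (fun x => f x ^ 2 + δ) +
          ∫ x, U S x * (f x ^ 2 + δ) ∂(dens V)) := by
  have hVc : Continuous V := hV.smooth.c1.continuous
  have hu := hV.smooth.unc
  have hbμ := hV.base
  have hbν : Base (plus (dens V)) S := base_plus hVc hu hbμ
  have := hbμ.prob
  have := hbν.prob
  have hstep := sign_step hV hf hδ
  set ν := plus (dens V) with hν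
  set N : ℝ := (2 : ℝ) ^ Fintype.card ι with hN
  have hN0 : 0 ≤ N⁻¹ := by positivity
  obtain ⟨B, -, hB⟩ := hf.bdd
  obtain ⟨R, hR0, hR⟩ := exists_cube hf.2
  have hfm : Measurable f := hf.cont.measurable
  have sqb : ∀ x, f x ^ 2 + δ ≤ B ^ 2 + δ := by
    intro x
    have := pow_le_pow_left₀ (abs_nonneg _) (hB x) 2
    rw [sq_abs] at this; linarith
  have hwp : ∀ x, 0 < f x ^ 2 + δ := fun x => by positivity
  have hw0 : ∀ x, 0 ≤ f x ^ 2 + δ := fun x => (hwp x).le
  have hwm : Measurable fun x => f x ^ 2 + δ := (hfm.pow_const 2).add_const δ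
  have hC0 : 0 ≤ C := by
    have := (hΦ0 0).trans (hΦb 0)
    simpa using this
  have hout : ∀ (ε : ι → Bool) (x : ι → ℝ), x ∉ Metric.closedBall (0 : ι → ℝ) R →
      f (flip ε x) = 0 := by
    intro ε x hx
    by_contra h
    refine hx ?_
    rw [mem_closedBall_zero_iff, pi_norm_le_iff_of_nonneg hR0]
    intro i
    rw [Real.norm_eq_abs, ← abs_flip ε]
    exact hR _ (subset_tsupport _ h) i
  have iΦ : Integrable (fun x => Φ x * (f x ^ 2 + δ)) (dens V) :=
    int_mul_w hwm hw0 sqb (hbμ.int_of_quad hΦm (C := C) fun x => by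
      rw [abs_of_nonneg (hΦ0 x)]; exact hΦb x)
  obtain ⟨iΦε, hΦeq⟩ := integral_flip hVc hu iΦ
  have hM := (integral_flip hVc hu (int_of_nonneg_le hwm hw0 sqb)).2
  have iW : Integrable (fun x : ι → ℝ => ∑ i, W i |x i|) (dens V) :=
    integrable_finsetSum _ fun i _ => hWi i
  obtain ⟨iWν, hWeq⟩ := integral_unc hVc hu iW (fun x y h => by simp only [h])
  rw [integral_finsetSum _ fun i _ => hWi i] at hWeq
  have hWm' : Measurable fun x : ι → ℝ => ∑ i, W i |x i| :=
    Finset.measurable_sum _ fun i _ => (hWm i).comp (measurable_pi_apply i).abs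
  have hGd : Differentiable ℝ fun y => log (f y ^ 2 + δ) :=
    ((hf.diff.pow 2).add_const δ).log fun y => (hwp y).ne'
  have key : ∀ ε : ι → Bool, Ent ν (fun x => f (flip ε x) ^ 2 + δ) ≤
      ∫ x, Φ (flip ε x) * (f (flip ε x) ^ 2 + δ) ∂ν +
        (∫ x, (f (flip ε x) ^ 2 + δ) ∂ν) * ∑ i, ∫ x, W i |x i| ∂(dens V) := by
    intro ε
    have hg : ContDiff ℝ 1 fun x => log (f (flip ε x) ^ 2 + δ) :=
      (((hf.1.comp (flip_contDiff ε)).pow 2).add contDiff_const).log fun x => (hwp _).ne'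
    have hgc : HasCompactSupport fun x => log (f (flip ε x) ^ 2 + δ) - log δ := by
      refine HasCompactSupport.intro (isCompact_closedBall (0 : ι → ℝ) R) fun x hx => ?_
      rw [hout ε x hx]; simp
    have hΦεm : Measurable ((Metric.closedBall (0 : ι → ℝ) R).indicator fun x => Φ (flip ε x)) :=
      (hΦm.comp (flip_cont ε).measurable).indicator measurableSet_closedBall
    have hΦεb : ∀ x, |((Metric.closedBall (0 : ι → ℝ) R).indicator fun x => Φ (flip ε x)) x| ≤
        C * (1 + ∑ _i : ι, R ^ 2) := by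
      intro x
      by_cases hx : x ∈ Metric.closedBall (0 : ι → ℝ) R
      · rw [indicator_of_mem hx, abs_of_nonneg (hΦ0 _)]
        refine (hΦb _).trans (mul_le_mul_of_nonneg_left ?_ hC0)
        refine add_le_add le_rfl (Finset.sum_le_sum fun i _ => ?_)
        rw [mem_closedBall_zero_iff, pi_norm_le_iff_of_nonneg hR0] at hx
        rw [← sq_abs, abs_flip]
        exact pow_le_pow_left₀ (abs_nonneg _) (hx i) 2
      · rw [indicator_of_notMem hx, abs_zero]
        exact mul_nonneg hC0 (by positivity)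
    have h1 := pl_orth hV.smooth.convex hVc hu hbν hg hgc hΦεm hΦεb hWm'
      (fun x => Finset.sum_nonneg fun i _ => hW0 _ _) iWν (by
        intro x hx T hT
        have e1 : ∀ i, pd (fun x => log (f (flip ε x) ^ 2 + δ)) i x * x i =
            lp f δ i (flip ε x) * flip ε x i := by
          intro i
          rw [← pd_log_sq hf.diff hδ]
          exact pd_flip hGd ε i x
        have e2 : ∀ i, |flip ε x i| = x i := fun i => by rw [abs_flip, abs_of_pos (hx i)]
        have e3 : ∀ i, |T i| = T i := fun i => abs_of_pos (hT i)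
        simp only [e1, e3]
        by_cases hxb : x ∈ Metric.closedBall (0 : ι → ℝ) R
        · rw [indicator_of_mem hxb]
          have h2 := hpt (flip ε x) (fun i h => by
            have := e2 i
            rw [h, abs_zero] at this
            exact (hx i).ne this) T hT
          simpa only [e2] using h2
        · rw [indicator_of_notMem hxb, zero_add]
          refine le_trans (Finset.sum_nonpos fun i _ => ?_) (Finset.sum_nonneg fun i _ => hW0 _ _)
          have h3 := Real.log_le_sub_one_of_pos (Real.sqrt_pos.2 (div_pos (hT i) (hx i)))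
          unfold gain lp
          rw [hout ε x hxb]
          simp only [mul_zero, zero_mul, zero_div]
          linarith)
    simp only [exp_log (hwp _)] at h1
    rw [hWeq] at h1
    refine h1.trans (add_le_add ?_ le_rfl)
    refine integral_mono_of_nonneg (Eventually.of_forall fun x =>
      mul_nonneg (indicator_nonneg (fun _ _ => hΦ0 _) _) (hw0 _)) (iΦε ε)
      (Eventually.of_forall fun x => ?_)
    exact mul_le_mul_of_nonneg_right (indicator_le_self' (fun _ _ => hΦ0 _) _) (hw0 _)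
  have h3 := Finset.sum_le_sum fun ε (_ : ε ∈ Finset.univ) => key ε
  rw [Finset.sum_add_distrib, ← Finset.sum_mul] at h3
  have h4 := mul_le_mul_of_nonneg_left h3 hN0
  rw [mul_add, ← mul_assoc, ← hΦeq, ← hM] at h4
  linarith

end Vale.Agent.P245
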