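import Vale.Agent.P245.PLOrth

open MeasureTheory Real Set Filter Topology
open scoped ENNReal

namespace Vale.Agent.P245

set_option linter.unusedSectionVars false

variable {ι : Type} [Fintype ι] [DecidableEq ι]

theorem flip_flip_self (ε : ι → Bool) (x : ι → ℝ) : flip ε (flip ε x) = x := by
  funext i
  unfold flip
  split_ifs <;> simp

/-- Sign change as a measurable equivalence. -/
def flipEquiv (ε : ι → Bool) : (ι → ℝ) ≃ᵐ (ι → ℝ) where
  toFun := flip ε
  invFun := flip ε
  left_inv := flip_flip_self ε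
  right_inv := flip_flip_self ε
  measurable_toFun := (flip_cont ε).measurable
  measurable_invFun := (flip_cont ε).measurable

theorem flip_vol (ε : ι → Bool) :
    MeasurePreserving (flip ε : (ι → ℝ) → ι → ℝ) volume volume := by
  refine volume_preserving_pi (f := fun i (t : ℝ) => if ε i then t else -t) fun i => ?_
  split_ifs
  · exact MeasurePreserving.id _
  · exact Measure.measurePreserving_neg _

theorem flip_dens {V : (ι → ℝ) → ℝ} (hV : Continuous V) (hu : Unc V) (ε : ι → Bool) :
    MeasurePreserving (flip ε : (ι → ℝ) → ι → ℝ) (dens V) (dens V) := by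
  refine ⟨(flip_cont ε).measurable, ?_⟩
  ext s hs
  have hm : Measurable fun x => ENNReal.ofReal (exp (-V x)) := by fun_prop
  rw [Measure.map_apply (flip_cont ε).measurable hs]
  unfold dens mu
  rw [withDensity_apply _ ((flip_cont ε).measurable hs), withDensity_apply _ hs,
    ← (flip_vol ε).setLIntegral_comp_preimage hs hm]
  refine lintegral_congr fun x => ?_
  rw [hu (flip ε x) x (abs_flip ε x)]

theorem sum_indicator_flip (u : (ι → ℝ) → ℝ) {x : ι → ℝ} (hx : ∀ i, x i ≠ 0) :
    u x = ∑ ε : ι → Bool, (flip ε ⁻¹' orth ι).indicator u x := by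
  rw [Finset.sum_eq_single (fun i => decide (0 < x i))]
  · rw [indicator_of_mem]
    intro i
    unfold flip
    by_cases h : 0 < x i
    · simp [h]
    · simpa [h] using lt_of_le_of_ne (not_lt.1 h) (hx i)
  · intro ε _ hε
    refine indicator_of_notMem (fun h => hε (funext fun i => ?_)) _
    have h1 : 0 < flip ε x i := h i
    unfold flip at h1
    cases h2 : ε i
    · rw [h2] at h1
      simp only [Bool.false_eq_true, if_false] at h1
      simp only [Bool.false_eq, decide_eq_false_iff_not]
      linarith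
    · rw [h2] at h1
      simpa using h1
  · intro h
    exact absurd (Finset.mem_univ _) h

/-- Decomposition of an unconditional measure into orthants (the coordinate hyperplanes are
null, sign changes preserve Lebesgue measure). -/
theorem integral_flip {V : (ι → ℝ) → ℝ} (hV : Continuous V) (hu : Unc V) {u : (ι → ℝ) → ℝ}
    (hi : Integrable u (dens V)) :
    (∀ ε, Integrable (fun x => u (flip ε x)) (plus (dens V))) ∧
      ∫ x, u x ∂(dens V) =
        ((2 : ℝ) ^ Fintype.card ι)⁻¹ * ∑ ε, ∫ x, u (flip ε x) ∂(plus (dens V)) := by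
  have hmeas : ∀ ε : ι → Bool, MeasurableSet (flip ε ⁻¹' orth ι) := fun ε =>
    (flip_cont ε).measurable measurableSet_orth
  have hi' : ∀ ε : ι → Bool, Integrable (fun x => u (flip ε x)) (dens V) := fun ε =>
    (flip_dens hV hu ε).integrable_comp_of_integrable hi
  refine ⟨fun ε => (hi' ε).restrict.smul_measure (by simp), ?_⟩
  have hae : ∀ᵐ x ∂(dens V), ∀ i, x i ≠ 0 :=
    (withDensity_absolutelyContinuous _ _).ae_le
      (ae_all_iff.2 fun i => Measure.ae_eval_ne (fun _ : ι => (volume : Measure ℝ)) i 0)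
  rw [integral_congr_ae (hae.mono fun x hx => sum_indicator_flip u hx),
    integral_finsetSum _ fun ε _ => hi.indicator (hmeas ε), Finset.mul_sum]
  refine Finset.sum_congr rfl fun ε _ => ?_
  rw [← (flip_dens hV hu ε).integral_comp (flipEquiv ε).measurableEmbedding]
  unfold plus
  rw [integral_smul_measure, ← integral_indicator measurableSet_orth, smul_eq_mul,
    ENNReal.toReal_pow, ENNReal.toReal_ofNat, inv_mul_cancel_left₀ (by positivity)]
  refine integral_congr_ae (Eventually.of_forall fun x => ?_)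
  beta_reduce
  by_cases hx : x ∈ orth ι
  · rw [indicator_of_mem hx, indicator_of_mem]
    rwa [mem_preimage, flip_flip_self]
  · rw [indicator_of_notMem hx, indicator_of_notMem]
    rwa [mem_preimage, flip_flip_self]

theorem integral_unc {V : (ι → ℝ) → ℝ} (hV : Continuous V) (hu : Unc V) {u : (ι → ℝ) → ℝ}
    (hi : Integrable u (dens V)) (huu : Unc u) :
    Integrable u (plus (dens V)) ∧ ∫ x, u x ∂(plus (dens V)) = ∫ x, u x ∂(dens V) := by
  obtain ⟨h1, h2⟩ := integral_flip hV hu hi
  have e : ∀ (ε : ι → Bool) x, u (flip ε x) = u x := fun ε x => huu _ _ (abs_flip ε x)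
  simp only [e] at h1 h2
  refine ⟨h1 fun _ => true, ?_⟩
  rw [h2, Finset.sum_const, Finset.card_univ, Fintype.card_fun, Fintype.card_bool, nsmul_eq_mul]
  push_cast
  rw [inv_mul_cancel_left₀ (by positivity)]

theorem base_plus {V : (ι → ℝ) → ℝ} {S : ℝ} (hV : Continuous V) (hu : Unc V)
    (hb : Base (dens V) S) : Base (plus (dens V)) S := by
  have := hb.prob
  refine ⟨?_, hb.one_le, fun i => ?_, fun B => ?_⟩
  · have h := (integral_unc hV hu (u := fun _ => 1) (integrable_const _) fun _ _ _ => rfl).2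
    rw [isProbabilityMeasure_iff_real]
    simpa using h
  · exact (integral_unc hV hu (hb.sq i) fun x y h => by rw [← sq_abs, h i, sq_abs]).1
  · rw [(integral_unc hV hu (u := fun x => exp (∑ i ∈ B, min (x i ^ 2) (S ^ 2) / 2)) ?_ ?_).2]
    · exact hb.subG B
    · refine integrable_of_bdd (by fun_prop) (C := exp (∑ _i ∈ B, S ^ 2 / 2)) fun x => ?_
      rw [abs_of_pos (exp_pos _)]
      gcongr
      exact min_le_right _ _
    · intro x y h
      have e : ∀ i, x i ^ 2 = y i ^ 2 := fun i => by rw [← sq_abs, h i, sq_abs]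
      simp only [e]

theorem ae_orth (μ : Measure (ι → ℝ)) : ∀ᵐ x ∂(plus μ), x ∈ orth ι := by
  exact Measure.ae_smul_measure (ae_restrict_mem measurableSet_orth) _

/-- Sign change as a continuous linear map. -/
noncomputable def flipL (ε : ι → Bool) : (ι → ℝ) →L[ℝ] (ι → ℝ) :=
  ContinuousLinearMap.pi fun i =>
    if ε i then ContinuousLinearMap.proj i else -ContinuousLinearMap.proj i

theorem flipL_apply (ε : ι → Bool) (x : ι → ℝ) : flipL ε x = flip ε x := by
  funext i
  unfold flipL flip
  rw [ContinuousLinearMap.pi_apply]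
  split_ifs <;> simp

theorem flip_single (ε : ι → Bool) (i : ι) :
    flip ε (Pi.single i 1) = (if ε i then (1 : ℝ) else -1) • (Pi.single i 1 : ι → ℝ) := by
  funext j
  unfold flip
  by_cases h : j = i
  · subst h
    split_ifs <;> simp
  · split_ifs <;> simp [h]

theorem diff_flip {f : (ι → ℝ) → ℝ} (hf : Differentiable ℝ f) (ε : ι → Bool) :
    Differentiable ℝ (fun y => f (flip ε y)) := by
  have e : (fun y => f (flip ε y)) = f ∘ flipL ε := funext fun y => by
    rw [Function.comp_apply, flipL_apply]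
  rw [e]
  exact hf.comp (flipL ε).differentiable

theorem pd_flip' {f : (ι → ℝ) → ℝ} (hf : Differentiable ℝ f) (ε : ι → Bool) (i : ι) (x : ι → ℝ) :
    pd (fun y => f (flip ε y)) i x = (if ε i then (1 : ℝ) else -1) * pd f i (flip ε x) := by
  have h := (hf (flipL ε x)).hasFDerivAt.comp x (flipL ε).hasFDerivAt
  have e : (fun y => f (flip ε y)) = f ∘ flipL ε := funext fun y => by
    rw [Function.comp_apply, flipL_apply]
  unfold pd
  rw [e, h.fderiv, ContinuousLinearMap.comp_apply, flipL_apply, flipL_apply, flip_single, map_smul,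
    smul_eq_mul]

theorem pd_flip {f : (ι → ℝ) → ℝ} (hf : Differentiable ℝ f) (ε : ι → Bool) (i : ι) (x : ι → ℝ) :
    pd (fun y => f (flip ε y)) i x * x i = pd f i (flip ε x) * flip ε x i := by
  rw [pd_flip' hf]
  unfold flip
  split_ifs <;> ring

theorem sq_int_le {d : ℝ → ℝ} (hd : Continuous d) {t : ℝ} (ht : 0 < t) :
    (∫ u in (0 : ℝ)..t, d u) ^ 2 ≤ t * ∫ u in (0 : ℝ)..t, d u ^ 2 := by
  set I := ∫ u in (0 : ℝ)..t, d u with hI
  have h1 : 0 ≤ ∫ u in (0 : ℝ)..t, (t * d u - I) ^ 2 :=
    intervalIntegral.integral_nonneg ht.le fun _ _ => sq_nonneg _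
  have e : ∀ u, (t * d u - I) ^ 2 = t ^ 2 * d u ^ 2 - 2 * t * I * d u + I ^ 2 := fun u => by ring
  simp only [e] at h1
  rw [intervalIntegral.integral_add (Continuous.intervalIntegrable (by fun_prop) _ _)
    (Continuous.intervalIntegrable (by fun_prop) _ _),
    intervalIntegral.integral_sub (Continuous.intervalIntegrable (by fun_prop) _ _)
    (Continuous.intervalIntegrable (by fun_prop) _ _), intervalIntegral.integral_const_mul,
    intervalIntegral.integral_const_mul, intervalIntegral.integral_const, ← hI, smul_eq_mul] at h1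
  refine le_of_mul_le_mul_left ?_ ht
  nlinarith

theorem lintegral_gauss_weight :
    ∫⁻ t in Ioi (0 : ℝ), ENNReal.ofReal (2 * t * exp (-(t ^ 2 / 128))) = ENNReal.ofReal 128 := by
  have hd : ∀ t ∈ Ici (0 : ℝ), HasDerivAt (fun t : ℝ => -128 * exp (-(t ^ 2 / 128)))
      (2 * t * exp (-(t ^ 2 / 128))) t := by
    intro t _
    refine ((((hasDerivAt_pow 2 t).div_const 128).neg.exp).const_mul (-128)).congr_deriv ?_
    simp only [Pi.neg_apply]
    ring
  have h0 : ∀ t ∈ Ioi (0 : ℝ), 0 ≤ 2 * t * exp (-(t ^ 2 / 128)) := fun t ht => by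
    have : 0 < t := ht
    positivity
  have hl : Tendsto (fun t : ℝ => -128 * exp (-(t ^ 2 / 128))) atTop (𝓝 (-128 * 0)) :=
    (tendsto_exp_neg_atTop_nhds_zero.comp ((tendsto_pow_atTop two_ne_zero).atTop_div_const
      (by norm_num))).const_mul _
  rw [← ofReal_integral_eq_lintegral_ofReal (integrableOn_Ioi_deriv_of_nonneg' hd h0 hl)
    (ae_restrict_of_forall_mem measurableSet_Ioi h0), integral_Ioi_of_hasDerivAt_of_nonneg' hd h0 hl]
  simp

theorem hardy_one {a b a' b' ρ : ℝ → ℝ} (ha : ∀ t, HasDerivAt a (a' t) t)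
    (hb : ∀ t, HasDerivAt b (b' t) t) (ca : Continuous a') (cb : Continuous b') (h0 : a 0 = b 0)
    (cρ : Continuous ρ) (hρ : ∀ t, 0 ≤ ρ t) (hm : ∀ u t, 0 ≤ u → u ≤ t → ρ t ≤ ρ u) :
    ∫⁻ t in Ioi (0 : ℝ), ENNReal.ofReal (ρ t) *
        ENNReal.ofReal ((a t - b t) ^ 2 * exp (-(t ^ 2 / 128))) ≤
      ∫⁻ t in Ioi (0 : ℝ), ENNReal.ofReal (ρ t) * ENNReal.ofReal (128 * (a' t ^ 2 + b' t ^ 2)) := by
  set J := ∫⁻ t in Ioi (0 : ℝ), ENNReal.ofReal (ρ t * (a' t ^ 2 + b' t ^ 2)) with hJ
  have key : ∀ t ∈ Ioi (0 : ℝ), ENNReal.ofReal (ρ t) *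
      ENNReal.ofReal ((a t - b t) ^ 2 * exp (-(t ^ 2 / 128))) ≤
      ENNReal.ofReal (2 * t * exp (-(t ^ 2 / 128))) * J := by
    intro t ht
    have ht0 : 0 < t := ht
    have h1 : ∫ u in (0 : ℝ)..t, (a' u - b' u) = (a t - b t) - (a 0 - b 0) :=
      intervalIntegral.integral_eq_sub_of_hasDerivAt (fun u _ => (ha u).sub (hb u))
        ((ca.sub cb).intervalIntegrable _ _)
    have h2 := sq_int_le (d := fun u => a' u - b' u) (ca.sub cb) ht0
    rw [h1, h0, sub_self, sub_zero] at h2
    have h3 : ρ t * ∫ u in (0 : ℝ)..t, (a' u - b' u) ^ 2 ≤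
        2 * ∫ u in (0 : ℝ)..t, ρ u * (a' u ^ 2 + b' u ^ 2) := by
      rw [← intervalIntegral.integral_const_mul, ← intervalIntegral.integral_const_mul]
      refine intervalIntegral.integral_mono_on ht0.le
        (Continuous.intervalIntegrable (by fun_prop) _ _)
        (Continuous.intervalIntegrable (by fun_prop) _ _) fun u hu => ?_
      have b1 := hm u t hu.1 hu.2
      have b2 : (a' u - b' u) ^ 2 ≤ 2 * (a' u ^ 2 + b' u ^ 2) := by
        nlinarith [sq_nonneg (a' u + b' u)]
      nlinarith [mul_le_mul b1 b2 (sq_nonneg _) (hρ u)]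
    have h4 : ENNReal.ofReal (∫ u in (0 : ℝ)..t, ρ u * (a' u ^ 2 + b' u ^ 2)) ≤ J := by
      rw [intervalIntegral.integral_of_le ht0.le, ofReal_integral_eq_lintegral_ofReal
        (Continuous.integrableOn_Ioc (by fun_prop))
        (Eventually.of_forall fun u => mul_nonneg (hρ u) (by positivity))]
      exact lintegral_mono_set Ioc_subset_Ioi_self
    refine le_trans ?_ (mul_le_mul_right h4 _)
    rw [← ENNReal.ofReal_mul (hρ t), ← ENNReal.ofReal_mul (by positivity)]
    refine ENNReal.ofReal_le_ofReal ?_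
    have h5 : ρ t * (a t - b t) ^ 2 ≤
        2 * t * ∫ u in (0 : ℝ)..t, ρ u * (a' u ^ 2 + b' u ^ 2) := by
      nlinarith [mul_le_mul_of_nonneg_left h2 (hρ t), mul_le_mul_of_nonneg_left h3 ht0.le]
    nlinarith [mul_le_mul_of_nonneg_right h5 (exp_pos (-(t ^ 2 / 128))).le]
  refine le_trans (setLIntegral_mono' measurableSet_Ioi key) ?_
  rw [lintegral_mul_const _ (by fun_prop), lintegral_gauss_weight, hJ,
    ← lintegral_const_mul _ (by fun_prop)]
  refine le_of_eq (lintegral_congr fun t => ?_)
  rw [← ENNReal.ofReal_mul (by norm_num), ← ENNReal.ofReal_mul (hρ t)]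
  congr 1
  ring

theorem hasDerivAt_update_pd {F : (ι → ℝ) → ℝ} (hF : Differentiable ℝ F) (x : ι → ℝ) (i : ι)
    (t : ℝ) : HasDerivAt (fun t => F (Function.update x i t))
      (pd F i (Function.update x i t)) t :=
  (hF _).hasFDerivAt.comp_hasDerivAt t (hasDerivAt_update x i t)

theorem lintegral_orth_update (G : (ι → ℝ) → ℝ≥0∞) {x : ι → ℝ} {i : ι}
    (hx : ∀ j, j ≠ i → 0 < x j) :
    ∫⁻ t, (orth ι).indicator G (Function.update x i t) =
      ∫⁻ t in Ioi (0 : ℝ), G (Function.update x i t) := by
  rw [← lintegral_indicator measurableSet_Ioi]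
  refine lintegral_congr fun t => ?_
  by_cases ht : t ∈ Ioi (0 : ℝ)
  · rw [indicator_of_mem ht, indicator_of_mem]
    intro j
    by_cases hj : j = i
    · subst hj
      simpa using ht
    · rw [Function.update_of_ne hj]
      exact hx j hj
  · rw [indicator_of_notMem ht, indicator_of_notMem]
    intro h
    simpa using ht (by simpa using h i)

/-- Hardy-type inequality across a coordinate hyperplane. For x in the orthant,
(f(εx) - f(ε'x))² ≤ 2 x_i ∫_0^{x_i} (h + h')(update x i u) du with h = (pd f i ∘ flip ε)²; the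
density is nonincreasing in x_i > 0 (`unc_mono`) and ∫_0^∞ 2 t exp(-t²/128) dt = 128.
Use `lintegral_le_of_lmarginal_le` with s = {i} (or any Fubini along the coordinate i). -/
theorem hardy {V : (ι → ℝ) → ℝ} {S : ℝ} (hc : ConvexOn ℝ univ V) (hV : Continuous V) (hu : Unc V)
    (hb : Base (plus (dens V)) S) {f : (ι → ℝ) → ℝ} (hf : C1c f) (i : ι) (ε : ι → Bool) :
    ∫ x, (f (flip ε x) - f (flip (tog i ε) x)) ^ 2 * exp (-(x i ^ 2 / 128)) ∂(plus (dens V)) ≤
      128 * (∫ x, pd f i (flip ε x) ^ 2 ∂(plus (dens V)) +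
        ∫ x, pd f i (flip (tog i ε) x) ^ 2 ∂(plus (dens V))) := by
  have := hb.prob
  set μ := plus (dens V) with hμ
  obtain ⟨A, hA0, hA⟩ := hf.bdd
  obtain ⟨D, hD0, hD⟩ := hf.pd_bdd i
  have cf := hf.cont
  have cp := hf.pd_cont i
  have c1 := flip_cont ε
  have c2 := flip_cont (tog i ε)
  have cL : Continuous fun x : ι → ℝ =>
      (f (flip ε x) - f (flip (tog i ε) x)) ^ 2 * exp (-(x i ^ 2 / 128)) := by fun_prop
  have cR : Continuous fun x : ι → ℝ =>
      128 * (pd f i (flip ε x) ^ 2 + pd f i (flip (tog i ε) x) ^ 2) := by fun_prop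
  have iL : Integrable (fun x : ι → ℝ =>
      (f (flip ε x) - f (flip (tog i ε) x)) ^ 2 * exp (-(x i ^ 2 / 128))) μ := by
    refine int_of_nonneg_le cL.measurable (fun x => by positivity) (C := (2 * A) ^ 2 * 1)
      fun x => ?_
    refine mul_le_mul ?_ (exp_le_one_iff.2 (neg_nonpos.2 (by positivity))) (exp_pos _).le
      (sq_nonneg _)
    rw [← sq_abs]
    gcongr
    linarith [abs_sub (f (flip ε x)) (f (flip (tog i ε) x)), hA (flip ε x), hA (flip (tog i ε) x)]
  have iP : ∀ e : ι → Bool, Integrable (fun x : ι → ℝ => pd f i (flip e x) ^ 2) μ := fun e => by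
    refine int_of_nonneg_le ((cp.comp (flip_cont e)).pow 2).measurable (fun x => by positivity)
      (C := D ^ 2) fun x => ?_
    rw [← sq_abs]
    gcongr
    exact hD _
  have iR : Integrable (fun x : ι → ℝ =>
      128 * (pd f i (flip ε x) ^ 2 + pd f i (flip (tog i ε) x) ^ 2)) μ :=
    ((iP ε).add (iP (tog i ε))).const_mul 128
  rw [← integral_add (iP ε) (iP (tog i ε)), ← integral_const_mul,
    ← ENNReal.ofReal_le_ofReal_iff (integral_nonneg fun x => by positivity),
    ofReal_integral_eq_lintegral_ofReal iL (Eventually.of_forall fun x => by positivity),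
    ofReal_integral_eq_lintegral_ofReal iR (Eventually.of_forall fun x => by positivity),
    lintegral_plus hV cL.measurable.ennreal_ofReal, lintegral_plus hV cR.measurable.ennreal_ofReal,
    ← lintegral_indicator measurableSet_orth, ← lintegral_indicator measurableSet_orth]
  refine mul_le_mul_right ?_ _
  have mV : Measurable fun x => ENNReal.ofReal (exp (-V x)) := by fun_prop
  refine lintegral_le_of_lmarginal_le (μ := fun _ : ι => (volume : Measure ℝ)) {i}
    ((mV.mul cL.measurable.ennreal_ofReal).indicator measurableSet_orth)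
    ((mV.mul cR.measurable.ennreal_ofReal).indicator measurableSet_orth) fun x => ?_
  rw [lmarginal_singleton, lmarginal_singleton]
  beta_reduce
  by_cases hx : ∀ j, j ≠ i → 0 < x j
  · rw [lintegral_orth_update _ hx, lintegral_orth_update _ hx]
    have cu : Continuous fun t : ℝ => Function.update x i t := by fun_prop
    have h1 := hardy_one (ρ := fun t => exp (-V (Function.update x i t)))
      (hasDerivAt_update_pd (diff_flip hf.diff ε) x i)
      (hasDerivAt_update_pd (diff_flip hf.diff (tog i ε)) x i)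
      (by simp only [pd_flip' hf.diff]; fun_prop) (by simp only [pd_flip' hf.diff]; fun_prop)
      (by
        congr 1
        funext j
        unfold flip tog
        by_cases hj : j = i
        · subst hj
          simp
        · simp [hj])
      (by fun_prop) (fun t => (exp_pos _).le) (fun u t h0 h1 => by
        refine exp_le_exp.2 (neg_le_neg (unc_mono hc hu fun j => ?_))
        by_cases hj : j = i
        · subst hj
          simp only [Function.update_self]
          rwa [abs_of_nonneg h0, abs_of_nonneg (h0.trans h1)]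
        · simp [hj])
    have e : ∀ (c : Bool) (r : ℝ), ((if c then (1 : ℝ) else -1) * r) ^ 2 = r ^ 2 := by
      intro c r
      split_ifs <;> ring
    simp only [pd_flip' hf.diff, e] at h1
    simpa only [Function.update_self] using h1
  · push Not at hx
    obtain ⟨j, hj, hx⟩ := hx
    refine le_trans (le_of_eq ?_) zero_le
    refine (lintegral_congr fun t => indicator_of_notMem (fun h => ?_) _).trans lintegral_zero
    have h1 := h j
    rw [Function.update_of_ne hj] at h1
    linarith

end Vale.Agent.P245
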