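import Vale.Agent.P245.Basic
import Vale.Agent.Lib.PrekopaLeindler

open MeasureTheory Real Set Filter Topology
open scoped ENNReal

namespace Vale.Agent.P245

set_option linter.unusedSectionVars false

variable {ι : Type} [Fintype ι] [DecidableEq ι]

theorem unc_update {V : (ι → ℝ) → ℝ} (hc : ConvexOn ℝ univ V) (hu : Unc V) (x : ι → ℝ) (i : ι)
    {t : ℝ} (ht : |t| ≤ |x i|) : V (Function.update x i t) ≤ V x := by
  have h1 : t ∈ segment ℝ (-|x i|) |x i| := by
    rw [segment_eq_Icc (by linarith [abs_nonneg (x i)])]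
    exact abs_le.1 ht
  obtain ⟨a, b, ha, hb, hab, h⟩ := h1
  have h2 : Function.update x i t ∈
      segment ℝ (Function.update x i (-|x i|)) (Function.update x i |x i|) := by
    refine ⟨a, b, ha, hb, hab, funext fun j => ?_⟩
    by_cases hj : j = i
    · subst hj
      simpa using h
    · simp only [Pi.add_apply, Pi.smul_apply, Function.update_of_ne hj, smul_eq_mul]
      rw [← add_mul, hab, one_mul]
  have h3 : ∀ r : ℝ, |r| = |x i| → V (Function.update x i r) = V x := fun r hr =>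
    hu _ _ fun j => by
      by_cases hj : j = i
      · subst hj
        simpa using hr
      · rw [Function.update_of_ne hj]
  have h4 := hc.le_on_segment (mem_univ _) (mem_univ _) h2
  rwa [h3 (-|x i|) (by simp), h3 |x i| (by simp), max_self] at h4

/-- An unconditional convex function is monotone in the absolute values of the coordinates
(induct over a finset of coordinates; `a i` is a convex combination of `b i` and `- b i`). -/
theorem unc_mono {V : (ι → ℝ) → ℝ} (hc : ConvexOn ℝ univ V) (hu : Unc V) {a b : ι → ℝ}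
    (h : ∀ i, |a i| ≤ |b i|) : V a ≤ V b := by
  have key : ∀ s : Finset ι, V (s.piecewise a b) ≤ V b := by
    intro s
    induction s using Finset.induction_on with
    | empty => simp
    | insert i s hi ih =>
      rw [Finset.piecewise_insert]
      refine le_trans (unc_update hc hu _ i ?_) ih
      rw [Finset.piecewise_eq_of_notMem _ _ _ hi]
      exact h i
  simpa using key Finset.univ

theorem measurableSet_orth : MeasurableSet (orth ι) := by
  have e : orth ι = ⋂ i, {x : ι → ℝ | 0 < x i} := by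
    ext x
    simp [orth]
  rw [e]
  exact MeasurableSet.iInter fun i => measurableSet_lt measurable_const (measurable_pi_apply i)

/-- Derivative of the coordinatewise square. -/
noncomputable def sqD (y : ι → ℝ) : (ι → ℝ) →L[ℝ] (ι → ℝ) :=
  ContinuousLinearMap.pi fun i =>
    ((2 * y i) • ContinuousLinearMap.id ℝ ℝ).comp (ContinuousLinearMap.proj i)

theorem sqD_apply (y v : ι → ℝ) (i : ι) : sqD y v i = 2 * y i * v i := by
  simp [sqD]

theorem hasFDerivAt_sq (y : ι → ℝ) :
    HasFDerivAt (fun (y : ι → ℝ) (i : ι) => y i ^ 2) (sqD y) y := by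
  refine hasFDerivAt_pi.2 fun i => ?_
  have h := (hasDerivAt_pow 2 (y i)).comp_hasFDerivAt y (hasFDerivAt_apply (𝕜 := ℝ) i y)
  refine h.congr_fderiv ?_
  ext v
  simp

theorem det_sqD (y : ι → ℝ) : (sqD y).det = ∏ i, 2 * y i := by
  unfold sqD
  rw [ContinuousLinearMap.det_pi]
  refine Finset.prod_congr rfl fun i _ => ?_
  simp [ContinuousLinearMap.det]

/-- Change of variables `x i = (y i)²` on the orthant
(`lintegral_image_eq_lintegral_abs_det_fderiv_mul`, diagonal Jacobian). -/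
theorem lintegral_orth_sq (u : (ι → ℝ) → ℝ≥0∞) :
    ∫⁻ x in orth ι, u x =
      ∫⁻ y in orth ι, ENNReal.ofReal (∏ i, 2 * y i) * u (fun i => y i ^ 2) := by
  have him : (fun (y : ι → ℝ) (i : ι) => y i ^ 2) '' orth ι = orth ι := by
    ext x
    constructor
    · rintro ⟨y, hy, rfl⟩ i
      exact pow_pos (hy i) 2
    · intro hx
      exact ⟨fun i => √(x i), fun i => Real.sqrt_pos.2 (hx i),
        funext fun i => Real.sq_sqrt (hx i).le⟩
  have hinj : InjOn (fun (y : ι → ℝ) (i : ι) => y i ^ 2) (orth ι) := by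
    intro y hy y' hy' h
    funext i
    exact (pow_left_inj₀ (hy i).le (hy' i).le two_ne_zero).1 (congrFun h i)
  have h := lintegral_image_eq_lintegral_abs_det_fderiv_mul volume measurableSet_orth
    (fun y _ => (hasFDerivAt_sq y).hasFDerivWithinAt) hinj u
  rw [him] at h
  rw [h]
  refine setLIntegral_congr_fun measurableSet_orth fun y hy => ?_
  simp only [det_sqD]
  rw [abs_of_pos (Finset.prod_pos fun i _ => mul_pos two_pos (hy i))]

theorem norm_sq_le_sum (y : ι → ℝ) : ‖y‖ ^ 2 ≤ ∑ i, y i ^ 2 := by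
  have h0 : 0 ≤ ∑ i, y i ^ 2 := Finset.sum_nonneg fun _ _ => sq_nonneg _
  have h1 : ‖y‖ ≤ √(∑ i, y i ^ 2) :=
    (pi_norm_le_iff_of_nonneg (Real.sqrt_nonneg _)).2 fun i => Real.abs_le_sqrt
      (Finset.single_le_sum (f := fun i => y i ^ 2) (fun _ _ => sq_nonneg _) (Finset.mem_univ i))
  calc ‖y‖ ^ 2 ≤ √(∑ i, y i ^ 2) ^ 2 := by gcongr
    _ = _ := Real.sq_sqrt h0

theorem taylor_unif {γ : (ι → ℝ) → ℝ} (hγ : ContDiff ℝ 1 γ) (hs : HasCompactSupport (fderiv ℝ γ))
    {ε : ℝ} (hε : 0 < ε) : ∃ K : ℝ, 0 ≤ K ∧ ∀ y z : ι → ℝ,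
      γ y - γ z - fderiv ℝ γ z (y - z) ≤ ε * ‖y - z‖ + K * ‖y - z‖ ^ 2 := by
  have hc : Continuous (fderiv ℝ γ) := hγ.continuous_fderiv (by norm_num)
  have hd : Differentiable ℝ γ := hγ.differentiable (by norm_num)
  obtain ⟨M, hM⟩ := hc.bounded_above_of_compact_support hs
  have hM0 : 0 ≤ M := le_trans (norm_nonneg _) (hM 0)
  obtain ⟨δ, hδ, hu⟩ := Metric.uniformContinuous_iff.1 (hs.uniformContinuous_of_continuous hc) ε hε
  refine ⟨2 * M / δ, by positivity, fun y z => ?_⟩
  refine le_trans (le_abs_self _) ?_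
  rw [← Real.norm_eq_abs]
  rcases lt_or_ge ‖y - z‖ δ with h | h
  · have h1 := (convex_ball z δ).norm_image_sub_le_of_norm_fderiv_le' (𝕜 := ℝ) (f := γ)
      (φ := fderiv ℝ γ z) (C := ε) (x := z) (y := y) (fun x _ => hd x)
      (fun x hx => by
        rw [← dist_eq_norm]
        exact (hu hx).le) (Metric.mem_ball_self hδ) (by rwa [Metric.mem_ball, dist_eq_norm])
    have h2 : 0 ≤ 2 * M / δ * ‖y - z‖ ^ 2 := by positivity
    linarith
  · have h1 := (convex_univ (E := ι → ℝ)).norm_image_sub_le_of_norm_fderiv_le' (𝕜 := ℝ) (f := γ)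
      (φ := fderiv ℝ γ z) (C := 2 * M) (x := z) (y := y) (fun x _ => hd x)
      (fun x _ => le_trans (norm_sub_le _ _) (by linarith [hM x, hM z])) (mem_univ _) (mem_univ _)
    have h2 : 2 * M * ‖y - z‖ ≤ 2 * M / δ * ‖y - z‖ ^ 2 := by
      rw [div_mul_eq_mul_div, le_div_iff₀ hδ, sq, ← mul_assoc]
      gcongr
    have h3 : 0 ≤ ε * ‖y - z‖ := by positivity
    linarith

/-- Uniform first order expansion. Uniform continuity of `fderiv γ` (continuous, compact
support) handles bounded `z, y'`; `‖y - z‖ = s/(1-s) ‖z - y'‖`; for large `‖y'‖` use the bound on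
`fderiv γ`; for `z` far outside the support, `γ y ≠ γ z` forces `‖y'‖ ≥ c/s`. -/
theorem expand_unif {γ : (ι → ℝ) → ℝ} (hγ : ContDiff ℝ 1 γ) {c : ℝ}
    (hs : HasCompactSupport (fun x => γ x - c)) {η : ℝ} (hη : 0 < η) :
    ∃ s₀ : ℝ, 0 < s₀ ∧ s₀ < 1 ∧ ∀ s : ℝ, 0 < s → s ≤ s₀ → ∀ y y' : ι → ℝ,
      (1 - s) * (γ y - γ ((1 - s) • y + s • y')) ≤
        s * fderiv ℝ γ ((1 - s) • y + s • y') (((1 - s) • y + s • y') - y') +
          s * η * (1 + ∑ i, y' i ^ 2) := by
  have hfd : fderiv ℝ (fun x => γ x - c) = fderiv ℝ γ := funext fun x => fderiv_sub_const c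
  have hs' : HasCompactSupport (fderiv ℝ γ) := hfd ▸ hs.fderiv ℝ
  obtain ⟨R0, hR⟩ := hs.isCompact.isBounded.exists_norm_le
  set R := max R0 0 with hRd
  have hR0 : 0 ≤ R := le_max_right _ _
  have hout : ∀ x, R < ‖x‖ → γ x = c ∧ fderiv ℝ γ x = 0 := by
    intro x hx
    have h1 : x ∉ tsupport (fun x => γ x - c) := fun h =>
      absurd ((hR x h).trans (le_max_left R0 0)) (not_le.2 hx)
    refine ⟨sub_eq_zero.1 (image_eq_zero_of_notMem_tsupport (f := fun x => γ x - c) h1), ?_⟩
    rw [← hfd]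
    exact Function.notMem_support.1 fun h => h1 (support_fderiv_subset ℝ h)
  obtain ⟨K, hK, hT⟩ := taylor_unif hγ hs' (ε := η / (4 * (R + 1))) (by positivity)
  refine ⟨min (1 / 2) (η / (16 * (K + 1) * (R ^ 2 + 1))), by positivity,
    lt_of_le_of_lt (min_le_left _ _) (by norm_num), fun s hs0 hs1 y y' => ?_⟩
  have h1 : s ≤ 1 / 2 := hs1.trans (min_le_left _ _)
  have h2 : s ≤ η / (16 * (K + 1) * (R ^ 2 + 1)) := hs1.trans (min_le_right _ _)
  set z := (1 - s) • y + s • y' with hz
  have e1 : y - z = s • (y - y') := by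
    rw [hz]
    module
  have e2 : z - y' = (1 - s) • (y - y') := by
    rw [hz]
    module
  have e3 : s * fderiv ℝ γ z (z - y') = (1 - s) * fderiv ℝ γ z (y - z) := by
    rw [e1, e2, map_smul, map_smul, smul_eq_mul, smul_eq_mul]
    ring
  have hq := norm_sq_le_sum y'
  set t := ‖y'‖ with ht
  have ht0 : 0 ≤ t := norm_nonneg _
  have hfin : γ y - γ z - fderiv ℝ γ z (y - z) ≤ s * η * (1 + t ^ 2) := by
    by_cases hcase : ‖y‖ ≤ R ∨ ‖z‖ ≤ R
    · have h3 : ‖y - y'‖ ≤ 2 * (R + t) := by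
        rcases hcase with h | h
        · linarith [norm_sub_le y y']
        · have h4 := norm_sub_le z y'
          rw [e2, norm_smul, Real.norm_eq_abs, abs_of_pos (by linarith)] at h4
          nlinarith [norm_nonneg (y - y')]
      have h4 : ‖y - z‖ ≤ s * (2 * (R + t)) := by
        rw [e1, norm_smul, Real.norm_eq_abs, abs_of_pos hs0]
        gcongr
      have h5 : η / (4 * (R + 1)) * ‖y - z‖ ≤ s * η * (1 + t ^ 2) / 2 := by
        refine le_trans (mul_le_mul_of_nonneg_left h4 (by positivity)) ?_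
        rw [div_mul_eq_mul_div, div_le_div_iff₀ (by positivity) two_pos]
        have h6 : R + t ≤ (R + 1) * (1 + t ^ 2) := by nlinarith [mul_nonneg hR0 (sq_nonneg t)]
        nlinarith [mul_le_mul_of_nonneg_left h6 (mul_pos hs0 hη).le]
      have h6 : K * ‖y - z‖ ^ 2 ≤ s * η * (1 + t ^ 2) / 2 := by
        have h7 : ‖y - z‖ ^ 2 ≤ (s * (2 * (R + t))) ^ 2 := by gcongr
        have h8 : (R + t) ^ 2 ≤ 2 * (R ^ 2 + 1) * (1 + t ^ 2) := by
          nlinarith [sq_nonneg (R - t), mul_nonneg (sq_nonneg R) (sq_nonneg t)]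
        rw [le_div_iff₀ (by positivity)] at h2
        calc K * ‖y - z‖ ^ 2 ≤ (K + 1) * (s * (2 * (R + t))) ^ 2 := by gcongr; linarith
          _ = 4 * (K + 1) * s ^ 2 * (R + t) ^ 2 := by ring
          _ ≤ 4 * (K + 1) * s ^ 2 * (2 * (R ^ 2 + 1) * (1 + t ^ 2)) := by gcongr
          _ = s * (s * (16 * (K + 1) * (R ^ 2 + 1))) * (1 + t ^ 2) / 2 := by ring
          _ ≤ _ := by gcongr
      linarith [hT y z]
    · push Not at hcase
      rw [(hout y hcase.1).1, (hout z hcase.2).1, (hout z hcase.2).2]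
      simp only [sub_self, zero_apply]
      positivity
  have h9 : 0 ≤ s * η * (1 + t ^ 2) := by positivity
  have h10 : s * η * (1 + t ^ 2) ≤ s * η * (1 + ∑ i, y' i ^ 2) := by gcongr
  rw [e3]
  nlinarith [mul_le_mul_of_nonneg_left hfin (show 0 ≤ 1 - s by linarith)]

theorem lintegral_plus {V : (ι → ℝ) → ℝ} (hV : Continuous V) {u : (ι → ℝ) → ℝ≥0∞}
    (hu : Measurable u) : ∫⁻ x, u x ∂(plus (dens V)) =
      (2 : ℝ≥0∞) ^ Fintype.card ι * ∫⁻ x in orth ι, ENNReal.ofReal (exp (-V x)) * u x := by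
  unfold plus dens mu
  rw [lintegral_smul_measure, smul_eq_mul, restrict_withDensity measurableSet_orth,
    lintegral_withDensity_eq_lintegral_mul _ (by fun_prop) hu]
  rfl

/-- Logarithm of the density in the square root variables. -/
noncomputable def tauS (V : (ι → ℝ) → ℝ) (y : ι → ℝ) : ℝ :=
  Fintype.card ι * log 2 - V (fun i => y i ^ 2) + ∑ i, log (2 * y i)

/-- A weight written in the square root variables. -/
noncomputable def liftS (V a : (ι → ℝ) → ℝ) : (ι → ℝ) → ℝ≥0∞ :=
  (orth ι).indicator fun y => ENNReal.ofReal (exp (a (fun i => y i ^ 2) + tauS V y))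

theorem measurable_sqv : Measurable (fun (y : ι → ℝ) (i : ι) => y i ^ 2) := by fun_prop

theorem measurable_liftS {V a : (ι → ℝ) → ℝ} (hV : Continuous V) (ha : Measurable a) :
    Measurable (liftS V a) := by
  refine Measurable.indicator ?_ measurableSet_orth
  refine (Measurable.exp ((ha.comp measurable_sqv).add ?_)).ennreal_ofReal
  unfold tauS
  refine (measurable_const.sub (hV.measurable.comp measurable_sqv)).add ?_
  exact Finset.measurable_sum _ fun i _ => (measurable_const.mul (measurable_pi_apply i)).log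

theorem lintegral_liftS {V a : (ι → ℝ) → ℝ} (hV : Continuous V) (ha : Measurable a) :
    ∫⁻ y, liftS V a y = ∫⁻ x, ENNReal.ofReal (exp (a x)) ∂(plus (dens V)) := by
  rw [lintegral_plus hV ha.exp.ennreal_ofReal, lintegral_orth_sq, liftS,
    lintegral_indicator measurableSet_orth, ← lintegral_const_mul' _ _ (by simp)]
  refine setLIntegral_congr_fun measurableSet_orth fun y hy => ?_
  have h2 : (2 : ℝ≥0∞) ^ Fintype.card ι = ENNReal.ofReal (2 ^ Fintype.card ι) := by
    rw [ENNReal.ofReal_pow two_pos.le]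
    simp
  have h3 : 0 ≤ ∏ i, 2 * y i := (Finset.prod_pos fun i _ => mul_pos two_pos (hy i)).le
  rw [h2, ← ENNReal.ofReal_mul (exp_pos _).le, ← ENNReal.ofReal_mul h3,
    ← ENNReal.ofReal_mul (by positivity)]
  congr 1
  unfold tauS
  rw [exp_add, exp_add, exp_sub, exp_sum, exp_nat_mul, exp_log two_pos, exp_neg,
    Finset.prod_congr rfl fun i _ => exp_log (mul_pos two_pos (hy i))]
  ring

theorem log_gain {s y y' : ℝ} (hs0 : 0 < s) (hs1 : s < 1) (hy : 0 < y) (hy' : 0 < y') :
    (1 - s) * log (2 * y) + s * log (2 * y') +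
      s * (y' / ((1 - s) * y + s * y') - 1 - log (y' / ((1 - s) * y + s * y'))) ≤
        log (2 * ((1 - s) * y + s * y')) := by
  have h1 : 0 < 1 - s := by linarith
  set z := (1 - s) * y + s * y' with hz
  have hz0 : 0 < z := by positivity
  have h2 := log_le_sub_one_of_pos (div_pos hy hz0)
  rw [log_div hy.ne' hz0.ne'] at h2
  rw [log_div hy'.ne' hz0.ne', log_mul two_ne_zero hy.ne', log_mul two_ne_zero hy'.ne',
    log_mul two_ne_zero hz0.ne']
  have h3 : (1 - s) * (y / z - 1) = s * (1 - y' / z) := by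
    field_simp
    rw [hz]
    ring
  nlinarith [mul_le_mul_of_nonneg_left h2 h1.le]

theorem tauS_gain {V : (ι → ℝ) → ℝ} (hc : ConvexOn ℝ univ V) (hu : Unc V) {s : ℝ} (hs0 : 0 < s)
    (hs1 : s < 1) {y y' : ι → ℝ} (hy : y ∈ orth ι) (hy' : y' ∈ orth ι) :
    (1 - s) * tauS V y + s * tauS V y' +
      s * ∑ i, (y' i / ((1 - s) • y + s • y') i - 1 - log (y' i / ((1 - s) • y + s • y') i)) ≤
        tauS V ((1 - s) • y + s • y') := by
  have h1 : 0 < 1 - s := by linarith
  have h2 := hc.2 (mem_univ fun i => y i ^ 2) (mem_univ fun i => y' i ^ 2) h1.le hs0.le (by ring)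
  have h3 : V (fun i => ((1 - s) • y + s • y') i ^ 2) ≤
      V ((1 - s) • (fun i => y i ^ 2) + s • fun i => y' i ^ 2) := by
    refine unc_mono hc hu fun i => ?_
    simp only [Pi.add_apply, Pi.smul_apply, smul_eq_mul]
    rw [abs_of_nonneg (sq_nonneg _), abs_of_nonneg (by positivity)]
    nlinarith [mul_nonneg (mul_pos h1 hs0).le (sq_nonneg (y i - y' i))]
  have h4 := Finset.sum_le_sum fun i (_ : i ∈ Finset.univ) => log_gain hs0 hs1 (hy i) (hy' i)
  simp only [Finset.sum_add_distrib, ← Finset.mul_sum] at h4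
  simp only [smul_eq_mul] at h2
  unfold tauS
  simp only [Pi.add_apply, Pi.smul_apply, smul_eq_mul] at h3 ⊢
  linarith

theorem fderiv_comp_sq {g : (ι → ℝ) → ℝ} (hg : ContDiff ℝ 1 g) (z v : ι → ℝ) :
    fderiv ℝ (fun y : ι → ℝ => g fun i => y i ^ 2) z v =
      ∑ i, 2 * z i * v i * pd g i (fun i => z i ^ 2) := by
  have hd : Differentiable ℝ g := hg.differentiable (by norm_num)
  have h := (hd (fun i => z i ^ 2)).hasFDerivAt.comp z (hasFDerivAt_sq z)
  have h' : fderiv ℝ (fun y : ι → ℝ => g fun i => y i ^ 2) z = _ := h.fderiv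
  rw [h', ContinuousLinearMap.comp_apply]
  have e : sqD z v = ∑ i, (2 * z i * v i) • (Pi.single i 1 : ι → ℝ) := by
    rw [pi_eq_sum_univ' (sqD z v)]
    simp only [sqD_apply]
  rw [e, map_sum]
  simp only [map_smul, smul_eq_mul, pd]

theorem supp_comp_sq {g : (ι → ℝ) → ℝ} {c : ℝ} (hgc : HasCompactSupport (fun x => g x - c)) :
    HasCompactSupport (fun y : ι → ℝ => (g fun i => y i ^ 2) - c) := by
  obtain ⟨R, hR0, hR⟩ := exists_cube hgc
  refine HasCompactSupport.intro (isCompact_closedBall 0 (R + 1)) fun y hy => ?_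
  by_contra hne
  refine hy ?_
  rw [mem_closedBall_zero_iff, pi_norm_le_iff_of_nonneg (by linarith)]
  intro i
  have h1 := hR (fun i => y i ^ 2) (subset_tsupport _ hne) i
  rw [abs_of_nonneg (sq_nonneg _), ← sq_abs] at h1
  rw [Real.norm_eq_abs]
  nlinarith [abs_nonneg (y i)]

theorem pl_step {V : (ι → ℝ) → ℝ} (hc : ConvexOn ℝ univ V) (hV : Continuous V)
    (hu : Unc V) {g : (ι → ℝ) → ℝ} (hg : ContDiff ℝ 1 g) {c : ℝ}
    (hgc : HasCompactSupport (fun x => g x - c)) {Φ W : (ι → ℝ) → ℝ} (hΦm : Measurable Φ)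
    (hWm : Measurable W)
    (hpt : ∀ x ∈ orth ι, ∀ T ∈ orth ι,
      ∑ i, gain (pd g i x * x i) (√(T i / x i)) ≤ Φ x + W T) {η : ℝ} (hη : 0 < η) :
    ∃ s₀ : ℝ, 0 < s₀ ∧ s₀ < 1 ∧ ∀ s : ℝ, 0 < s → s ≤ s₀ →
      (∫⁻ x, ENNReal.ofReal (exp (g x)) ∂(plus (dens V))) ^ (1 - s) *
        (∫⁻ x, ENNReal.ofReal (exp (-(W x + η * ∑ i, |x i|))) ∂(plus (dens V))) ^ s ≤
        ∫⁻ x, ENNReal.ofReal (exp (g x + s * (Φ x + η - g x))) ∂(plus (dens V)) := by
  have hγ : ContDiff ℝ 1 (fun y : ι → ℝ => g fun i => y i ^ 2) := hg.comp (by fun_prop)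
  obtain ⟨s₀, h0, h1, hE⟩ := expand_unif hγ (supp_comp_sq hgc) hη
  refine ⟨s₀, h0, h1, fun s hs0 hs1 => ?_⟩
  have hs2 : s < 1 := hs1.trans_lt h1
  have hs3 : 0 < 1 - s := by linarith
  have hgm : Measurable g := hg.continuous.measurable
  have m2 : Measurable fun x : ι → ℝ => -(W x + η * ∑ i, |x i|) := by fun_prop
  have m3 : Measurable fun x : ι → ℝ => g x + s * (Φ x + η - g x) := by fun_prop
  rw [← lintegral_liftS hV hgm, ← lintegral_liftS hV m2, ← lintegral_liftS hV m3]
  refine Vale.Agent.Lib.PL.prekopa_leindler volume hs3 hs0 (by ring) (measurable_liftS hV hgm)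
    (measurable_liftS hV m2) (measurable_liftS hV m3) fun y y' => ?_
  unfold liftS
  by_cases hy : y ∈ orth ι
  swap
  · rw [indicator_of_notMem hy, ENNReal.zero_rpow_of_pos hs3, zero_mul]
    exact zero_le
  by_cases hy' : y' ∈ orth ι
  swap
  · rw [indicator_of_notMem hy', ENNReal.zero_rpow_of_pos hs0, mul_zero]
    exact zero_le
  have hz : (1 - s) • y + s • y' ∈ orth ι := fun i =>
    add_pos (mul_pos hs3 (hy i)) (mul_pos hs0 (hy' i))
  rw [indicator_of_mem hy, indicator_of_mem hy', indicator_of_mem hz,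
    ENNReal.ofReal_rpow_of_pos (exp_pos _), ENNReal.ofReal_rpow_of_pos (exp_pos _),
    ← ENNReal.ofReal_mul (by positivity), ← exp_mul, ← exp_mul, ← exp_add]
  refine ENNReal.ofReal_le_ofReal (exp_le_exp.2 ?_)
  have a1 := hE s hs0 hs1 y y'
  have a2 := tauS_gain hc hu hs0 hs2 hy hy'
  set z := (1 - s) • y + s • y' with hzd
  have a3 := hpt (fun i => z i ^ 2) (fun i => pow_pos (hz i) 2) (fun i => y' i ^ 2)
    (fun i => pow_pos (hy' i) 2)
  rw [fderiv_comp_sq hg] at a1
  have e1 : ∑ i, gain (pd g i (fun i => z i ^ 2) * z i ^ 2) √(y' i ^ 2 / z i ^ 2) =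
      ∑ i, 2 * z i * (z - y') i * pd g i (fun i => z i ^ 2) -
        ∑ i, (y' i / z i - 1 - log (y' i / z i)) := by
    rw [← Finset.sum_sub_distrib]
    refine Finset.sum_congr rfl fun i _ => ?_
    rw [← div_pow, Real.sqrt_sq (div_pos (hy' i) (hz i)).le, gain, Pi.sub_apply]
    have := (hz i).ne'
    congr 1
    field_simp
  have e2 : ∑ i, |y' i ^ 2| = ∑ i, y' i ^ 2 :=
    Finset.sum_congr rfl fun i _ => abs_of_nonneg (sq_nonneg _)
  rw [e1] at a3
  beta_reduce
  rw [e2]
  nlinarith [mul_le_mul_of_nonneg_left a3 hs0.le]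

theorem pl_limit {M Z I C s₀ : ℝ} (hM : 0 < M) (hZ : 0 < Z) (hs₀ : 0 < s₀)
    (h : ∀ s : ℝ, 0 < s → s ≤ s₀ → M ^ (1 - s) * Z ^ s ≤ M + s * I + s ^ 2 * C) :
    M * (log Z - log M) ≤ I := by
  have key : ∀ s : ℝ, 0 < s → s ≤ s₀ → M * (log Z - log M) ≤ I + s * C := by
    intro s h0 h1
    have h2 := h s h0 h1
    have e : M ^ (1 - s) * Z ^ s = M * exp (s * (log Z - log M)) := by
      rw [rpow_def_of_pos hM, rpow_def_of_pos hZ, ← exp_add]
      conv_rhs => rw [← exp_log hM, ← exp_add, log_exp]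
      congr 1
      ring
    rw [e] at h2
    have h3 := mul_le_mul_of_nonneg_left (add_one_le_exp (s * (log Z - log M))) hM.le
    refine le_of_mul_le_mul_left ?_ h0
    nlinarith
  have ht : Tendsto (fun s : ℝ => I + s * C) (𝓝[>] 0) (𝓝 (I + 0 * C)) :=
    ((by fun_prop : Continuous fun s : ℝ => I + s * C).tendsto 0).mono_left nhdsWithin_le_nhds
  rw [zero_mul, add_zero] at ht
  refine ge_of_tendsto ht ?_
  filter_upwards [Ioc_mem_nhdsGT hs₀] with s hs
  exact key s hs.1 hs.2

/-- The Prekopa-Leindler step on the orthant.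
Work in the variables `y i = √(x i)`: σ y = 2^n exp(-V(y²)) Π 2 y i on the orthant, γ y = g(y²).
For z = (1-s) y + s y' with y, y' in the orthant: V(z²) ≤ (1-s) V(y²) + s V(y'²) (`unc_mono` and
convexity, since z i² ≤ (1-s) y i² + s y' i²), and with u = y' i / z i,
log z i - (1-s) log y i - s log y' i ≥ s (u - 1 - log u) because y i / z i = 1 + s(1-u)/(1-s)
and log (1+a) ≤ a. Also fderiv γ z (z - y') = Σ 2 q i (1 - u i), q i = pd g i (z²) * z i².
Apply `Vale.Agent.Lib.PL.prekopa_leindler` (weights 1-s, s) to exp(γ) σ, exp(-W') σ,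
exp((1-s) γ + s (Φ + η)) σ with W' T = W T + η Σ T i, using `expand_unif`.
Then with M = ∫ exp g, B = Φ + η - g bounded by C, s C ≤ 1:
M + s ∫ e^g B + s² C² M ≥ M^(1-s) Z^s ≥ M (1 + s (log Z - log M)), Z = ∫ exp(-W') ≥ exp(-∫ W').
Let s → 0, then η → 0. -/
theorem pl_orth {V : (ι → ℝ) → ℝ} {S : ℝ} (hc : ConvexOn ℝ univ V) (hV : Continuous V)
    (hu : Unc V) (hb : Base (plus (dens V)) S) {g : (ι → ℝ) → ℝ} (hg : ContDiff ℝ 1 g) {c : ℝ}
    (hgc : HasCompactSupport (fun x => g x - c)) {Φ W : (ι → ℝ) → ℝ} (hΦm : Measurable Φ)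
    {C : ℝ} (hΦb : ∀ x, |Φ x| ≤ C) (hWm : Measurable W) (hW0 : ∀ x, 0 ≤ W x)
    (hWi : Integrable W (plus (dens V)))
    (hpt : ∀ x ∈ orth ι, ∀ T ∈ orth ι,
      ∑ i, gain (pd g i x * x i) (√(T i / x i)) ≤ Φ x + W T) :
    Ent (plus (dens V)) (fun x => exp (g x)) ≤
      ∫ x, Φ x * exp (g x) ∂(plus (dens V)) +
        (∫ x, exp (g x) ∂(plus (dens V))) * ∫ x, W x ∂(plus (dens V)) := by
  have := hb.prob
  set μ := plus (dens V) with hμ
  have hgm : Measurable g := hg.continuous.measurable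
  obtain ⟨G0, hG0, hG⟩ := bdd_of_supp (u := fun x => g x - c) (hg.continuous.sub continuous_const) hgc
  have hgb : ∀ x, |g x| ≤ G0 + |c| := fun x => by
    have h1 := abs_add_le (g x - c) c
    rw [sub_add_cancel] at h1
    linarith [hG x]
  set G := G0 + |c|
  have he : ∀ x, |exp (g x)| ≤ exp G := fun x => by
    rw [abs_of_pos (exp_pos _)]
    exact exp_le_exp.2 ((le_abs_self _).trans (hgb x))
  have iM : Integrable (fun x => exp (g x)) μ := integrable_of_bdd hgm.exp he
  have iB : ∀ {u : (ι → ℝ) → ℝ} {D : ℝ}, Measurable u → (∀ x, |u x| ≤ D) →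
      Integrable (fun x => u x * exp (g x)) μ := fun hu hD =>
    iM.bdd_mul hu.aestronglyMeasurable (Eventually.of_forall hD)
  have iA : Integrable (fun x : ι → ℝ => ∑ i, |x i|) μ := by
    refine integrable_finsetSum _ fun i _ => hb.int_of_quad (by fun_prop) (C := 1) fun x => ?_
    have h1 := Finset.single_le_sum (f := fun i => x i ^ 2) (fun _ _ => sq_nonneg _)
      (Finset.mem_univ i)
    rw [abs_abs, ← sq_abs] at *
    nlinarith [abs_nonneg (x i)]
  have hM : 0 < ∫ x, exp (g x) ∂μ := integral_exp_pos iM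
  set M := ∫ x, exp (g x) ∂μ with hMd
  set A := ∫ x, ∑ i, |x i| ∂μ with hAd
  have main : ∀ η : ℝ, 0 < η → Ent μ (fun x => exp (g x)) ≤
      ∫ x, Φ x * exp (g x) ∂μ + M * ∫ x, W x ∂μ + η * (M * (1 + A)) := by
    intro η hη
    obtain ⟨s₀, h0, h1, hP⟩ := pl_step hc hV hu hg hgc hΦm hWm hpt hη
    have m2 : Measurable fun x : ι → ℝ => -(W x + η * ∑ i, |x i|) := by fun_prop
    have iW : Integrable (fun x : ι → ℝ => -(W x + η * ∑ i, |x i|)) μ :=
      (hWi.add (iA.const_mul η)).neg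
    have iZ : Integrable (fun x : ι → ℝ => exp (-(W x + η * ∑ i, |x i|))) μ := by
      refine integrable_of_bdd m2.exp (C := 1) fun x => ?_
      rw [abs_of_pos (exp_pos _), exp_le_one_iff, neg_nonpos]
      have := hW0 x
      positivity
    have hZ := integral_exp_pos iZ
    set Z := ∫ x : ι → ℝ, exp (-(W x + η * ∑ i, |x i|)) ∂μ with hZd
    have hJ := gibbs (μ := μ) (w := fun _ => 1) (G := fun x : ι → ℝ => -(W x + η * ∑ i, |x i|))
      (fun _ => zero_le_one) (integrable_const _) (by simp) (by simpa only [one_mul] using iW) iZ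
      hZ le_rfl
    have hE1 : Ent μ (fun _ => (1 : ℝ)) = 0 := by simp [Ent]
    simp only [one_mul, hE1, integral_const, probReal_univ, smul_eq_mul, zero_add] at hJ
    rw [integral_neg, integral_add hWi (iA.const_mul η), integral_const_mul] at hJ
    set D := C + η + G with hD
    have mB : Measurable fun x => Φ x + η - g x := by fun_prop
    have hB : ∀ x, |Φ x + η - g x| ≤ D := fun x => by
      have b1 := abs_le.1 (hΦb x)
      have b2 := abs_le.1 (hgb x)
      rw [abs_le]
      constructor <;> linarith [b1.1, b1.2, b2.1, b2.2]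
    have hD0 : 0 ≤ D := (abs_nonneg _).trans (hB 0)
    have hL := pl_limit (I := ∫ x, (Φ x + η - g x) * exp (g x) ∂μ) (C := D ^ 2 * M)
      (s₀ := min s₀ (1 / (D + 1))) hM hZ (by positivity) (by
        intro s hs0 hs1
        have hs2 := hs1.trans (min_le_right _ _)
        rw [le_div_iff₀ (by positivity)] at hs2
        have hpt2 : ∀ x, exp (g x + s * (Φ x + η - g x)) ≤ exp (g x) +
            s * ((Φ x + η - g x) * exp (g x)) + s ^ 2 * (D ^ 2 * exp (g x)) := fun x => by
          have b1 : |s * (Φ x + η - g x)| ≤ s * D := by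
            rw [abs_mul, abs_of_pos hs0]
            exact mul_le_mul_of_nonneg_left (hB x) hs0.le
          have b2 := (abs_le.1 (abs_exp_sub_one_sub_id_le (b1.trans (by linarith)))).2
          have b3 : (s * (Φ x + η - g x)) ^ 2 ≤ (s * D) ^ 2 := by
            rw [← sq_abs]
            gcongr
          rw [exp_add]
          nlinarith [mul_le_mul_of_nonneg_left (b2.trans b3) (exp_pos (g x)).le]
        have i1 := (iM.add ((iB mB hB).const_mul s))
        have i2 := (iM.const_mul (D ^ 2)).const_mul (s ^ 2)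
        have iH : Integrable (fun x => exp (g x + s * (Φ x + η - g x))) μ :=
          (i1.add i2).mono' (by fun_prop : Measurable _).aestronglyMeasurable
            (Eventually.of_forall fun x => by
              rw [Real.norm_eq_abs, abs_of_pos (exp_pos _)]
              exact hpt2 x)
        have h2 := hP s hs0 (hs1.trans (min_le_left _ _))
        rw [← ofReal_integral_eq_lintegral_ofReal iM (Eventually.of_forall fun _ => (exp_pos _).le),
          ← ofReal_integral_eq_lintegral_ofReal iZ (Eventually.of_forall fun _ => (exp_pos _).le),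
          ← ofReal_integral_eq_lintegral_ofReal iH (Eventually.of_forall fun _ => (exp_pos _).le),
          ENNReal.ofReal_rpow_of_pos hM, ENNReal.ofReal_rpow_of_pos hZ,
          ← ENNReal.ofReal_mul (by positivity),
          ENNReal.ofReal_le_ofReal_iff (integral_nonneg fun _ => (exp_pos _).le)] at h2
        refine h2.trans ((integral_mono iH (i1.add i2) hpt2).trans_eq ?_)
        have e1 := integral_add i1 i2
        have e2 := integral_add iM ((iB mB hB).const_mul s)
        simp only [Pi.add_apply, integral_const_mul] at e1 e2 ⊢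
        rw [e1, e2])
    have e3 : ∫ x, (Φ x + η - g x) * exp (g x) ∂μ =
        ∫ x, Φ x * exp (g x) ∂μ + η * M - ∫ x, exp (g x) * log (exp (g x)) ∂μ := by
      have j1 := iB hΦm hΦb
      have j2 := iM.const_mul η
      have j3 := iB hgm hgb
      have e4 := integral_sub (j1.add j2) j3
      have e5 := integral_add j1 j2
      simp only [Pi.add_apply, integral_const_mul] at e4 e5
      rw [← e5]
      simp only [log_exp, mul_comm (exp (g _)) (g _)]
      rw [← e4]
      refine integral_congr_ae (Eventually.of_forall fun x => ?_)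
      simp only
      ring
    rw [e3] at hL
    unfold Ent
    rw [← hMd]
    nlinarith [mul_le_mul_of_nonneg_left hJ hM.le]
  have ht : Tendsto (fun η : ℝ => ∫ x, Φ x * exp (g x) ∂μ + M * ∫ x, W x ∂μ + η * (M * (1 + A)))
      (𝓝[>] 0) (𝓝 (∫ x, Φ x * exp (g x) ∂μ + M * ∫ x, W x ∂μ + 0 * (M * (1 + A)))) :=
    (Continuous.tendsto (by fun_prop) 0).mono_left nhdsWithin_le_nhds
  rw [zero_mul, add_zero] at ht
  exact ge_of_tendsto ht (eventually_nhdsWithin_of_forall main)

end Vale.Agent.P245
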