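import Vale.Agent.P245.Ident
import Vale.Agent.P245.Crude
import Vale.Agent.P245.Gain

/-! Regularity of near-extremal functions at a fixed small scale. -/

open MeasureTheory Real Set Filter Topology
open scoped ENNReal

namespace Vale.Agent.P245

set_option linter.unusedSectionVars false

variable {ι : Type} [Fintype ι] [DecidableEq ι] {V : (ι → ℝ) → ℝ} {S L K : ℝ}

theorem sq_supp {u : (ι → ℝ) → ℝ} (hs : HasCompactSupport u) :
    HasCompactSupport fun x => u x ^ 2 := by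
  have : (fun x => u x ^ 2) = fun x => u x * u x := by funext x; ring
  rw [this]; exact hs.mul_right

theorem C1c.int_sq {μ : Measure (ι → ℝ)} [IsFiniteMeasure μ] {f : (ι → ℝ) → ℝ} (hf : C1c f) :
    Integrable (fun x => f x ^ 2) μ := integrable_of_supp (hf.cont.pow 2) (sq_supp hf.2)

theorem C1c.int_sq_log {μ : Measure (ι → ℝ)} [IsFiniteMeasure μ] {f : (ι → ℝ) → ℝ} (hf : C1c f) :
    Integrable (fun x => f x ^ 2 * log (f x ^ 2)) μ :=
  integrable_of_supp (Real.continuous_mul_log.comp (hf.cont.pow 2)) (sq_supp hf.2).mul_right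

theorem K1_pos : 0 < K1 := by have := two_le_C2; unfold K1; linarith

theorem near_extremal (hV : Nice V S L) (hK : 2 * K1 + 2 ≤ K)
    (hopt : ∀ ε : ℝ, 0 < ε → ¬ KI (dens V) S (K - ε)) :
    ∃ Γ : ℝ, 0 ≤ Γ ∧ ∀ ε : ℝ, 0 < ε → ε ≤ 1 → ∃ f : (ι → ℝ) → ℝ, C1c f ∧
      ∫ x, f x ^ 2 ∂(dens V) = 1 ∧ En (dens V) f ≤ Γ ∧ ∫ x, U S x * f x ^ 2 ∂(dens V) ≤ Γ ∧
      (K - ε) * En (dens V) f + ∫ x, U S x * f x ^ 2 ∂(dens V) + 1 ≤
        Ent (dens V) (fun x => f x ^ 2) := by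
  have := hV.base.prob
  obtain ⟨C, hC0, hC⟩ := gain_ineq hV
  have hK1 := K1_pos
  refine ⟨2 * C, by linarith, fun ε hε hε1 => ?_⟩
  have h := hopt ε hε
  unfold KI at h
  push Not at h
  obtain ⟨φ, hφ, hlt⟩ := h
  set N := ∫ x, φ x ^ 2 ∂(dens V) with hN
  have hE := En_nonneg (dens V) φ
  have hP : 0 ≤ ∫ x, U S x * φ x ^ 2 ∂(dens V) :=
    integral_nonneg fun x => mul_nonneg (U_nonneg _ _) (sq_nonneg _)
  have hN0 : 0 < N := by
    rcases (show 0 ≤ N from integral_nonneg fun x => sq_nonneg _).eq_or_lt with h0 | h0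
    · exfalso
      have hz : (fun x => φ x ^ 2) =ᵐ[dens V] 0 :=
        (integral_eq_zero_iff_of_nonneg (fun x => sq_nonneg _) hφ.int_sq).1 h0.symm
      have h2 : ∫ x, φ x ^ 2 * log (φ x ^ 2) ∂(dens V) = 0 := by
        rw [← integral_zero _ ℝ (μ := dens V)]
        exact integral_congr_ae (hz.mono fun x hx => by simp only [Pi.zero_apply] at hx; simp [hx])
      have h3 : Ent (dens V) (fun x => φ x ^ 2) = 0 := by
        unfold Ent; rw [h2, ← hN, ← h0]; simp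
      have : 0 ≤ (K - ε) * En (dens V) φ := mul_nonneg (by linarith) hE
      linarith
    · exact h0
  set c := (√N)⁻¹ with hc
  have hc2 : c ^ 2 = N⁻¹ := by rw [hc, inv_pow, Real.sq_sqrt hN0.le]
  have hi : 0 < N⁻¹ := inv_pos.2 hN0
  have e1 : (fun x => (c * φ x) ^ 2) = fun x => N⁻¹ * φ x ^ 2 := by
    funext x; rw [mul_pow, hc2]
  have n1 : ∫ x, (c * φ x) ^ 2 ∂(dens V) = 1 := by
    rw [e1, integral_const_mul, ← hN, inv_mul_cancel₀ hN0.ne']
  have n2 : En (dens V) (fun x => c * φ x) = N⁻¹ * En (dens V) φ := by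
    rw [En_const_mul _ hφ.diff, hc2]
  have n3 : ∫ x, U S x * (c * φ x) ^ 2 ∂(dens V) = N⁻¹ * ∫ x, U S x * φ x ^ 2 ∂(dens V) := by
    rw [← integral_const_mul]
    refine integral_congr_ae (Eventually.of_forall fun x => ?_)
    simp only [mul_pow, hc2]; ring
  have n4 : Ent (dens V) (fun x => (c * φ x) ^ 2) = N⁻¹ * Ent (dens V) (fun x => φ x ^ 2) := by
    rw [e1, Ent_const_mul hφ.int_sq hφ.int_sq_log hi]
  have big : (K - ε) * En (dens V) (fun x => c * φ x) + ∫ x, U S x * (c * φ x) ^ 2 ∂(dens V) + 1 ≤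
      Ent (dens V) (fun x => (c * φ x) ^ 2) := by
    rw [n2, n3, n4]
    have := mul_le_mul_of_nonneg_left hlt.le hi.le
    rw [mul_add, mul_add, inv_mul_cancel₀ hN0.ne'] at this
    linarith
  have hg := hC _ (hφ.const_mul c)
  rw [n1] at hg
  have hE' := En_nonneg (dens V) (fun x => c * φ x)
  have hP' : 0 ≤ ∫ x, U S x * (c * φ x) ^ 2 ∂(dens V) :=
    integral_nonneg fun x => mul_nonneg (U_nonneg _ _) (sq_nonneg _)
  have h5 : (K1 + 1) * En (dens V) (fun x => c * φ x) ≤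
      (K - ε) * En (dens V) (fun x => c * φ x) := by gcongr; linarith
  exact ⟨_, hφ.const_mul c, n1, by linarith, by linarith, big⟩

/-- A near-extremal function which is a near-null vector for all the test functions. -/
structure Pre (V : (ι → ℝ) → ℝ) (S K Γ e : ℝ) (f : (ι → ℝ) → ℝ) (δ : ℝ) : Prop where
  c1c : C1c f
  δ_pos : 0 < δ
  δ_le : δ ≤ 1
  norm : ∫ x, f x ^ 2 ∂(dens V) = 1
  En_le : En (dens V) f ≤ Γ
  P_le : ∫ x, U S x * f x ^ 2 ∂(dens V) ≤ Γ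
  big : (K - 1) * En (dens V) f + ∫ x, U S x * f x ^ 2 ∂(dens V) + 1 ≤
    Ent (dens V) (fun x => f x ^ 2)
  err : ∀ (i : ι) (s : ℝ), 0 < s → s ≤ 1 →
    |Bf (dens V) S K (pot f δ) f (adj V (dif f i s) i s)| ≤ e

theorem exists_pre (hV : Nice V S L) (hK : 2 * K1 + 2 ≤ K) (hKI : KI (dens V) S K)
    (hopt : ∀ ε : ℝ, 0 < ε → ¬ KI (dens V) S (K - ε)) :
    ∃ Γ : ℝ, 0 ≤ Γ ∧ ∀ e : ℝ, 0 < e → ∃ f δ, δ ≤ e ∧ Pre V S K Γ e f δ := by
  obtain ⟨Γ, hΓ, hf⟩ := near_extremal hV hK hopt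
  obtain ⟨C, hC0, hC⟩ := adj_crude hV Γ
  have hK1 := K1_pos
  refine ⟨Γ, hΓ, fun e he => ?_⟩
  set D := Γ + 1 + (K + 7) * C with hD
  have hD1 : 1 ≤ D := by have : 0 ≤ (K + 7) * C := mul_nonneg (by linarith) hC0; linarith
  set τ := min 1 (e / D) with hτ
  have hτ0 : 0 < τ := lt_min one_pos (div_pos he (by linarith))
  have hτ1 : τ ≤ 1 := min_le_left _ _
  have hτ2 : τ * D ≤ e := by
    have : τ ≤ e / D := min_le_right _ _
    rwa [le_div_iff₀ (by linarith)] at this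
  have h4 : τ ^ 4 ≤ τ := by
    have := pow_le_pow_of_le_one hτ0.le hτ1 (show 1 ≤ 4 by norm_num)
    simpa using this
  have h2 : τ ^ 2 ≤ τ := by nlinarith
  have hδ : 0 < τ ^ 4 := by positivity
  obtain ⟨f, hf1, hf2, hf3, hf4, hf5⟩ := hf (τ ^ 4) hδ (by linarith)
  have hE := En_nonneg (dens V) f
  refine ⟨f, τ ^ 4, by nlinarith, hf1, hδ, by linarith, hf2, hf3, hf4, ?_, fun i s hs hs1 => ?_⟩
  · have : (K - 1) * En (dens V) f ≤ (K - τ ^ 4) * En (dens V) f := by gcongr; linarith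
    linarith
  obtain ⟨a1, a2, a3⟩ := hC f hf1 hf2 hf3 hf4 i s hs hs1
  have hψ := (hf1.dif i s).adj hV.smooth.c1 i s
  have h := near_null hV hKI hf1 hf2 hδ (by linarith) hψ (t := τ ^ 2) (by positivity)
  have b1 : (K * En (dens V) f + ∫ x, U S x * f x ^ 2 ∂(dens V) + 1 -
      Ent (dens V) (fun x => f x ^ 2) + τ ^ 4) / τ ^ 2 ≤ τ * (Γ + 1) := by
    rw [div_le_iff₀ (by positivity)]
    have : τ ^ 4 * En (dens V) f ≤ τ ^ 4 * Γ := by gcongr
    have h3 : τ ^ 4 * (Γ + 1) ≤ τ * (Γ + 1) * τ ^ 2 := by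
      have : τ ^ 4 ≤ τ ^ 3 := pow_le_pow_of_le_one hτ0.le hτ1 (by norm_num)
      nlinarith
    nlinarith
  have b2 : τ ^ 2 * (1 + log (2 / τ ^ 4)) ≤ 6 * τ := by
    rw [log_div (by norm_num) hδ.ne', log_pow]
    have l2 := Real.log_two_lt_d9
    have l3 := Real.one_sub_inv_le_log_of_pos hτ0
    have l4 : τ ^ 2 * (1 - τ⁻¹) ≤ τ ^ 2 * log τ := by gcongr
    have l5 : τ ^ 2 * (1 - τ⁻¹) = τ ^ 2 - τ := by field_simp
    push_cast
    nlinarith
  have b3 : 0 ≤ 1 + log (2 / τ ^ 4) := by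
    have : 0 ≤ log (2 / τ ^ 4) := log_nonneg (by rw [le_div_iff₀ hδ]; linarith)
    linarith
  have b4 : τ ^ 2 * (K * En (dens V) (adj V (dif f i s) i s) +
      ∫ x, U S x * adj V (dif f i s) i s x ^ 2 ∂(dens V) +
      (1 + log (2 / τ ^ 4)) * ∫ x, adj V (dif f i s) i s x ^ 2 ∂(dens V)) ≤
      τ * ((K + 7) * C) := by
    have hK0 : 0 ≤ K := by linarith
    calc _ ≤ τ ^ 2 * (K * C + C + (1 + log (2 / τ ^ 4)) * C) := by gcongr
      _ = τ ^ 2 * ((K + 1) * C) + τ ^ 2 * (1 + log (2 / τ ^ 4)) * C := by ring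
      _ ≤ τ * ((K + 1) * C) + 6 * τ * C := by gcongr
      _ = _ := by ring
  have : τ * D = τ * (Γ + 1) + τ * ((K + 7) * C) := by rw [hD]; ring
  linarith [abs_nonneg (Bf (dens V) S K (pot f (τ ^ 4)) f (adj V (dif f i s) i s))]

section pre

variable {Γ e δ : ℝ} {f : (ι → ℝ) → ℝ}

theorem Rw_cont (hf : C1c f) (δ : ℝ) (i : ι) (s : ℝ) : Continuous (Rw f δ i s) := by
  have h1 := hf.cont
  have h2 := (hf.sh i s).cont
  exact ((h1.pow 2).max (h2.pow 2)).add continuous_const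

theorem Rw_ge (f : (ι → ℝ) → ℝ) (δ : ℝ) (i : ι) (s : ℝ) (x : ι → ℝ) : δ ≤ Rw f δ i s x := by
  unfold Rw
  have := le_max_left (f x ^ 2) (f (sh i s x) ^ 2)
  nlinarith [sq_nonneg (f x)]

theorem Rw_bdd (hf : C1c f) (δ : ℝ) (i : ι) (s : ℝ) : ∃ C, ∀ x, Rw f δ i s x ≤ C := by
  obtain ⟨C, hC0, hC⟩ := hf.bdd
  have h : ∀ y, f y ^ 2 ≤ C ^ 2 := fun y => by rw [← sq_abs]; gcongr; exact hC y
  refine ⟨C ^ 2 + δ, fun x => ?_⟩
  unfold Rw
  have := max_le (h x) (h (sh i s x))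
  linarith

theorem Pre.Rw_int (hV : Nice V S L) (h : Pre V S K Γ e f δ) (i : ι) {s : ℝ} (hs : 0 ≤ s)
    (hL : exp (L * s) ≤ 2) :
    Integrable (Rw f δ i s) (dens V) ∧ ∫ x, Rw f δ i s x ∂(dens V) ≤ 4 := by
  have := hV.base.prob
  obtain ⟨C, hC⟩ := Rw_bdd h.c1c δ i s
  have i0 : Integrable (Rw f δ i s) (dens V) :=
    int_of_nonneg_le (Rw_cont h.c1c δ i s).measurable
      (fun x => h.δ_pos.le.trans (Rw_ge f δ i s x)) hC
  refine ⟨i0, ?_⟩
  obtain ⟨i1, b1⟩ := shift_le hV.smooth (u := fun x => f x ^ 2)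
    (h.c1c.cont.measurable.pow_const 2) (fun x => sq_nonneg _) h.c1c.int_sq i s
  have i2 : Integrable (fun x => f x ^ 2 + f (sh i s x) ^ 2) (dens V) := h.c1c.int_sq.add i1
  have hle : ∫ x, Rw f δ i s x ∂(dens V) ≤ ∫ x, (f x ^ 2 + f (sh i s x) ^ 2 + δ) ∂(dens V) := by
    refine integral_mono i0 (i2.add (integrable_const _)) fun x => ?_
    unfold Rw
    have : max (f x ^ 2) (f (sh i s x) ^ 2) ≤ f x ^ 2 + f (sh i s x) ^ 2 :=
      max_le (by nlinarith [sq_nonneg (f (sh i s x))]) (by nlinarith [sq_nonneg (f x)])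
    show max (f x ^ 2) (f (sh i s x) ^ 2) + δ ≤ f x ^ 2 + f (sh i s x) ^ 2 + δ
    linarith
  rw [integral_add i2 (integrable_const _), integral_add h.c1c.int_sq i1, h.norm] at hle
  rw [h.norm, abs_of_nonneg hs] at b1
  simp only [integral_const, probReal_univ, smul_eq_mul, one_mul] at hle
  linarith [h.δ_le]

theorem pd_sq_le (μ : Measure (ι → ℝ)) (f : (ι → ℝ) → ℝ) (i : ι) :
    ∫ x, pd f i x ^ 2 ∂μ ≤ En μ f :=
  Finset.single_le_sum (f := fun j => ∫ x, pd f j x ^ 2 ∂μ)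
    (fun _ _ => integral_nonneg fun _ => sq_nonneg _) (Finset.mem_univ i)

theorem U_sum (hV : Nice V S L) (hf : C1c f) :
    ∑ i, ∫ x, U1 S (x i) * f x ^ 2 ∂(dens V) = ∫ x, U S x * f x ^ 2 ∂(dens V) := by
  have := hV.base.prob
  unfold U
  simp only [Finset.sum_mul]
  refine (integral_finsetSum _ fun i _ => ?_).symm
  exact integrable_of_supp (((U1_cont S).comp (continuous_apply i)).mul (hf.cont.pow 2))
    (sq_supp hf.2).mul_left

theorem Pre.dif_le (hV : Nice V S L) (h : Pre V S K Γ e f δ) (i : ι) {s : ℝ} (hs : 0 ≤ s)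
    (hL : exp (L * s) ≤ 2) :
    ∫ x, dif f i s x ^ 2 ∂(dens V) ≤ 2 * s ^ 2 * ∫ x, pd f i x ^ 2 ∂(dens V) := by
  have h1 := dif_sq_le hV h.c1c i hs
  have h2 : 0 ≤ ∫ x, pd f i x ^ 2 ∂(dens V) := integral_nonneg fun _ => sq_nonneg _
  calc _ ≤ s ^ 2 * exp (L * s) * ∫ x, pd f i x ^ 2 ∂(dens V) := h1
    _ ≤ s ^ 2 * 2 * ∫ x, pd f i x ^ 2 ∂(dens V) := by gcongr
    _ = _ := by ring

theorem Pre.log_Rw (hV : Nice V S L) (h : Pre V S K Γ e f δ) (i : ι) {s : ℝ} (hs : 0 ≤ s)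
    (hL : exp (L * s) ≤ 2) {φ : (ι → ℝ) → ℝ} (hφ : C1c φ) :
    ∫ x, φ x ^ 2 * log (Rw f δ i s x) ∂(dens V) ≤
      Ent (dens V) (fun x => φ x ^ 2) + (∫ x, φ x ^ 2 ∂(dens V)) * 2 := by
  have := hV.base.prob
  have hpos : ∀ x, 0 < Rw f δ i s x := fun x => h.δ_pos.trans_le (Rw_ge f δ i s x)
  obtain ⟨i0, b0⟩ := h.Rw_int hV i hs hL
  have e1 : (fun x => exp (log (Rw f δ i s x))) = Rw f δ i s := by
    funext x; exact exp_log (hpos x)
  have hg := gibbs (μ := dens V) (w := fun x => φ x ^ 2) (G := fun x => log (Rw f δ i s x))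
    (fun x => sq_nonneg _) hφ.int_sq hφ.int_sq_log
    (integrable_of_supp ((hφ.cont.pow 2).mul ((Rw_cont h.c1c δ i s).log fun x => (hpos x).ne'))
      (sq_supp hφ.2).mul_right) (by rw [e1]; exact i0) (Z := 4) (by norm_num) (by rw [e1]; exact b0)
  have l4 : log 4 ≤ 2 := by
    have : log 4 = 2 * log 2 := by
      rw [show (4 : ℝ) = 2 ^ 2 by norm_num, log_pow]; norm_num
    have := Real.log_two_lt_d9
    linarith
  have : (∫ x, φ x ^ 2 ∂(dens V)) * log 4 ≤ (∫ x, φ x ^ 2 ∂(dens V)) * 2 :=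
    mul_le_mul_of_nonneg_left l4 (integral_nonneg fun _ => sq_nonneg _)
  linarith

theorem Pre.Uterm_crude (hV : Nice V S L) (h : Pre V S K Γ e f δ) (i : ι) {s : ℝ} (hs : 0 ≤ s)
    (hs1 : s ≤ 1) (hL : exp (L * s) ≤ 2) : |Uterm V S f i s| ≤ s ^ 2 * (2 * √Γ * (√(2 * Γ) + 1)) := by
  have h1 := Uterm_le hV h.c1c h.norm i hs
  have h2 : ∫ x, pd f i x ^ 2 ∂(dens V) ≤ Γ := (pd_sq_le _ f i).trans h.En_le
  have h3 : ∫ x, U1 S (x i) * f x ^ 2 ∂(dens V) ≤ Γ := by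
    refine le_trans ?_ h.P_le
    rw [← U_sum hV h.c1c]
    exact Finset.single_le_sum (f := fun j => ∫ x, U1 S (x j) * f x ^ 2 ∂(dens V))
      (fun _ _ => integral_nonneg fun _ => mul_nonneg (U1_nonneg _ _) (sq_nonneg _))
      (Finset.mem_univ i)
  calc _ ≤ _ := h1
    _ ≤ s ^ 2 * 2 * √Γ * (√(2 * Γ) + 1) := by gcongr
    _ = _ := by ring

/-- Second order regularity at the scale `l`. -/
theorem h2_est (hV : Nice V S L) (hK : 2 * K1 + 2 ≤ K) {Γ : ℝ} (hΓ : 0 ≤ Γ) :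
    ∃ C : ℝ, 0 ≤ C ∧ ∀ (l : ℝ) (f : (ι → ℝ) → ℝ) (δ : ℝ), 0 < l → l ≤ 1 → exp (L * l) ≤ 2 →
      Pre V S K Γ (l ^ 4) f δ → ∀ i j s, 0 < s → s ≤ l →
        ∫ x, (pd f j (sh i s x) - pd f j x) ^ 2 ∂(dens V) ≤ (C * l) ^ 2 := by
  obtain ⟨C, hC0, hC⟩ := gain_ineq hV
  have hK1 := K1_pos
  have hL0 := hV.smooth.nonneg
  set n : ℝ := (Fintype.card ι : ℝ)
  have hn : 0 ≤ n := Nat.cast_nonneg _
  have hK0 : 0 ≤ K := by linarith
  set D := 1 + K * (L * 2 * (n * Γ)) + 2 * √Γ * (√(2 * Γ) + 1) + (C + 4) * (2 * Γ) with hD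
  have hD0 : 0 ≤ D := by positivity
  refine ⟨√D, Real.sqrt_nonneg _, fun l f δ hl hl1 hLl h i j s hs hsl => ?_⟩
  have hLs : exp (L * s) ≤ 2 := le_trans (by gcongr) hLl
  have hφ := h.c1c.dif i s
  have h1 := shift_ineq hV h.c1c h.δ_pos K i s
  have h2 := h.log_Rw hV i hs.le hLs hφ
  have h3 := hC _ hφ
  have h4 := (abs_le.1 (h.err i s hs (by linarith))).1
  have h5 := (abs_le.1 (h.Uterm_crude hV i hs.le (by linarith) hLs)).1
  have h6 : -(K * Curv V f i s) ≤ l ^ 2 * (K * (L * 2 * (n * Γ))) := by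
    have c1 := Curv_crude hV h.c1c i hs.le
    have c2 : L * s ^ 2 * exp (L * s) * (n * En (dens V) f) ≤ L * l ^ 2 * 2 * (n * Γ) := by
      have := En_nonneg (dens V) f
      have := h.En_le
      gcongr
    have c3 : -Curv V f i s ≤ L * l ^ 2 * 2 * (n * Γ) := by linarith [(abs_le.1 c1).1]
    have := mul_le_mul_of_nonneg_left c3 hK0
    linarith
  have h7 : ∫ x, dif f i s x ^ 2 ∂(dens V) ≤ l ^ 2 * (2 * Γ) := by
    have c1 := h.dif_le hV i hs.le hLs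
    have c2 : ∫ x, pd f i x ^ 2 ∂(dens V) ≤ Γ := (pd_sq_le _ f i).trans h.En_le
    calc _ ≤ _ := c1
      _ ≤ 2 * l ^ 2 * Γ := by gcongr
      _ = _ := by ring
  have hE := En_nonneg (dens V) (dif f i s)
  have hP : 0 ≤ ∫ x, U S x * dif f i s x ^ 2 ∂(dens V) :=
    integral_nonneg fun x => mul_nonneg (U_nonneg _ _) (sq_nonneg _)
  have hN : 0 ≤ ∫ x, dif f i s x ^ 2 ∂(dens V) := integral_nonneg fun x => sq_nonneg _
  have h8 : (K1 + 1) * En (dens V) (dif f i s) ≤ K * En (dens V) (dif f i s) := by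
    gcongr; linarith
  have h9 : (C + 4) * ∫ x, dif f i s x ^ 2 ∂(dens V) ≤ (C + 4) * (l ^ 2 * (2 * Γ)) := by gcongr
  have h10 : s ^ 2 * (2 * √Γ * (√(2 * Γ) + 1)) ≤ l ^ 2 * (2 * √Γ * (√(2 * Γ) + 1)) := by gcongr
  have h11 : l ^ 4 ≤ l ^ 2 := pow_le_pow_of_le_one hl.le hl1 (by norm_num)
  have h12 : En (dens V) (dif f i s) ≤ l ^ 2 * D := by
    rw [hD]; nlinarith
  have h13 := pd_sq_le (dens V) (dif f i s) j
  simp only [pd_dif h.c1c] at h13
  rw [mul_pow, Real.sq_sqrt hD0]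
  linarith

theorem ent_est (hV : Nice V S L) (hK : 2 * K1 + 2 ≤ K) (hKI : KI (dens V) S K) {Γ : ℝ}
    (hΓ : 0 ≤ Γ) :
    ∃ C : ℝ, 0 ≤ C ∧ ∀ (l : ℝ) (f : (ι → ℝ) → ℝ) (δ : ℝ), 0 < l → l ≤ 1 → exp (L * l) ≤ 2 →
      Pre V S K Γ (l ^ 4) f δ →
        ∑ i, ∫ x, (pd f i x - l⁻¹ * dif f i l x) ^ 2 ∂(dens V) ≤ C * l ∧
        ∑ i, (Ent (dens V) (fun x => (l⁻¹ * dif f i l x) ^ 2) -
            ∫ x, (l⁻¹ * dif f i l x) ^ 2 * log (Rw f δ i l x) ∂(dens V)) ≤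
          4 * En (dens V) f + 2 * √(2 * En (dens V) f * ∫ x, U S x * f x ^ 2 ∂(dens V)) +
            C * l := by
  have := hV.base.prob
  obtain ⟨C, hC0, hC⟩ := h2_est hV hK hΓ
  have hK1 := K1_pos
  have hL0 := hV.smooth.nonneg
  set n : ℝ := (Fintype.card ι : ℝ) with hndef
  have hn : 0 ≤ n := Nat.cast_nonneg _
  have hK0 : 0 ≤ K := by linarith
  set D := n + K * (L * Γ + 2 * L * n ^ 2 * C * √(2 * Γ)) + 2 * n * √Γ with hD
  have hD0 : 0 ≤ D := by positivity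
  refine ⟨D + n * C ^ 2, by positivity, fun l f δ hl hl1 hLl h => ?_⟩
  have h1 := hC l f δ hl hl1 hLl h
  have h2 : ∀ i, ∫ x, (pd f i x - dif f i l x / l) ^ 2 ∂(dens V) ≤ (C * l) ^ 2 := fun i =>
    dif_sub_le hV h.c1c i hl fun t ht htl => h1 i i t ht htl
  have hE := En_nonneg (dens V) f
  constructor
  · have : ∑ i, ∫ x, (pd f i x - l⁻¹ * dif f i l x) ^ 2 ∂(dens V) ≤ ∑ _i : ι, (C * l) ^ 2 :=
      Finset.sum_le_sum fun i _ => by simpa only [div_eq_inv_mul] using h2 i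
    simp only [Finset.sum_const, Finset.card_univ, nsmul_eq_mul, ← hndef] at this
    have h3 : n * (C * l) ^ 2 ≤ n * C ^ 2 * l := by
      have : l ^ 2 ≤ l := by nlinarith
      calc n * (C * l) ^ 2 = n * C ^ 2 * l ^ 2 := by ring
        _ ≤ _ := by gcongr
    nlinarith [mul_nonneg hD0 hl.le]
  have h3 := Curv_sum hV h.c1c hl (by positivity : 0 ≤ C * l) (fun i j => h1 i j l hl le_rfl) h2
  have hi : 0 < (l ^ 2)⁻¹ := by positivity
  have h4 : ∀ i, Ent (dens V) (fun x => (l⁻¹ * dif f i l x) ^ 2) -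
      ∫ x, (l⁻¹ * dif f i l x) ^ 2 * log (Rw f δ i l x) ∂(dens V) ≤
      (l ^ 2)⁻¹ * (l ^ 4 - K * Curv V f i l + l ^ 2 * (2 * (√(∫ x, pd f i x ^ 2 ∂(dens V)) *
        √(2 * ∫ x, U1 S (x i) * f x ^ 2 ∂(dens V)))) + l ^ 3 * (2 * √Γ) +
        l ^ 2 * (4 * ∫ x, pd f i x ^ 2 ∂(dens V))) := by
    intro i
    have hφ := h.c1c.dif i l
    have e1 : (fun x => (l⁻¹ * dif f i l x) ^ 2) = fun x => (l ^ 2)⁻¹ * dif f i l x ^ 2 := by
      funext x; rw [mul_pow, inv_pow]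
    have e2 : ∫ x, (l⁻¹ * dif f i l x) ^ 2 * log (Rw f δ i l x) ∂(dens V) =
        (l ^ 2)⁻¹ * ∫ x, dif f i l x ^ 2 * log (Rw f δ i l x) ∂(dens V) := by
      rw [← integral_const_mul]
      refine integral_congr_ae (Eventually.of_forall fun x => ?_)
      simp only [mul_pow, inv_pow]; ring
    rw [e1, e2, Ent_const_mul hφ.int_sq hφ.int_sq_log hi, ← mul_sub]
    refine mul_le_mul_of_nonneg_left ?_ hi.le
    have a1 := shift_ineq hV h.c1c h.δ_pos K i l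
    have a2 := hKI _ hφ
    have a3 := (abs_le.1 (h.err i l hl hl1)).1
    have a4 := h.dif_le hV i hl.le hLl
    have a5 := Uterm_le hV h.c1c h.norm i hl.le
    have a6 : √(∫ x, pd f i x ^ 2 ∂(dens V)) ≤ √Γ :=
      Real.sqrt_le_sqrt ((pd_sq_le _ f i).trans h.En_le)
    have a7 : l ^ 2 * exp (L * l) * √(∫ x, pd f i x ^ 2 ∂(dens V)) *
        (√(2 * ∫ x, U1 S (x i) * f x ^ 2 ∂(dens V)) + l) ≤
        l ^ 2 * 2 * √(∫ x, pd f i x ^ 2 ∂(dens V)) *
        (√(2 * ∫ x, U1 S (x i) * f x ^ 2 ∂(dens V)) + l) := by gcongr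
    have a8 : l ^ 3 * (2 * √(∫ x, pd f i x ^ 2 ∂(dens V))) ≤ l ^ 3 * (2 * √Γ) := by gcongr
    have a9 := (abs_le.1 (a5.trans a7)).1
    nlinarith
  refine (Finset.sum_le_sum fun i _ => h4 i).trans ?_
  rw [← Finset.mul_sum, inv_mul_le_iff₀ (by positivity)]
  simp only [Finset.sum_add_distrib, Finset.sum_sub_distrib, ← Finset.mul_sum, Finset.sum_const,
    Finset.card_univ, nsmul_eq_mul, ← hndef]
  have b1 : ∑ i, √(∫ x, pd f i x ^ 2 ∂(dens V)) * √(2 * ∫ x, U1 S (x i) * f x ^ 2 ∂(dens V)) ≤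
      √(2 * En (dens V) f * ∫ x, U S x * f x ^ 2 ∂(dens V)) := by
    refine (Real.sum_sqrt_mul_sqrt_le _ (fun i => integral_nonneg fun _ => sq_nonneg _)
      (fun i => mul_nonneg (by norm_num)
        (integral_nonneg fun _ => mul_nonneg (U1_nonneg _ _) (sq_nonneg _)))).trans (le_of_eq ?_)
    rw [← Finset.mul_sum, U_sum hV h.c1c, ← Real.sqrt_mul
      (Finset.sum_nonneg fun i _ => integral_nonneg fun _ => sq_nonneg _)]
    congr 1
    unfold En; ring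
  have b2 : -(K * ∑ i, Curv V f i l) ≤
      l ^ 3 * (K * (L * Γ + 2 * L * n ^ 2 * C * √(2 * Γ))) := by
    have c1 : L * l ^ 3 * En (dens V) f +
        2 * L * l ^ 2 * n ^ 2 * (C * l) * √(exp (L * l) * En (dens V) f) ≤
        L * l ^ 3 * Γ + 2 * L * l ^ 2 * n ^ 2 * (C * l) * √(2 * Γ) := by
      have := h.En_le
      gcongr
    have c2 : -∑ i, Curv V f i l ≤ L * l ^ 3 * Γ + 2 * L * l ^ 2 * n ^ 2 * (C * l) * √(2 * Γ) := by
      linarith
    have := mul_le_mul_of_nonneg_left c2 hK0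
    linarith
  have b3 : n * l ^ 4 ≤ n * l ^ 3 := by
    have : l ^ 4 ≤ l ^ 3 := pow_le_pow_of_le_one hl.le hl1 (by norm_num)
    gcongr
  have b4 := mul_le_mul_of_nonneg_left b1 (show 0 ≤ l ^ 2 * 2 by positivity)
  have b5 : 0 ≤ l ^ 3 * (n * C ^ 2) := by positivity
  have b6 : ∑ i, ∫ x, pd f i x ^ 2 ∂(dens V) = En (dens V) f := rfl
  rw [b6, hD]
  nlinarith

theorem bad_pt {a b δ : ℝ} (hδ : 0 < δ) (h : 4 * (a ^ 2 + δ) < max (a ^ 2) (b ^ 2) + δ) :
    max (a ^ 2) (b ^ 2) + δ ≤ 16 / 3 * (b - a) ^ 2 := by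
  rcases le_total (a ^ 2) (b ^ 2) with h1 | h1
  · rw [max_eq_right h1] at h ⊢
    nlinarith [sq_nonneg (b - 4 * a), sq_nonneg (b - 2 * a), sq_nonneg a]
  · rw [max_eq_left h1] at h
    nlinarith [sq_nonneg a]

theorem Pre.bad_est (hV : Nice V S L) {l : ℝ} (h : Pre V S K Γ e f δ) (hl : 0 < l) (hl1 : l ≤ 1)
    (hL : exp (L * l) ≤ 2) (i : ι) :
    -log l * ∫ x, (if 4 * (f x ^ 2 + δ) < Rw f δ i l x then (l⁻¹ * dif f i l x) ^ 2 else 0)
        ∂(dens V) ≤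
      (Ent (dens V) (fun x => (l⁻¹ * dif f i l x) ^ 2) -
          ∫ x, (l⁻¹ * dif f i l x) ^ 2 * log (Rw f δ i l x) ∂(dens V)) +
        (∫ x, (l⁻¹ * dif f i l x) ^ 2 ∂(dens V)) * log (4 + 11 * Γ) := by
  have := hV.base.prob
  have hφ := h.c1c.dif i l
  have hd := hφ.const_mul l⁻¹
  have hΓ : 0 ≤ Γ := (En_nonneg _ _).trans h.En_le
  have hpos : ∀ x, 0 < Rw f δ i l x := fun x => h.δ_pos.trans_le (Rw_ge f δ i l x)
  obtain ⟨i0, b0⟩ := h.Rw_int hV i hl.le hL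
  have hRc := Rw_cont h.c1c δ i l
  have hB : MeasurableSet {x | 4 * (f x ^ 2 + δ) < Rw f δ i l x} :=
    measurableSet_lt (((h.c1c.cont.measurable.pow_const 2).add_const δ).const_mul 4)
      hRc.measurable
  have i1 : Integrable (fun x => (l⁻¹ * dif f i l x) ^ 2 * log (Rw f δ i l x)) (dens V) :=
    integrable_of_supp ((hd.cont.pow 2).mul (hRc.log fun x => (hpos x).ne'))
      (sq_supp hd.2).mul_right
  have i2 : Integrable (fun x =>
      if 4 * (f x ^ 2 + δ) < Rw f δ i l x then (l⁻¹ * dif f i l x) ^ 2 else 0) (dens V) := by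
    refine hd.int_sq.mono' (Measurable.aestronglyMeasurable ?_) (Eventually.of_forall fun x => ?_)
    · exact Measurable.ite hB (hd.cont.measurable.pow_const 2) measurable_const
    · split_ifs
      · rw [Real.norm_eq_abs, abs_of_nonneg (sq_nonneg _)]
      · simp [sq_nonneg]
  set G : (ι → ℝ) → ℝ := fun x =>
    log (Rw f δ i l x) + if 4 * (f x ^ 2 + δ) < Rw f δ i l x then -log l else 0 with hG
  have e1 : (fun x => (l⁻¹ * dif f i l x) ^ 2 * G x) = fun x =>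
      (l⁻¹ * dif f i l x) ^ 2 * log (Rw f δ i l x) + -log l *
        if 4 * (f x ^ 2 + δ) < Rw f δ i l x then (l⁻¹ * dif f i l x) ^ 2 else 0 := by
    funext x; simp only [hG]; split_ifs <;> ring
  have hle : ∀ x, exp (G x) ≤ Rw f δ i l x + 16 / 3 * l⁻¹ * dif f i l x ^ 2 := by
    intro x
    simp only [hG]
    rw [exp_add, exp_log (hpos x)]
    split_ifs with hx
    · rw [exp_neg, exp_log hl]
      have := bad_pt h.δ_pos hx
      have h2 : Rw f δ i l x * l⁻¹ ≤ 16 / 3 * dif f i l x ^ 2 * l⁻¹ := by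
        gcongr; exact this
      linarith [hpos x]
    · rw [exp_zero, mul_one]
      have : 0 ≤ 16 / 3 * l⁻¹ * dif f i l x ^ 2 := by positivity
      linarith
  have i3 : Integrable (fun x => Rw f δ i l x + 16 / 3 * l⁻¹ * dif f i l x ^ 2) (dens V) :=
    i0.add (hφ.int_sq.const_mul _)
  have hGm : Measurable G :=
    hRc.measurable.log.add (Measurable.ite hB measurable_const measurable_const)
  have i4 : Integrable (fun x => exp (G x)) (dens V) :=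
    i3.mono' hGm.exp.aestronglyMeasurable (Eventually.of_forall fun x => by
      rw [Real.norm_eq_abs, abs_of_pos (exp_pos _)]; exact hle x)
  have b1 : ∫ x, exp (G x) ∂(dens V) ≤ 4 + 11 * Γ := by
    refine (integral_mono i4 i3 hle).trans ?_
    rw [integral_add i0 (hφ.int_sq.const_mul _), integral_const_mul]
    have c1 := h.dif_le hV i hl.le hL
    have c2 : ∫ x, pd f i x ^ 2 ∂(dens V) ≤ Γ := (pd_sq_le _ f i).trans h.En_le
    have c3 : l⁻¹ * ∫ x, dif f i l x ^ 2 ∂(dens V) ≤ l⁻¹ * (2 * l ^ 2 * Γ) := by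
      gcongr
      exact c1.trans (by gcongr)
    have c4 : l⁻¹ * (2 * l ^ 2 * Γ) = 2 * (l * Γ) := by field_simp
    have c5 : l * Γ ≤ Γ := by nlinarith
    nlinarith
  have hg := gibbs (μ := dens V) (w := fun x => (l⁻¹ * dif f i l x) ^ 2) (G := G)
    (fun x => sq_nonneg _) hd.int_sq hd.int_sq_log (by rw [e1]; exact i1.add (i2.const_mul _)) i4
    (by linarith) b1
  rw [e1, integral_add i1 (i2.const_mul _), integral_const_mul] at hg
  linarith

end pre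

theorem regular (hV : Nice V S L) (hK : 2 * K1 + 2 ≤ K)
    (hKI : KI (dens V) S K) (hopt : ∀ ε : ℝ, 0 < ε → ¬ KI (dens V) S (K - ε)) {η : ℝ}
    (hη : 0 < η) : ∃ f δ d R, Reg (dens V) S K η f δ d R := by
  obtain ⟨Γ, hΓ, hpre⟩ := exists_pre hV hK hKI hopt
  obtain ⟨C, hC0, hC⟩ := ent_est hV hK hKI hΓ
  have hL0 := hV.smooth.nonneg
  have hlog : 0 ≤ log (4 + 11 * Γ) := log_nonneg (by linarith)
  set B := 4 * Γ + 2 * √(2 * Γ * Γ) + C + 2 * Γ * log (4 + 11 * Γ) with hB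
  have hB0 : 0 ≤ B := by positivity
  set l := min (min (min 1 η) (η / (C + 1))) (min (1 / (2 * L + 2)) (exp (-((B + 1) / η))))
    with hl
  have hl0 : 0 < l := by
    refine lt_min (lt_min (lt_min one_pos hη) (by positivity)) (lt_min (by positivity) (exp_pos _))
  have hl1 : l ≤ 1 := (min_le_left _ _).trans ((min_le_left _ _).trans (min_le_left _ _))
  have hl2 : l ≤ η := (min_le_left _ _).trans ((min_le_left _ _).trans (min_le_right _ _))
  have hl3 : C * l ≤ η := by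
    have : l ≤ η / (C + 1) := (min_le_left _ _).trans (min_le_right _ _)
    rw [le_div_iff₀ (by linarith)] at this
    nlinarith
  have hl4 : exp (L * l) ≤ 2 := by
    have h1 : l ≤ 1 / (2 * L + 2) := (min_le_right _ _).trans (min_le_left _ _)
    rw [le_div_iff₀ (by linarith)] at h1
    have h2 : L * l ≤ log 2 := by have := Real.log_two_gt_d9; nlinarith
    calc exp (L * l) ≤ exp (log 2) := by gcongr
      _ = 2 := exp_log (by norm_num)
  have hl5 : (B + 1) / η ≤ -log l := by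
    have h1 : l ≤ exp (-((B + 1) / η)) := (min_le_right _ _).trans (min_le_right _ _)
    have := Real.log_le_log hl0 h1
    rw [log_exp] at this
    linarith
  obtain ⟨f, δ, hδ, h⟩ := hpre (l ^ 4) (by positivity)
  obtain ⟨c1, c2⟩ := hC l f δ hl0 hl1 hl4 h
  have h4 : l ^ 4 ≤ l := by
    have := pow_le_pow_of_le_one hl0.le hl1 (show 1 ≤ 4 by norm_num)
    simpa using this
  have hE := En_nonneg (dens V) f
  have hd : ∑ i, ∫ x, (l⁻¹ * dif f i l x) ^ 2 ∂(dens V) ≤ 2 * En (dens V) f := by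
    unfold En
    rw [Finset.mul_sum]
    refine Finset.sum_le_sum fun i _ => ?_
    simp only [mul_pow]
    rw [integral_const_mul, inv_pow, inv_mul_le_iff₀ (by positivity)]
    linarith [h.dif_le hV i hl0.le hl4]
  refine ⟨f, δ, fun i x => l⁻¹ * dif f i l x, fun i => Rw f δ i l, h.c1c, h.δ_pos, by linarith,
    h.norm, h.big, fun i => ((h.c1c.dif i l).const_mul l⁻¹).cont,
    fun i => ((h.c1c.dif i l).const_mul l⁻¹).2, fun i => Rw_cont h.c1c δ i l,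
    fun i x => Rw_ge f δ i l x, fun i => Rw_bdd h.c1c δ i l,
    fun i => (h.Rw_int hV i hl0.le hl4).2, hd, by linarith, by linarith, ?_⟩
  have h5 := Finset.sum_le_sum (s := Finset.univ) fun i _ => h.bad_est hV hl0 hl1 hl4 i
  rw [← Finset.mul_sum, Finset.sum_add_distrib, ← Finset.sum_mul] at h5
  have h6 : √(2 * En (dens V) f * ∫ x, U S x * f x ^ 2 ∂(dens V)) ≤ √(2 * Γ * Γ) := by
    have := h.En_le
    have := h.P_le
    have : 0 ≤ ∫ x, U S x * f x ^ 2 ∂(dens V) :=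
      integral_nonneg fun x => mul_nonneg (U_nonneg _ _) (sq_nonneg _)
    gcongr
  have h7 : (∑ i, ∫ x, (l⁻¹ * dif f i l x) ^ 2 ∂(dens V)) * log (4 + 11 * Γ) ≤
      2 * Γ * log (4 + 11 * Γ) := by
    gcongr; linarith [h.En_le]
  have h8 : C * l ≤ C := by nlinarith
  set X := ∑ i, ∫ x, (if 4 * (f x ^ 2 + δ) < Rw f δ i l x then (l⁻¹ * dif f i l x) ^ 2 else 0)
    ∂(dens V) with hX
  have hX0 : 0 ≤ X := Finset.sum_nonneg fun i _ => integral_nonneg fun x => by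
    simp only [Pi.zero_apply]
    split_ifs
    · positivity
    · exact le_rfl
  have h9 : (B + 1) / η * X ≤ B := by
    have : (B + 1) / η * X ≤ -log l * X := by gcongr
    have := h.En_le
    linarith
  rw [div_mul_eq_mul_div, div_le_iff₀ hη] at h9
  nlinarith

end Vale.Agent.P245
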