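import Vale.Agent.P245.Basic

open MeasureTheory Real Set Filter Topology
open scoped ENNReal

namespace Vale.Agent.P245

set_option linter.unusedSectionVars false

variable {ι : Type} [Fintype ι] [DecidableEq ι]

theorem dens_meas {V : (ι → ℝ) → ℝ} (hV : Continuous V) :
    Measurable (fun x => ENNReal.ofReal (exp (-V x))) :=
  (continuous_exp.comp hV.neg).measurable.ennreal_ofReal

theorem integral_dens {V : (ι → ℝ) → ℝ} (hV : Continuous V) (u : (ι → ℝ) → ℝ) :
    ∫ x, u x ∂(dens V) = ∫ x, exp (-V x) * u x := by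
  unfold dens mu
  rw [integral_withDensity_eq_integral_toReal_smul (dens_meas hV)
    (Eventually.of_forall fun _ => ENNReal.ofReal_lt_top)]
  refine integral_congr_ae (Eventually.of_forall fun x => ?_)
  simp only [ENNReal.toReal_ofReal (exp_pos _).le, smul_eq_mul]

theorem integrable_dens {V : (ι → ℝ) → ℝ} (hV : Continuous V) (u : (ι → ℝ) → ℝ) :
    Integrable u (dens V) ↔ Integrable (fun x => exp (-V x) * u x) := by
  unfold dens mu
  rw [integrable_withDensity_iff_integrable_smul' (dens_meas hV)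
    (Eventually.of_forall fun _ => ENNReal.ofReal_lt_top)]
  simp only [ENNReal.toReal_ofReal (exp_pos _).le, smul_eq_mul]

theorem sh_neg_sh (i : ι) (t : ℝ) (x : ι → ℝ) : sh i (-t) (sh i t x) = x := by
  rw [sh_sh, add_neg_cancel, sh_zero]

theorem sh_sh_neg (i : ι) (t : ℝ) (x : ι → ℝ) : sh i t (sh i (-t) x) = x := by
  rw [sh_sh, neg_add_cancel, sh_zero]

theorem integral_sh (g : (ι → ℝ) → ℝ) (i : ι) (t : ℝ) : ∫ x, g (sh i t x) = ∫ x, g x :=
  integral_add_right_eq_self g (Pi.single i t)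

theorem integrable_sh {g : (ι → ℝ) → ℝ} (hg : Integrable g) (i : ι) (t : ℝ) :
    Integrable (fun x => g (sh i t x)) :=
  hg.comp_add_right (Pi.single i t)

theorem shift_adj {V : (ι → ℝ) → ℝ} (hV : Continuous V) (u : (ι → ℝ) → ℝ) (i : ι) (t : ℝ) :
    ∫ x, u x * exp (V x - V (sh i (-t) x)) ∂(dens V) = ∫ x, u (sh i t x) ∂(dens V) := by
  rw [integral_dens hV, integral_dens hV,
    ← integral_sh (fun x => exp (-V x) * (u x * exp (V x - V (sh i (-t) x)))) i t]
  refine integral_congr_ae (Eventually.of_forall fun x => ?_)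
  simp only [sh_neg_sh]
  have e : exp (-V x) = exp (-V (sh i t x)) * exp (V (sh i t x) - V x) := by
    rw [← exp_add]; ring_nf
  rw [e]; ring

theorem Smooth.exp_le {V : (ι → ℝ) → ℝ} {L : ℝ} (hV : Smooth V L) (x : ι → ℝ) (i : ι) (t : ℝ) :
    exp (V x - V (sh i (-t) x)) ≤ exp (L * |t|) := by
  have h := hV.lip x i (-t)
  rw [abs_neg] at h
  exact exp_le_exp.2 (by linarith [neg_abs_le (V (sh i (-t) x) - V x)])

theorem shift_le {V : (ι → ℝ) → ℝ} {L : ℝ} (hV : Smooth V L) {u : (ι → ℝ) → ℝ}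
    (hu : Measurable u) (h0 : ∀ x, 0 ≤ u x) (hi : Integrable u (dens V)) (i : ι) (t : ℝ) :
    Integrable (fun x => u (sh i t x)) (dens V) ∧
      ∫ x, u (sh i t x) ∂(dens V) ≤ exp (L * |t|) * ∫ x, u x ∂(dens V) := by
  have hc : Continuous V := hV.c1.continuous
  have hm : Measurable fun x => u x * exp (V x - V (sh i (-t) x)) :=
    hu.mul (continuous_exp.comp (hc.sub (hc.comp (sh_cont i (-t))))).measurable
  have hb : ∀ x, u x * exp (V x - V (sh i (-t) x)) ≤ exp (L * |t|) * u x := fun x => by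
    rw [mul_comm]
    exact mul_le_mul_of_nonneg_right (hV.exp_le x i t) (h0 x)
  have hI : Integrable (fun x => u x * exp (V x - V (sh i (-t) x))) (dens V) := by
    refine (hi.const_mul (exp (L * |t|))).mono' hm.aestronglyMeasurable
      (Eventually.of_forall fun x => ?_)
    rw [Real.norm_eq_abs, abs_of_nonneg (mul_nonneg (h0 x) (exp_pos _).le)]
    exact hb x
  constructor
  · rw [integrable_dens hc] at hI ⊢
    refine (integrable_sh hI i t).congr (Eventually.of_forall fun x => ?_)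
    simp only [sh_neg_sh]
    have e : exp (-V x) = exp (-V (sh i t x)) * exp (V (sh i t x) - V x) := by
      rw [← exp_add]; ring_nf
    rw [e]; ring
  · rw [← shift_adj hc u i t, ← integral_const_mul]
    exact integral_mono hI (hi.const_mul _) hb

theorem sh_contDiff (i : ι) (s : ℝ) : ContDiff ℝ 1 (sh i s : (ι → ℝ) → ι → ℝ) := by
  unfold sh
  exact contDiff_id.add contDiff_const

theorem supp_sh {f : (ι → ℝ) → ℝ} (hf : HasCompactSupport f) (i : ι) (s : ℝ) :
    HasCompactSupport (fun x => f (sh i s x)) :=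
  hf.comp_homeomorph (Homeomorph.addRight (Pi.single i s : ι → ℝ))

theorem C1c.sh {f : (ι → ℝ) → ℝ} (hf : C1c f) (i : ι) (s : ℝ) : C1c (fun x => f (sh i s x)) :=
  ⟨hf.1.comp (sh_contDiff i s), supp_sh hf.2 i s⟩

theorem pd_sh {f : (ι → ℝ) → ℝ} (hf : Differentiable ℝ f) (i j : ι) (s : ℝ) (x : ι → ℝ) :
    pd (fun y => f (sh i s y)) j x = pd f j (sh i s x) := by
  have h1 : HasFDerivAt (sh i s : (ι → ℝ) → ι → ℝ) (ContinuousLinearMap.id ℝ (ι → ℝ)) x :=
    (hasFDerivAt_id x).add_const (Pi.single i s : ι → ℝ)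
  have h2 := ((hf (sh i s x)).hasFDerivAt.comp x h1).fderiv
  unfold pd
  have e : (fun y => f (sh i s y)) = f ∘ sh i s := rfl
  rw [e, h2]
  rfl

theorem C1c.dif {f : (ι → ℝ) → ℝ} (hf : C1c f) (i : ι) (s : ℝ) : C1c (dif f i s) :=
  ⟨(hf.sh i s).1.sub hf.1, (hf.sh i s).2.sub hf.2⟩

theorem pd_dif {f : (ι → ℝ) → ℝ} (hf : C1c f) (i j : ι) (s : ℝ) (x : ι → ℝ) :
    pd (dif f i s) j x = pd f j (sh i s x) - pd f j x := by
  have h := pd_sub (hf.sh i s).diff hf.diff j x
  rw [pd_sh hf.diff] at h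
  exact h

theorem expV_contDiff {V : (ι → ℝ) → ℝ} (hV : ContDiff ℝ 1 V) (i : ι) (s : ℝ) :
    ContDiff ℝ 1 (fun x => exp (V x - V (sh i s x))) :=
  (hV.sub (hV.comp (sh_contDiff i s))).exp

theorem C1c.adj {V φ : (ι → ℝ) → ℝ} (hV : ContDiff ℝ 1 V) (hφ : C1c φ) (i : ι) (s : ℝ) :
    C1c (adj V φ i s) :=
  ⟨hφ.1.sub ((hφ.sh i (-s)).1.mul (expV_contDiff hV i (-s))),
    hφ.2.sub (hφ.sh i (-s)).2.mul_right⟩

theorem pd_exp {g : (ι → ℝ) → ℝ} (hg : Differentiable ℝ g) (j : ι) (x : ι → ℝ) :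
    pd (fun y => exp (g y)) j x = exp (g x) * pd g j x := by
  unfold pd
  rw [((hg x).hasFDerivAt.exp).fderiv]
  rfl

theorem pd_adj {V φ : (ι → ℝ) → ℝ} (hV : ContDiff ℝ 1 V) (hφ : C1c φ) (i j : ι) (s : ℝ)
    (x : ι → ℝ) :
    pd (adj V φ i s) j x = pd φ j x - pd φ j (sh i (-s) x) * exp (V x - V (sh i (-s) x)) -
      φ (sh i (-s) x) * exp (V x - V (sh i (-s) x)) * (pd V j x - pd V j (sh i (-s) x)) := by
  have dV : Differentiable ℝ V := hV.differentiable (by norm_num)
  have dV' : Differentiable ℝ (fun y => V (sh i (-s) y)) :=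
    (hV.comp (sh_contDiff i (-s))).differentiable (by norm_num)
  have dE : Differentiable ℝ (fun y => exp (V y - V (sh i (-s) y))) :=
    (expV_contDiff hV i (-s)).differentiable (by norm_num)
  have dφ : Differentiable ℝ (fun y => φ (sh i (-s) y)) := (hφ.sh i (-s)).diff
  have h1 := pd_sub hφ.diff (dφ.mul dE) j x
  have h2 := pd_mul dφ dE j x
  have h3 := pd_exp (dV.sub dV') j x
  have h4 := pd_sub dV dV' j x
  rw [pd_sh dV] at h4
  rw [pd_sh hφ.diff] at h2
  have e1 : pd (adj V φ i s) j x = pd φ j x -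
      pd (fun y => φ (sh i (-s) y) * exp (V y - V (sh i (-s) y))) j x := h1
  have e3 : pd (fun y => exp (V y - V (sh i (-s) y))) j x =
      exp (V x - V (sh i (-s) x)) * pd (fun y => V y - V (sh i (-s) y)) j x := h3
  rw [e1, h2, e3, h4]
  ring

theorem hasDerivAt_sh {f : (ι → ℝ) → ℝ} (hf : Differentiable ℝ f) (i : ι) (x : ι → ℝ) (t : ℝ) :
    HasDerivAt (fun t => f (sh i t x)) (pd f i (sh i t x)) t := by
  have h1 : HasDerivAt (fun t : ℝ => sh i t x) (Pi.single i (1 : ℝ) : ι → ℝ) t := by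
    have e : (fun t : ℝ => sh i t x) = fun t : ℝ => x + t • (Pi.single i (1 : ℝ) : ι → ℝ) := by
      funext t
      unfold sh
      rw [← Pi.single_smul, smul_eq_mul, mul_one]
    rw [e]
    simpa using ((hasDerivAt_id t).smul_const (Pi.single i (1 : ℝ) : ι → ℝ)).const_add x
  exact (hf (sh i t x)).hasFDerivAt.comp_hasDerivAt t h1

theorem sh_cont2 (i : ι) : Continuous (fun p : ℝ × (ι → ℝ) => sh i p.1 p.2) := by
  unfold sh
  exact continuous_snd.add ((continuous_single i).comp continuous_fst)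

theorem dif_eq_integral {f : (ι → ℝ) → ℝ} (hf : C1c f) (i : ι) (s : ℝ) (x : ι → ℝ) :
    dif f i s x = ∫ t in (0 : ℝ)..s, pd f i (sh i t x) := by
  have hc : Continuous fun t : ℝ => pd f i (sh i t x) :=
    (hf.pd_cont i).comp ((sh_cont2 i).comp (continuous_id.prodMk continuous_const))
  rw [intervalIntegral.integral_eq_sub_of_hasDerivAt (fun t _ => hasDerivAt_sh hf.diff i x t)
    (hc.intervalIntegrable _ _), sh_zero]
  rfl

/-- Cauchy-Schwarz on an interval. -/
theorem sq_interval_le {g : ℝ → ℝ} (hg : Continuous g) {s : ℝ} (hs : 0 ≤ s) :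
    (∫ t in (0 : ℝ)..s, g t) ^ 2 ≤ s * ∫ t in (0 : ℝ)..s, g t ^ 2 := by
  rcases hs.eq_or_lt with rfl | hs
  · simp
  set m := (∫ t in (0 : ℝ)..s, g t) / s with hm
  have h0 : 0 ≤ ∫ t in (0 : ℝ)..s, (g t - m) ^ 2 :=
    intervalIntegral.integral_nonneg hs.le fun t _ => sq_nonneg _
  have e : ∀ t, (g t - m) ^ 2 = (g t ^ 2 - 2 * m * g t) + m ^ 2 := fun t => by ring
  simp only [e] at h0
  have i1 : IntervalIntegrable (fun t => g t ^ 2) volume 0 s := (hg.pow 2).intervalIntegrable _ _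
  have i2 : IntervalIntegrable (fun t => 2 * m * g t) volume 0 s :=
    (continuous_const.mul hg).intervalIntegrable _ _
  rw [intervalIntegral.integral_add (i1.sub i2) intervalIntegrable_const,
    intervalIntegral.integral_sub i1 i2, intervalIntegral.integral_const_mul,
    intervalIntegral.integral_const] at h0
  have e2 : (∫ t in (0 : ℝ)..s, g t) = m * s := by rw [hm]; field_simp
  rw [e2] at h0 ⊢
  simp only [sub_zero, smul_eq_mul] at h0
  nlinarith

/-- Averaging in the shift parameter. -/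
theorem avg_sq_le {μ : Measure (ι → ℝ)} [IsFiniteMeasure μ] {g : ℝ → (ι → ℝ) → ℝ}
    (hg : Continuous (Function.uncurry g)) {C : ℝ} (hC : ∀ t x, |g t x| ≤ C) {s c : ℝ}
    (hs : 0 ≤ s) (h : ∀ t, 0 < t → t ≤ s → ∫ x, g t x ^ 2 ∂μ ≤ c) :
    ∫ x, (∫ t in (0 : ℝ)..s, g t x) ^ 2 ∂μ ≤ s ^ 2 * c := by
  have hb : ∀ t x, |g t x ^ 2| ≤ C ^ 2 := fun t x => by
    rw [abs_pow]; exact pow_le_pow_left₀ (abs_nonneg _) (hC t x) 2
  have hg2 : Continuous (Function.uncurry fun t x => g t x ^ 2) := hg.pow 2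
  have hI : Integrable (Function.uncurry fun t x => g t x ^ 2)
      ((volume.restrict (uIoc 0 s)).prod μ) := by
    have : IsFiniteMeasure (volume.restrict (uIoc (0 : ℝ) s)) := by
      rw [uIoc_of_le hs]; infer_instance
    exact Integrable.of_bound hg2.aestronglyMeasurable (C ^ 2)
      (Eventually.of_forall fun p => hb p.1 p.2)
  have hsw := intervalIntegral_integral_swap hI
  have hc2 : Continuous fun x => ∫ t in (0 : ℝ)..s, g t x ^ 2 :=
    intervalIntegral.continuous_parametric_intervalIntegral_of_continuous'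
      (f := fun x t => g t x ^ 2) (hg2.comp continuous_swap) 0 s
  have hi2 : Integrable (fun x => ∫ t in (0 : ℝ)..s, g t x ^ 2) μ := by
    refine integrable_of_bdd hc2.measurable (C := C ^ 2 * |s - 0|) fun x => ?_
    exact intervalIntegral.norm_integral_le_of_norm_le_const (f := fun t => g t x ^ 2)
      fun t _ => hb t x
  have h1 : ∫ x, (∫ t in (0 : ℝ)..s, g t x) ^ 2 ∂μ ≤ ∫ x, s * (∫ t in (0 : ℝ)..s, g t x ^ 2) ∂μ :=
    integral_mono_of_nonneg (Eventually.of_forall fun x => sq_nonneg _) (hi2.const_mul s)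
      (Eventually.of_forall fun x =>
        sq_interval_le (hg.comp (continuous_id.prodMk continuous_const)) hs)
  rw [integral_const_mul, ← hsw] at h1
  have h2 : ∫ t in (0 : ℝ)..s, ∫ x, g t x ^ 2 ∂μ ≤ ∫ _ in (0 : ℝ)..s, c := by
    refine intervalIntegral.integral_mono_on_of_le_Ioo hs ?_ intervalIntegrable_const
      fun t ht => h t ht.1 ht.2.le
    exact intervalIntegrable_iff.2 hI.integral_prod_left
  rw [intervalIntegral.integral_const, sub_zero, smul_eq_mul] at h2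
  calc _ ≤ s * ∫ t in (0 : ℝ)..s, ∫ x, g t x ^ 2 ∂μ := h1
    _ ≤ s * (s * c) := by gcongr
    _ = s ^ 2 * c := by ring

theorem C1c.int_pd_sq {μ : Measure (ι → ℝ)} [IsFiniteMeasure μ] {f : (ι → ℝ) → ℝ} (hf : C1c f)
    (i : ι) : Integrable (fun x => pd f i x ^ 2) μ := by
  obtain ⟨C, _, hC⟩ := hf.pd_bdd i
  refine integrable_of_bdd ((hf.pd_cont i).pow 2).measurable (C := C ^ 2) fun x => ?_
  rw [abs_pow]; exact pow_le_pow_left₀ (abs_nonneg _) (hC x) 2

/-- `dif f i s x = ∫ t in 0..s, pd f i (sh i t x)`; Cauchy-Schwarz, Fubini and `shift_le`. -/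
theorem dif_sq_le {V : (ι → ℝ) → ℝ} {S L : ℝ} (hV : Nice V S L) {f : (ι → ℝ) → ℝ} (hf : C1c f)
    (i : ι) {s : ℝ} (hs : 0 ≤ s) :
    ∫ x, dif f i s x ^ 2 ∂(dens V) ≤ s ^ 2 * exp (L * s) * ∫ x, pd f i x ^ 2 ∂(dens V) := by
  have := hV.base.prob
  obtain ⟨C, _, hC⟩ := hf.pd_bdd i
  simp only [dif_eq_integral hf]
  rw [mul_assoc]
  refine avg_sq_le (g := fun t x => pd f i (sh i t x)) ((hf.pd_cont i).comp (sh_cont2 i))
    (fun t x => hC _) hs fun t ht hts => ?_
  have h := (shift_le hV.smooth (u := fun x => pd f i x ^ 2) ((hf.pd_cont i).pow 2).measurable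
    (fun x => sq_nonneg _) (hf.int_pd_sq i) i t).2
  refine h.trans (mul_le_mul_of_nonneg_right ?_ (integral_nonneg fun x => sq_nonneg _))
  rw [abs_of_pos ht]
  exact exp_le_exp.2 (mul_le_mul_of_nonneg_left hts hV.smooth.nonneg)

/-- Same argument for `pd f i (sh i t x) - pd f i x`. -/
theorem dif_sub_le {V : (ι → ℝ) → ℝ} {S L : ℝ} (hV : Nice V S L) {f : (ι → ℝ) → ℝ} (hf : C1c f)
    (i : ι) {s c : ℝ} (hs : 0 < s)
    (h : ∀ t, 0 < t → t ≤ s → ∫ x, (pd f i (sh i t x) - pd f i x) ^ 2 ∂(dens V) ≤ c) :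
    ∫ x, (pd f i x - dif f i s x / s) ^ 2 ∂(dens V) ≤ c := by
  have := hV.base.prob
  obtain ⟨C, _, hC⟩ := hf.pd_bdd i
  have key := avg_sq_le (μ := dens V) (g := fun t x => pd f i (sh i t x) - pd f i x)
    (((hf.pd_cont i).comp (sh_cont2 i)).sub ((hf.pd_cont i).comp continuous_snd)) (C := C + C)
    (fun t x => (abs_sub _ _).trans (add_le_add (hC _) (hC _))) hs.le h
  have e : ∀ x, (pd f i x - dif f i s x / s) ^ 2 =
      (s ^ 2)⁻¹ * (∫ t in (0 : ℝ)..s, (pd f i (sh i t x) - pd f i x)) ^ 2 := by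
    intro x
    have hc : Continuous fun t : ℝ => pd f i (sh i t x) :=
      (hf.pd_cont i).comp ((sh_cont2 i).comp (continuous_id.prodMk continuous_const))
    rw [intervalIntegral.integral_sub (hc.intervalIntegrable _ _) intervalIntegrable_const,
      ← dif_eq_integral hf, intervalIntegral.integral_const, sub_zero, smul_eq_mul]
    field_simp
    ring
  simp only [e]
  rw [integral_const_mul, inv_mul_le_iff₀ (by positivity)]
  exact key

end Vale.Agent.P245
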