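import Vale.Agent.P245.Shift

/-! Continuous compactly supported functions: integrability and Cauchy-Schwarz. -/

open MeasureTheory Real Set Filter Topology
open scoped ENNReal

namespace Vale.Agent.P245

set_option linter.unusedSectionVars false

variable {ι : Type} [Fintype ι] [DecidableEq ι]

/-- Continuous compactly supported functions. -/
def CC (u : (ι → ℝ) → ℝ) : Prop := Continuous u ∧ HasCompactSupport u

theorem CC.int {μ : Measure (ι → ℝ)} [IsFiniteMeasure μ] {u : (ι → ℝ) → ℝ} (hu : CC u) :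
    Integrable u μ := integrable_of_supp hu.1 hu.2

theorem CC.mul_left {u g : (ι → ℝ) → ℝ} (hu : CC u) (hg : Continuous g) :
    CC (fun x => g x * u x) := ⟨hg.mul hu.1, hu.2.mul_left⟩

theorem CC.mul_right {u g : (ι → ℝ) → ℝ} (hu : CC u) (hg : Continuous g) :
    CC (fun x => u x * g x) := ⟨hu.1.mul hg, hu.2.mul_right⟩

theorem CC.add {u v : (ι → ℝ) → ℝ} (hu : CC u) (hv : CC v) : CC (fun x => u x + v x) :=
  ⟨hu.1.add hv.1, hu.2.add hv.2⟩

theorem CC.sub {u v : (ι → ℝ) → ℝ} (hu : CC u) (hv : CC v) : CC (fun x => u x - v x) :=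
  ⟨hu.1.sub hv.1, hu.2.sub hv.2⟩

theorem CC.sh {u : (ι → ℝ) → ℝ} (hu : CC u) (i : ι) (s : ℝ) : CC (fun x => u (sh i s x)) :=
  ⟨hu.1.comp (sh_cont i s), supp_sh hu.2 i s⟩

theorem CC.sq {u : (ι → ℝ) → ℝ} (hu : CC u) : CC (fun x => u x ^ 2) := by
  have h := hu.mul_left hu.1
  simpa only [← pow_two] using h

theorem CC.abs {u : (ι → ℝ) → ℝ} (hu : CC u) : CC (fun x => |u x|) :=
  ⟨hu.1.abs, hu.2.comp_left (g := fun t : ℝ => |t|) abs_zero⟩

theorem C1c.cc {f : (ι → ℝ) → ℝ} (hf : C1c f) : CC f := ⟨hf.cont, hf.2⟩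

theorem C1c.pd_cc {f : (ι → ℝ) → ℝ} (hf : C1c f) (i : ι) : CC (pd f i) :=
  ⟨hf.pd_cont i, hf.pd_supp i⟩

/-- Cauchy-Schwarz. -/
theorem cs_int {α : Type} [MeasurableSpace α] {μ : Measure α} {u v : α → ℝ}
    (hu : Integrable (fun x => u x ^ 2) μ) (hv : Integrable (fun x => v x ^ 2) μ)
    (huv : Integrable (fun x => u x * v x) μ) :
    |∫ x, u x * v x ∂μ| ≤ √(∫ x, u x ^ 2 ∂μ) * √(∫ x, v x ^ 2 ∂μ) := by
  have hA : 0 ≤ ∫ x, u x ^ 2 ∂μ := integral_nonneg fun x => sq_nonneg _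
  have h : ∀ t : ℝ, 0 ≤ (∫ x, u x ^ 2 ∂μ) * (t * t) + (2 * ∫ x, u x * v x ∂μ) * t +
      ∫ x, v x ^ 2 ∂μ := by
    intro t
    have h0 : 0 ≤ ∫ x, (t * u x + v x) ^ 2 ∂μ := integral_nonneg fun x => sq_nonneg _
    have e : ∀ x, (t * u x + v x) ^ 2 = (t * t * u x ^ 2 + 2 * t * (u x * v x)) + v x ^ 2 :=
      fun x => by ring
    simp only [e] at h0
    have i1 : Integrable (fun x => t * t * u x ^ 2) μ := hu.const_mul _
    have i2 : Integrable (fun x => 2 * t * (u x * v x)) μ := huv.const_mul _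
    have i3 : Integrable (fun x => t * t * u x ^ 2 + 2 * t * (u x * v x)) μ := i1.add i2
    rw [integral_add i3 hv, integral_add i1 i2, integral_const_mul, integral_const_mul] at h0
    linarith
  have hd := discrim_le_zero h
  rw [← sqrt_mul hA]
  refine abs_le_sqrt ?_
  unfold discrim at hd
  nlinarith

theorem CC.cs {μ : Measure (ι → ℝ)} [IsFiniteMeasure μ] {u v : (ι → ℝ) → ℝ} (hu : CC u)
    (hv : CC v) : |∫ x, u x * v x ∂μ| ≤ √(∫ x, u x ^ 2 ∂μ) * √(∫ x, v x ^ 2 ∂μ) :=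
  cs_int hu.sq.int hv.sq.int (hu.mul_right hv.1).int

/-- Cauchy-Schwarz with a pointwise majorant. -/
theorem CC.cs_le {μ : Measure (ι → ℝ)} [IsFiniteMeasure μ] {u v w : (ι → ℝ) → ℝ} (hu : CC u)
    (hv : CC v) {c : ℝ} (hc : 0 ≤ c) (h : ∀ x, |w x| ≤ c * (|u x| * |v x|)) :
    |∫ x, w x ∂μ| ≤ c * (√(∫ x, u x ^ 2 ∂μ) * √(∫ x, v x ^ 2 ∂μ)) := by
  have h1 := hu.abs.cs (μ := μ) hv.abs
  simp only [sq_abs] at h1
  have h2 : |∫ x, w x ∂μ| ≤ ∫ x, c * (|u x| * |v x|) ∂μ :=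
    norm_integral_le_of_norm_le (f := w) (((hu.abs.mul_right hv.abs.1).int).const_mul c)
      (Eventually.of_forall h)
  rw [integral_const_mul] at h2
  exact h2.trans (mul_le_mul_of_nonneg_left ((le_abs_self _).trans h1) hc)

theorem shift_sq {V : (ι → ℝ) → ℝ} {S L : ℝ} (hV : Nice V S L) {u : (ι → ℝ) → ℝ} (hu : CC u)
    (i : ι) (t : ℝ) :
    ∫ x, u (sh i t x) ^ 2 ∂(dens V) ≤ exp (L * |t|) * ∫ x, u x ^ 2 ∂(dens V) := by
  have := hV.base.prob
  exact (shift_le hV.smooth (u := fun x => u x ^ 2) hu.sq.1.measurable (fun x => sq_nonneg _)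
    hu.sq.int i t).2

/-- The adjoint relation. -/
theorem integral_mul_shift {V : (ι → ℝ) → ℝ} (hV : Continuous V) (u φ : (ι → ℝ) → ℝ) (i : ι)
    (s : ℝ) :
    ∫ x, u x * (φ (sh i (-s) x) * exp (V x - V (sh i (-s) x))) ∂(dens V) =
      ∫ x, u (sh i s x) * φ x ∂(dens V) := by
  have h := shift_adj hV (fun x => u x * φ (sh i (-s) x)) i s
  simp only [sh_neg_sh] at h
  rw [← h]
  refine integral_congr_ae (Eventually.of_forall fun x => ?_)
  simp only [mul_assoc]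

theorem expV_cont {V : (ι → ℝ) → ℝ} (hV : Continuous V) (i : ι) (s : ℝ) :
    Continuous (fun x => exp (V x - V (sh i s x))) :=
  continuous_exp.comp (hV.sub (hV.comp (sh_cont i s)))

theorem integral_mul_adj {V : (ι → ℝ) → ℝ} (hV : Continuous V) [IsFiniteMeasure (dens V)]
    {u φ : (ι → ℝ) → ℝ} (hu : Continuous u) (hφ : CC φ) (i : ι) (s : ℝ) :
    ∫ x, u x * adj V φ i s x ∂(dens V) = -∫ x, (u (sh i s x) - u x) * φ x ∂(dens V) := by
  have i1 : Integrable (fun x => u x * φ x) (dens V) := (hφ.mul_left hu).int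
  have i2 : Integrable (fun x => u x * (φ (sh i (-s) x) * exp (V x - V (sh i (-s) x))))
      (dens V) := (((hφ.sh i (-s)).mul_right (expV_cont hV i (-s))).mul_left hu).int
  have i3 : Integrable (fun x => u (sh i s x) * φ x) (dens V) :=
    (hφ.mul_left (hu.comp (sh_cont i s))).int
  unfold adj
  simp only [mul_sub, sub_mul]
  rw [integral_sub i1 i2, integral_sub i3 i1, integral_mul_shift hV]
  ring

theorem sh_apply_self (i : ι) (s : ℝ) (x : ι → ℝ) : sh i s x i = x i + s := by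
  unfold sh; simp

theorem sh_apply_ne {i j : ι} (h : j ≠ i) (s : ℝ) (x : ι → ℝ) : sh i s x j = x j := by
  unfold sh; simp [h]

theorem U_sh_sub (S : ℝ) (i : ι) (s : ℝ) (x : ι → ℝ) :
    U S (sh i s x) - U S x = U1 S (x i + s) - U1 S (x i) := by
  unfold U
  rw [← Finset.sum_sub_distrib, Finset.sum_eq_single i]
  · rw [sh_apply_self]
  · intro j _ hj
    rw [sh_apply_ne hj, sub_self]
  · simp

end Vale.Agent.P245
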